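import Vale.Agent.P088.R2.H464.EP.Bd

/-!
# P088: the Hessian form of `ρ` in curved metrics is `|Q|²` up to small errors
-/

open Set Filter
open scoped ContDiff Topology Matrix

noncomputable section

namespace Vale.Agent.P088.R2.H464.Cu

open Vale.Agent.P088.LR Vale.Agent.P088.HY Vale.Agent.P088.R2.H961.GW Vale.Agent.P088.R2.H644.Ch

variable {n : ℕ}

section main

variable {O : Set (V n)} {ε δ₁ δ₂ h₀ h₁ : ℝ} {s₁ s₂ g : MF n} {z : VV n}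

theorem mid_mem (hc : Convex ℝ O) (hx : z.1 ∈ O) (hy : z.2 ∈ O) : mid z ∈ O := by
  have := hc hx hy (a := 1 / 2) (b := 1 / 2) (by norm_num) (by norm_num) (by norm_num)
  have e : mid z = (1 / 2 : ℝ) • z.1 + (1 / 2 : ℝ) • z.2 := by
    unfold mid; rw [smul_add]
  rw [e]; exact this

theorem norm_single_le (k : Fin n) : ‖(Pi.single k 1 : V n)‖ ≤ 1 := by
  rw [pi_norm_le_iff_of_nonneg zero_le_one]
  intro i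
  rw [Pi.single_apply]
  split_ifs <;> simp

theorem dif_x (k : Fin n) : dif ((Pi.single k 1, 0) : VV n) = Pi.single k 1 := by
  simp [dif]

theorem dif_y (k : Fin n) : dif ((0, Pi.single k 1) : VV n) = -Pi.single k 1 := by
  simp [dif]

theorem mid_x (k : Fin n) : mid ((Pi.single k 1, 0) : VV n) = (1 / 2 : ℝ) • Pi.single k 1 := by
  simp [mid]

theorem mid_y (k : Fin n) : mid ((0, Pi.single k 1) : VV n) = (1 / 2 : ℝ) • Pi.single k 1 := by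
  simp [mid]

theorem bf_neg (G : Matrix (Fin n) (Fin n) ℝ) (a b : V n) : bf G (-a) b = -bf G a b := by
  unfold bf
  simp only [← Finset.sum_neg_distrib, Pi.neg_apply]
  exact Finset.sum_congr rfl fun i _ => Finset.sum_congr rfl fun j _ => by ring

theorem half_single_le (k : Fin n) : ‖((1 / 2 : ℝ) • (Pi.single k 1 : V n))‖ ≤ 1 / 2 := by
  rw [norm_smul]
  have := norm_single_le k
  norm_num
  linarith

theorem up_mat_sub (S T : Matrix (Fin n) (Fin n) ℝ) (A : V n) :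
    up (S - T) A = up S A - up T A := by
  funext j
  simp only [up, Pi.sub_apply, Matrix.sub_apply, ← Finset.sum_sub_distrib]
  exact Finset.sum_congr rfl fun i _ => by ring

theorem ab_le (hO : IsOpen O) (hc : Convex ℝ O) (n₁ : Nr O ε δ₁ δ₂ s₁)
    (hh : Dst O h₀ h₁ s₁ s₂) (hδ : 0 ≤ δ₁) (hε : n * ε ≤ 1 / 2) (hx : z.1 ∈ O)
    (hy : z.2 ∈ O) (A B : V n) : ‖A - B‖ ≤ 2 * (‖up (s₁ z.1) A - up (s₂ z.2) B‖ +
      n * ((n * δ₁ * ‖dif z‖ + h₀) * ‖B‖)) := by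
  refine (up_ge n₁ hε hx (A - B)).trans ?_
  have e : up (s₁ z.1) (A - B) = (up (s₁ z.1) A - up (s₂ z.2) B) -
      up (s₁ z.1 - s₂ z.2) B := by
    rw [up_sub, up_mat_sub]; abel
  have q0 : ∀ i j, |(s₁ z.1 - s₂ z.2) i j| ≤ n * δ₁ * ‖dif z‖ + h₀ := by
    intro i j
    have a1 := n₁.mv hO hc hδ hx hy i j
    have a2 := hh.b0 z.2 hy i j
    have e : (s₁ z.1 - s₂ z.2) i j = (s₁ z.1 i j - s₁ z.2 i j) + (s₁ z.2 i j - s₂ z.2 i j) := by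
      rw [Matrix.sub_apply]; ring
    rw [e]
    exact (abs_add_le _ _).trans (add_le_add a1 a2)
  have h1 := up_le q0 B
  rw [e]
  have := norm_sub_le (up (s₁ z.1) A - up (s₂ z.2) B) (up (s₁ z.1 - s₂ z.2) B)
  linarith

/-- The exact formula for the Hessian form of `ρ`. -/
theorem TH_rq_eq (hO : IsOpen O) (hc : Convex ℝ O) (n₁ : Nr O ε δ₁ δ₂ s₁)
    (n₂ : Nr O ε δ₁ δ₂ s₂) (ng : Nr O ε δ₁ δ₂ g) (hx : z.1 ∈ O) (hy : z.2 ∈ O)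
    {A B X Y : V n} (hX : X = up (s₁ z.1) A) (hY : Y = up (s₂ z.2) B) :
    TH (sx s₁) (sy s₂) (rq g) z A B - bf (g (mid z)) (X - Y) (X - Y) =
      2 * bf (dg (mid (X, Y)) g (mid z)) (X - Y) (dif z) +
      1 / 2 * bf (dg (mid (X, Y)) (dg (mid (X, Y)) g) (mid z)) (dif z) (dif z) +
      (∑ k, bf (g (mid z)) (Pi.single k 1) (dif z) * (nv s₁ z.1 A k - nv s₂ z.2 B k)) +
      ∑ k, (1 / 2 * bf (dg ((1 / 2 : ℝ) • Pi.single k 1) g (mid z)) (dif z) (dif z)) *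
        (nv s₁ z.1 A k + nv s₂ z.2 B k) := by
  have hm := mid_mem hc hx hy
  have hU : IsOpen {z : VV n | mid z ∈ O} := hO.preimage contDiff_mid.continuous
  have hW : Sm {z : VV n | mid z ∈ O} (rq g) := sm_rq ng.sm
  have d1 : ∀ i j, DifferentiableAt ℝ (fun x => s₁ x i j) z.1 := fun i j =>
    df_of hO (n₁.sm i j) hx
  have d2 : ∀ i j, DifferentiableAt ℝ (fun x => s₂ x i j) z.2 := fun i j =>
    df_of hO (n₂.sm i j) hy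
  have dg' : ∀ i j, DifferentiableAt ℝ (fun x => g x i j) (mid z) := fun i j =>
    df_of hO (ng.sm i j) hm
  rw [TH_eq hU hW hm n₁.sy n₂.sy d1 d2, ← hX, ← hY, (rq_dd hO ng.sm ng.sy (X, Y) (X, Y) hm).e]
  have ex : ∀ k, dx k (rq g) z = bf (g (mid z)) (Pi.single k 1) (dif z) +
      1 / 2 * bf (dg ((1 / 2 : ℝ) • Pi.single k 1) g (mid z)) (dif z) (dif z) := by
    intro k
    have := (rq_d dg' ng.sy (Pi.single k 1, 0)).e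
    rw [dif_x, mid_x] at this
    exact this
  have ey : ∀ k, dy k (rq g) z = -bf (g (mid z)) (Pi.single k 1) (dif z) +
      1 / 2 * bf (dg ((1 / 2 : ℝ) • Pi.single k 1) g (mid z)) (dif z) (dif z) := by
    intro k
    have := (rq_d dg' ng.sy (0, Pi.single k 1)).e
    rw [dif_y, mid_y, bf_neg] at this
    exact this
  have ed : dif ((X, Y) : VV n) = X - Y := rfl
  rw [ed]
  have : ∀ k, dx k (rq g) z * nv s₁ z.1 A k + dy k (rq g) z * nv s₂ z.2 B k =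
      bf (g (mid z)) (Pi.single k 1) (dif z) * (nv s₁ z.1 A k - nv s₂ z.2 B k) +
      (1 / 2 * bf (dg ((1 / 2 : ℝ) • Pi.single k 1) g (mid z)) (dif z) (dif z)) *
        (nv s₁ z.1 A k + nv s₂ z.2 B k) := by
    intro k; rw [ex, ey]; ring
  have e := Finset.sum_congr (rfl : (Finset.univ : Finset (Fin n)) = Finset.univ)
      fun k _ => this k
  rw [Finset.sum_add_distrib, Finset.sum_add_distrib] at e
  linear_combination e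

/-- The bound of the first term. -/
theorem t1_le {M : Matrix (Fin n) (Fin n) ℝ} {P Q q : V n} {N : ℝ} (hδ : 0 ≤ δ₁)
    (hM : ∀ i j, |M i j| ≤ n * (‖P‖ * δ₁)) (hP : ‖P‖ ≤ n * N) :
    |2 * bf M Q q| ≤ 2 * (n ^ 4 * (δ₁ * ‖q‖ * ‖Q‖ * N)) := by
  have := bf_le (c := n * (‖P‖ * δ₁)) (by positivity) hM Q q
  rw [abs_mul, abs_two]
  have h2 : (n : ℝ) ^ 2 * (n * (‖P‖ * δ₁) * ‖Q‖ * ‖q‖) ≤
      (n : ℝ) ^ 2 * (n * (n * N * δ₁) * ‖Q‖ * ‖q‖) := by gcongr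
  calc 2 * |bf M Q q| ≤ 2 * ((n : ℝ) ^ 2 * (n * (n * N * δ₁) * ‖Q‖ * ‖q‖)) := by linarith
    _ = _ := by ring

/-- The bound of the second term. -/
theorem t2_le {M : Matrix (Fin n) (Fin n) ℝ} {P q : V n} {N : ℝ} (hδ : 0 ≤ δ₂) (hN : 0 ≤ N)
    (hM : ∀ i j, |M i j| ≤ n ^ 2 * (‖P‖ * ‖P‖ * δ₂)) (hP : ‖P‖ ≤ n * N) :
    |1 / 2 * bf M q q| ≤ 1 / 2 * (n ^ 6 * (δ₂ * ‖q‖ ^ 2 * N ^ 2)) := by
  have := bf_le (c := n ^ 2 * (‖P‖ * ‖P‖ * δ₂)) (by positivity) hM q q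
  rw [abs_mul, abs_of_pos (by norm_num : (0 : ℝ) < 1 / 2)]
  have h2 : (n : ℝ) ^ 2 * (n ^ 2 * (‖P‖ * ‖P‖ * δ₂) * ‖q‖ * ‖q‖) ≤
      (n : ℝ) ^ 2 * (n ^ 2 * (n * N * (n * N) * δ₂) * ‖q‖ * ‖q‖) := by gcongr
  calc 1 / 2 * |bf M q q| ≤ 1 / 2 * ((n : ℝ) ^ 2 * (n ^ 2 * (n * N * (n * N) * δ₂) * ‖q‖ *
        ‖q‖)) := by linarith
    _ = _ := by ring

/-- Products of sums. -/
theorem ts_le {f F : Fin n → ℝ} {a b : ℝ} (ha : ∀ k, |f k| ≤ a) (hb : ∀ k, |F k| ≤ b)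
    (ha0 : 0 ≤ a) : |∑ k, f k * F k| ≤ n * (a * b) := by
  refine sum_le1 fun k => ?_
  rw [abs_mul]
  exact mul_le_mul (ha k) (hb k) (abs_nonneg _) ha0

theorem g1_le {G : Matrix (Fin n) (Fin n) ℝ} (hG : ∀ i j, |G i j| ≤ 2) (q : V n) (k : Fin n) :
    |bf G (Pi.single k 1) q| ≤ n ^ 2 * (2 * ‖q‖) := by
  have := bf_le (c := 2) (by norm_num) hG (Pi.single k 1) q
  have h2 := norm_single_le k
  have h3 : (n : ℝ) ^ 2 * (2 * ‖(Pi.single k 1 : V n)‖ * ‖q‖) ≤ (n : ℝ) ^ 2 * (2 * 1 * ‖q‖) := by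
    gcongr
  calc |bf G (Pi.single k 1) q| ≤ (n : ℝ) ^ 2 * (2 * 1 * ‖q‖) := this.trans h3
    _ = _ := by ring

theorem g2_le (hδ : 0 ≤ δ₁) {x : V n} (ng : Nr O ε δ₁ δ₂ g) (hx : x ∈ O) (q : V n) (k : Fin n) :
    |1 / 2 * bf (dg ((1 / 2 : ℝ) • Pi.single k 1) g x) q q| ≤
      1 / 4 * (n ^ 3 * (δ₁ * ‖q‖ ^ 2)) := by
  have := bf_le (c := n * (‖((1 / 2 : ℝ) • (Pi.single k 1 : V n))‖ * δ₁)) (by positivity)
    (fun i j => ng.dg hx _ i j) q q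
  rw [abs_mul, abs_of_pos (by norm_num : (0 : ℝ) < 1 / 2)]
  have h2 := half_single_le k
  have h3 : (n : ℝ) ^ 2 * (n * (‖((1 / 2 : ℝ) • (Pi.single k 1 : V n))‖ * δ₁) * ‖q‖ * ‖q‖) ≤
    (n : ℝ) ^ 2 * (n * (1 / 2 * δ₁) * ‖q‖ * ‖q‖) := by gcongr
  calc _ ≤ 1 / 2 * ((n : ℝ) ^ 2 * (n * (1 / 2 * δ₁) * ‖q‖ * ‖q‖)) := by linarith
    _ = _ := by ring

theorem v1_le (hO : IsOpen O) (hc : Convex ℝ O) (n₁ : Nr O ε δ₁ δ₂ s₁) (n₂ : Nr O ε δ₁ δ₂ s₂)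
    (hh : Dst O h₀ h₁ s₁ s₂) (hδ : 0 ≤ δ₁) (hδ' : 0 ≤ δ₂) (hh0 : 0 ≤ h₀)
    (hh1 : 0 ≤ h₁) (hε1 : ε ≤ 1) (hε : n * ε ≤ 1 / 2) (hx : z.1 ∈ O) (hy : z.2 ∈ O)
    (A B : V n) {N K : ℝ} (hN : N = ‖A‖ + ‖B‖)
    (hK : K = ‖up (s₁ z.1) A - up (s₂ z.2) B‖) (k : Fin n) :
    |nv s₁ z.1 A k - nv s₂ z.2 B k| ≤
      n ^ 3 * (3 * ((n * δ₂ * ‖dif z‖ + h₁) + (n * δ₁ * ‖dif z‖ + h₀) * δ₁) * N ^ 2) +
      n ^ 3 * (3 * δ₁ * (2 * (K + n * ((n * δ₁ * ‖dif z‖ + h₀) * N)) * N)) := by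
  have A0 := norm_nonneg A
  have B0 := norm_nonneg B
  have N0 : 0 ≤ N := by rw [hN]; positivity
  have AN : ‖A‖ ≤ N := by rw [hN]; linarith
  have BN : ‖B‖ ≤ N := by rw [hN]; linarith
  have K0 : 0 ≤ K := by rw [hK]; positivity
  have a1 := nv_pt hO hc n₁ n₂ hh hε1 hx hy A k
  have a2 := nv_sub n₂ hε1 hy A B k
  have e : nv s₁ z.1 A k - nv s₂ z.2 B k = (nv s₁ z.1 A k - nv s₂ z.2 A k) +
    (nv s₂ z.2 A k - nv s₂ z.2 B k) := by ring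
  rw [e]
  refine (abs_add_le _ _).trans (add_le_add ?_ ?_)
  · refine a1.trans ?_
    have : ‖z.1 - z.2‖ = ‖dif z‖ := rfl
    rw [this]
    gcongr
  · refine a2.trans ?_
    have h5 : ‖A - B‖ ≤ 2 * (K + n * ((n * δ₁ * ‖dif z‖ + h₀) * N)) := by
      refine (ab_le hO hc n₁ hh hδ hε hx hy A B).trans ?_
      rw [← hK]
      gcongr
    rw [← hN]
    gcongr

theorem v2_le (n₁ : Nr O ε δ₁ δ₂ s₁) (n₂ : Nr O ε δ₁ δ₂ s₂) (hδ : 0 ≤ δ₁) (hε1 : ε ≤ 1)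
    (hx : z.1 ∈ O) (hy : z.2 ∈ O) (A B : V n) {N : ℝ} (hN : N = ‖A‖ + ‖B‖) (k : Fin n) :
    |nv s₁ z.1 A k + nv s₂ z.2 B k| ≤ 3 * (n ^ 3 * (δ₁ * N ^ 2)) := by
  have A0 := norm_nonneg A
  have B0 := norm_nonneg B
  have a1 := nv_le n₁ hε1 hx A k
  have a2 := nv_le n₂ hε1 hy B k
  refine (abs_add_le _ _).trans ?_
  have h6 : ‖A‖ ^ 2 + ‖B‖ ^ 2 ≤ N ^ 2 := by rw [hN]; nlinarith
  have h7 : (n : ℝ) ^ 3 * (3 * δ₁) * (‖A‖ ^ 2 + ‖B‖ ^ 2) ≤ (n : ℝ) ^ 3 * (3 * δ₁) * N ^ 2 := by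
    gcongr
  calc _ ≤ (n : ℝ) ^ 3 * (3 * δ₁) * (‖A‖ ^ 2 + ‖B‖ ^ 2) := by linarith
    _ ≤ _ := h7
    _ = _ := by ring

theorem fin_le {m r N K b1 b2 b3 b4 : ℝ} (m0 : 0 ≤ m) (r0 : 0 ≤ r) (N0 : 0 ≤ N) (K0 : 0 ≤ K)
    (hδ : 0 ≤ δ₁) (hδ' : 0 ≤ δ₂) (hh0 : 0 ≤ h₀) (hh1 : 0 ≤ h₁)
    (t1 : |b1| ≤ 2 * (m ^ 4 * (δ₁ * r * K * N)))
    (t2 : |b2| ≤ 1 / 2 * (m ^ 6 * (δ₂ * r ^ 2 * N ^ 2)))
    (t3 : |b3| ≤ m * (m ^ 2 * (2 * r) * (m ^ 3 * (3 * ((m * δ₂ * r + h₁) +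
      (m * δ₁ * r + h₀) * δ₁) * N ^ 2) +
      m ^ 3 * (3 * δ₁ * (2 * (K + m * ((m * δ₁ * r + h₀) * N)) * N)))))
    (t4 : |b4| ≤ m * (1 / 4 * (m ^ 3 * (δ₁ * r ^ 2)) * (3 * (m ^ 3 * (δ₁ * N ^ 2))))) :
    |b1 + b2 + b3 + b4| ≤ 20 * (m + 1) ^ 8 * (δ₁ * r * K * N +
        (δ₂ + δ₁ ^ 2) * r ^ 2 * N ^ 2 + (h₁ + δ₁ * h₀) * r * N ^ 2) := by
  have pw : ∀ k : ℕ, k ≤ 8 → m ^ k ≤ (m + 1) ^ 8 := by
    intro k hk
    calc m ^ k ≤ (m + 1) ^ k := by gcongr; linarith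
      _ ≤ (m + 1) ^ 8 := pow_le_pow_right₀ (by linarith) hk
  have p4 := pw 4 (by norm_num)
  have p6 := pw 6 (by norm_num)
  have p7 := pw 7 (by norm_num)
  have p8 := pw 8 (by norm_num)
  have M0 : 0 ≤ (m + 1) ^ 8 := by positivity
  generalize (m + 1) ^ 8 = M at *
  obtain ⟨X1, hX1⟩ : ∃ X1, X1 = δ₁ * r * K * N := ⟨_, rfl⟩
  obtain ⟨X2, hX2⟩ : ∃ X2, X2 = δ₂ * r ^ 2 * N ^ 2 := ⟨_, rfl⟩
  obtain ⟨X3, hX3⟩ : ∃ X3, X3 = δ₁ ^ 2 * r ^ 2 * N ^ 2 := ⟨_, rfl⟩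
  obtain ⟨X4, hX4⟩ : ∃ X4, X4 = h₁ * r * N ^ 2 := ⟨_, rfl⟩
  obtain ⟨X5, hX5⟩ : ∃ X5, X5 = δ₁ * h₀ * r * N ^ 2 := ⟨_, rfl⟩
  have x1 : 0 ≤ X1 := by rw [hX1]; positivity
  have x2 : 0 ≤ X2 := by rw [hX2]; positivity
  have x3 : 0 ≤ X3 := by rw [hX3]; positivity
  have x4 : 0 ≤ X4 := by rw [hX4]; positivity
  have x5 : 0 ≤ X5 := by rw [hX5]; positivity
  have f3 : m * (m ^ 2 * (2 * r) * (m ^ 3 * (3 * ((m * δ₂ * r + h₁) + (m * δ₁ * r + h₀) * δ₁) *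
      N ^ 2) + m ^ 3 * (3 * δ₁ * (2 * (K + m * ((m * δ₁ * r + h₀) * N)) * N)))) =
      12 * (m ^ 6 * X1) + 6 * (m ^ 7 * X2) + (6 * (m ^ 7 * X3) + 12 * (m ^ 8 * X3)) +
        6 * (m ^ 6 * X4) + (6 * (m ^ 6 * X5) + 12 * (m ^ 7 * X5)) := by
    rw [hX1, hX2, hX3, hX4, hX5]; ring
  have f4 : m * (1 / 4 * (m ^ 3 * (δ₁ * r ^ 2)) * (3 * (m ^ 3 * (δ₁ * N ^ 2)))) =
      3 / 4 * (m ^ 7 * X3) := by
    rw [hX3]; ring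
  have f5 : 20 * M * (δ₁ * r * K * N + (δ₂ + δ₁ ^ 2) * r ^ 2 * N ^ 2 +
      (h₁ + δ₁ * h₀) * r * N ^ 2) =
      20 * (M * X1) + 20 * (M * X2) + 20 * (M * X3) + 20 * (M * X4) + 20 * (M * X5) := by
    rw [hX1, hX2, hX3, hX4, hX5]; ring
  rw [f5]
  rw [f3] at t3
  rw [f4] at t4
  rw [← hX1] at t1
  rw [← hX2] at t2
  have q1 : m ^ 4 * X1 ≤ M * X1 := mul_le_mul_of_nonneg_right p4 x1
  have q2 : m ^ 6 * X1 ≤ M * X1 := mul_le_mul_of_nonneg_right p6 x1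
  have q3 : m ^ 6 * X2 ≤ M * X2 := mul_le_mul_of_nonneg_right p6 x2
  have q4 : m ^ 7 * X2 ≤ M * X2 := mul_le_mul_of_nonneg_right p7 x2
  have q5 : m ^ 7 * X3 ≤ M * X3 := mul_le_mul_of_nonneg_right p7 x3
  have q6 : m ^ 8 * X3 ≤ M * X3 := mul_le_mul_of_nonneg_right p8 x3
  have q7 : m ^ 6 * X4 ≤ M * X4 := mul_le_mul_of_nonneg_right p6 x4
  have q8 : m ^ 6 * X5 ≤ M * X5 := mul_le_mul_of_nonneg_right p6 x5
  have q9 : m ^ 7 * X5 ≤ M * X5 := mul_le_mul_of_nonneg_right p7 x5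
  refine (abs_add_le _ _).trans ?_
  refine (add_le_add ((abs_add_le _ _).trans (add_le_add (abs_add_le _ _) le_rfl)) le_rfl).trans ?_
  have y1 := mul_nonneg M0 x1
  have y2 := mul_nonneg M0 x2
  have y3 := mul_nonneg M0 x3
  have y4 := mul_nonneg M0 x4
  have y5 := mul_nonneg M0 x5
  linarith

/-- **The Hessian form of `ρ`.** -/
theorem TH_rq (hO : IsOpen O) (hc : Convex ℝ O) (n₁ : Nr O ε δ₁ δ₂ s₁) (n₂ : Nr O ε δ₁ δ₂ s₂)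
    (ng : Nr O ε δ₁ δ₂ g) (hh : Dst O h₀ h₁ s₁ s₂) (hδ : 0 ≤ δ₁) (hδ' : 0 ≤ δ₂) (hh0 : 0 ≤ h₀)
    (hh1 : 0 ≤ h₁) (hε1 : ε ≤ 1) (hε : n * ε ≤ 1 / 2) (hx : z.1 ∈ O) (hy : z.2 ∈ O)
    (A B : V n) :
    |TH (sx s₁) (sy s₂) (rq g) z A B - bf (g (mid z)) (up (s₁ z.1) A - up (s₂ z.2) B)
      (up (s₁ z.1) A - up (s₂ z.2) B)| ≤ 20 * (n + 1) ^ 8 *
      (δ₁ * ‖dif z‖ * ‖up (s₁ z.1) A - up (s₂ z.2) B‖ * (‖A‖ + ‖B‖) +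
        (δ₂ + δ₁ ^ 2) * ‖dif z‖ ^ 2 * (‖A‖ + ‖B‖) ^ 2 +
        (h₁ + δ₁ * h₀) * ‖dif z‖ * (‖A‖ + ‖B‖) ^ 2) := by
  have hm := mid_mem hc hx hy
  rw [TH_rq_eq hO hc n₁ n₂ ng hx hy rfl rfl]
  have A0 := norm_nonneg A
  have B0 := norm_nonneg B
  have hP : ‖mid ((up (s₁ z.1) A, up (s₂ z.2) B) : VV n)‖ ≤ n * (‖A‖ + ‖B‖) := by
    have a1 : ‖up (s₁ z.1) A‖ ≤ n * (2 * ‖A‖) := up_le (fun i j => n₁.le2 hε1 hx i j) A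
    have a2 : ‖up (s₂ z.2) B‖ ≤ n * (2 * ‖B‖) := up_le (fun i j => n₂.le2 hε1 hy i j) B
    unfold mid
    rw [norm_smul]
    have := norm_add_le (up (s₁ z.1) A) (up (s₂ z.2) B)
    norm_num
    linarith
  exact fin_le (Nat.cast_nonneg n) (norm_nonneg _) (by positivity) (norm_nonneg _) hδ hδ' hh0 hh1
    (t1_le hδ (fun i j => ng.dg hm _ i j) hP)
    (t2_le hδ' (by positivity) (fun i j => ng.dg2 hO hm _ _ i j) hP)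
    (ts_le (g1_le (fun i j => ng.le2 hε1 hm i j) _)
      (v1_le hO hc n₁ n₂ hh hδ hδ' hh0 hh1 hε1 hε hx hy A B rfl rfl) (by positivity))
    (ts_le (g2_le hδ ng hm _) (v2_le n₁ n₂ hδ hε1 hx hy A B rfl) (by positivity))

/-- The pairing of the gradient of `ρ` with a pair of covectors. -/
theorem GA_eq {W : VV n → ℝ} (A B : V n) :
    GA (sx s₁) (sy s₂) W z A B = fderiv ℝ W z (up (s₁ z.1) A, up (s₂ z.2) B) := by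
  rw [pr_add, map_add, inl_sum (up (s₁ z.1) A), inr_sum (up (s₂ z.2) B)]
  simp only [map_sum, map_smul, smul_eq_mul]
  unfold GA Gr
  have e1 : ∀ i j, (sx s₁).s i j z = s₁ z.1 i j := fun _ _ => rfl
  have e2 : ∀ i j, (sy s₂).s i j z = s₂ z.2 i j := fun _ _ => rfl
  congr 1
  · simp only [Finset.sum_mul, up, Dx1, e1]
    rw [Finset.sum_comm]
    refine Finset.sum_congr rfl fun j _ => Finset.sum_congr rfl fun i _ => ?_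
    ring
  · simp only [Finset.sum_mul, up, Dy1, e2]
    rw [Finset.sum_comm]
    refine Finset.sum_congr rfl fun j _ => Finset.sum_congr rfl fun i _ => ?_
    ring

theorem norm_mid_up (n₁ : Nr O ε δ₁ δ₂ s₁) (n₂ : Nr O ε δ₁ δ₂ s₂) (hε1 : ε ≤ 1)
    (hx : z.1 ∈ O) (hy : z.2 ∈ O) (A B : V n) :
    ‖mid ((up (s₁ z.1) A, up (s₂ z.2) B) : VV n)‖ ≤ n * (‖A‖ + ‖B‖) := by
  have a1 : ‖up (s₁ z.1) A‖ ≤ n * (2 * ‖A‖) := up_le (fun i j => n₁.le2 hε1 hx i j) A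
  have a2 : ‖up (s₂ z.2) B‖ ≤ n * (2 * ‖B‖) := up_le (fun i j => n₂.le2 hε1 hy i j) B
  unfold mid
  rw [norm_smul]
  have := norm_add_le (up (s₁ z.1) A) (up (s₂ z.2) B)
  norm_num
  linarith

/-- **The derivative of `ρ`.** -/
theorem GA_rq (hO : IsOpen O) (hc : Convex ℝ O) (n₁ : Nr O ε δ₁ δ₂ s₁) (n₂ : Nr O ε δ₁ δ₂ s₂)
    (ng : Nr O ε δ₁ δ₂ g) (hδ : 0 ≤ δ₁) (hε1 : ε ≤ 1) (hx : z.1 ∈ O) (hy : z.2 ∈ O)
    (A B : V n) :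
    |GA (sx s₁) (sy s₂) (rq g) z A B - bf (g (mid z)) (up (s₁ z.1) A - up (s₂ z.2) B) (dif z)| ≤
      n ^ 4 * (δ₁ * ‖dif z‖ ^ 2 * (‖A‖ + ‖B‖)) := by
  have hm := mid_mem hc hx hy
  have dg' : ∀ i j, DifferentiableAt ℝ (fun x => g x i j) (mid z) := fun i j =>
    df_of hO (ng.sm i j) hm
  rw [GA_eq, (rq_d dg' ng.sy _).e]
  have ed : dif ((up (s₁ z.1) A, up (s₂ z.2) B) : VV n) = up (s₁ z.1) A - up (s₂ z.2) B := rfl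
  rw [ed, add_sub_cancel_left]
  have hP := norm_mid_up n₁ n₂ hε1 hx hy A B
  have := bf_le (c := n * (‖mid ((up (s₁ z.1) A, up (s₂ z.2) B) : VV n)‖ * δ₁)) (by positivity)
    (fun i j => ng.dg hm _ i j) (dif z) (dif z)
  rw [abs_mul, abs_of_pos (by norm_num : (0 : ℝ) < 1 / 2)]
  have h3 : (n : ℝ) ^ 2 * (n * (‖mid ((up (s₁ z.1) A, up (s₂ z.2) B) : VV n)‖ * δ₁) * ‖dif z‖ *
    ‖dif z‖) ≤ (n : ℝ) ^ 2 * (n * (n * (‖A‖ + ‖B‖) * δ₁) * ‖dif z‖ * ‖dif z‖) := by gcongr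
  have h4 : 0 ≤ (n : ℝ) ^ 2 * (n * (n * (‖A‖ + ‖B‖) * δ₁) * ‖dif z‖ * ‖dif z‖) := by positivity
  calc _ ≤ (n : ℝ) ^ 2 * (n * (n * (‖A‖ + ‖B‖) * δ₁) * ‖dif z‖ * ‖dif z‖) := by linarith
    _ = _ := by ring

end main

end Vale.Agent.P088.R2.H464.Cu
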