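import Vale.Agent.P088.R2.H464.EP.Fin
import Vale.Agent.P088.R2.H960.W.Weyl2

/-!
# P088: the function `l(x) + l(y)` and the Weyl terms in the frames
-/

open Set Filter
open scoped ContDiff Topology Matrix

noncomputable section

namespace Vale.Agent.P088.R2.H464.Cu

open Vale.Agent.P088.LR Vale.Agent.P088.HY Vale.Agent.P088.R2.H961.GW Vale.Agent.P088.R2.H644.Ch

variable {n : ℕ}

/-- `l(x) + l(y)`. -/
def uf (l : V n → ℝ) (z : VV n) : ℝ := l z.1 + l z.2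

section main

variable {O : Set (V n)} {ε δ₁ δ₂ h₀ h₁ D G K₂ : ℝ} {s₁ s₂ g : MF n} {z : VV n} {l : V n → ℝ}
  {F₁ F₂ Ψ : Matrix (Fin n) (Fin n) ℝ}

theorem sm_uf (hl : ContDiffOn ℝ ∞ l O) : Sm (O ×ˢ O) (uf l) :=
  (sm_fst (U := O ×ˢ O) (O₁ := O) (O₂ := O) subset_rfl hl).add
    (sm_snd (U := O ×ˢ O) (O₁ := O) (O₂ := O) subset_rfl hl)

theorem gx_uf (hO : IsOpen O) (hl : ContDiffOn ℝ ∞ l O) (hx : z.1 ∈ O) (hy : z.2 ∈ O)
    (k : Fin n) : gx (uf l) z k = pd k l z.1 := by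
  have d1 := df_of hO hl hx
  have d2 := df_of hO hl hy
  have e1 := fd_fst (z := z) d1 (Pi.single k 1) 0
  have e2 := fd_snd (z := z) d2 (Pi.single k 1) 0
  have f1 : DifferentiableAt ℝ (fun z : VV n => l z.1) z :=
    DifferentiableAt.comp z d1 differentiableAt_fst
  have f2 : DifferentiableAt ℝ (fun z : VV n => l z.2) z :=
    DifferentiableAt.comp z d2 differentiableAt_snd
  show fderiv ℝ (fun z : VV n => l z.1 + l z.2) z (Pi.single k 1, 0) = _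
  rw [fderiv_fun_add f1 f2, _root_.add_apply, e1, e2, map_zero, add_zero]
  rfl

theorem gy_uf (hO : IsOpen O) (hl : ContDiffOn ℝ ∞ l O) (hx : z.1 ∈ O) (hy : z.2 ∈ O)
    (k : Fin n) : gy (uf l) z k = pd k l z.2 := by
  have d1 := df_of hO hl hx
  have d2 := df_of hO hl hy
  have e1 := fd_fst (z := z) d1 0 (Pi.single k 1)
  have e2 := fd_snd (z := z) d2 0 (Pi.single k 1)
  have f1 : DifferentiableAt ℝ (fun z : VV n => l z.1) z :=
    DifferentiableAt.comp z d1 differentiableAt_fst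
  have f2 : DifferentiableAt ℝ (fun z : VV n => l z.2) z :=
    DifferentiableAt.comp z d2 differentiableAt_snd
  show fderiv ℝ (fun z : VV n => l z.1 + l z.2) z (0, Pi.single k 1) = _
  rw [fderiv_fun_add f1 f2, _root_.add_apply, e1, e2, map_zero, zero_add]
  rfl

/-- The second derivative of `l(x) + l(y)`. -/
theorem dd_uf (hO : IsOpen O) (hl : ContDiffOn ℝ ∞ l O) (hx : z.1 ∈ O) (hy : z.2 ∈ O)
    (X Y : V n) : fderiv ℝ (fun z' => fderiv ℝ (uf l) z' (X, Y)) z (X, Y) =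
      fderiv ℝ (fun x => fderiv ℝ l x X) z.1 X + fderiv ℝ (fun x => fderiv ℝ l x Y) z.2 Y := by
  have ho : IsOpen (O ×ˢ O) := hO.prod hO
  have e1 : (fun z' => fderiv ℝ (uf l) z' (X, Y)) =ᶠ[𝓝 z]
      fun z' : VV n => fderiv ℝ l z'.1 X + fderiv ℝ l z'.2 Y := by
    filter_upwards [ho.mem_nhds ⟨hx, hy⟩] with w hw
    have d1 := df_of hO hl hw.1
    have d2 := df_of hO hl hw.2
    have f1 : DifferentiableAt ℝ (fun z : VV n => l z.1) w :=
      DifferentiableAt.comp w d1 differentiableAt_fst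
    have f2 : DifferentiableAt ℝ (fun z : VV n => l z.2) w :=
      DifferentiableAt.comp w d2 differentiableAt_snd
    show fderiv ℝ (fun z : VV n => l z.1 + l z.2) w (X, Y) = _
    rw [fderiv_fun_add f1 f2, _root_.add_apply, fd_fst d1 X Y, fd_snd d2 X Y]
  have sX : ∀ X : V n, ContDiffOn ℝ ∞ (fun x => fderiv ℝ l x X) O := by
    intro X
    have h : ContDiffOn ℝ ∞ (fderiv ℝ l) O := hl.fderiv_of_isOpen hO (by norm_num)
    exact h.clm_apply contDiffOn_const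
  have d1 := df_of hO (sX X) hx
  have d2 := df_of hO (sX Y) hy
  have f1 : DifferentiableAt ℝ (fun z : VV n => fderiv ℝ l z.1 X) z :=
    DifferentiableAt.comp z d1 differentiableAt_fst
  have f2 : DifferentiableAt ℝ (fun z : VV n => fderiv ℝ l z.2 Y) z :=
    DifferentiableAt.comp z d2 differentiableAt_snd
  rw [e1.fderiv_eq, fderiv_fun_add f1 f2, _root_.add_apply, fd_fst d1 X Y, fd_snd d2 X Y]

/-- **The Hessian form of `l(x) + l(y)`.** -/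
theorem TH_uf (hO : IsOpen O) (n₁ : Nr O ε δ₁ δ₂ s₁) (n₂ : Nr O ε δ₁ δ₂ s₂) (hε1 : ε ≤ 1)
    (hx : z.1 ∈ O) (hy : z.2 ∈ O) (hl : ContDiffOn ℝ ∞ l O)
    (hG : ∀ x ∈ O, ∀ k, |pd k l x| ≤ G) (A B : V n) :
    |TH (sx s₁) (sy s₂) (uf l) z A B -
      (fderiv ℝ (fun x => fderiv ℝ l x (up (s₁ z.1) A)) z.1 (up (s₁ z.1) A) +
        fderiv ℝ (fun x => fderiv ℝ l x (up (s₂ z.2) B)) z.2 (up (s₂ z.2) B))| ≤
      3 * n ^ 4 * (δ₁ * G * (‖A‖ ^ 2 + ‖B‖ ^ 2)) := by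
  have hU : IsOpen (O ×ˢ O) := hO.prod hO
  have d1 : ∀ i j, DifferentiableAt ℝ (fun x => s₁ x i j) z.1 := fun i j =>
    df_of hO (n₁.sm i j) hx
  have d2 : ∀ i j, DifferentiableAt ℝ (fun x => s₂ x i j) z.2 := fun i j =>
    df_of hO (n₂.sm i j) hy
  rw [TH_eq hU (sm_uf hl) ⟨hx, hy⟩ n₁.sy n₂.sy d1 d2, dd_uf hO hl hx hy]
  have e1 : ∀ k, dx k (uf l) z = pd k l z.1 := fun k => gx_uf hO hl hx hy k
  have e2 : ∀ k, dy k (uf l) z = pd k l z.2 := fun k => gy_uf hO hl hx hy k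
  simp only [e1, e2]
  have t1 : |∑ k, pd k l z.1 * nv s₁ z.1 A k| ≤ n * (G * (n ^ 3 * (3 * δ₁ * ‖A‖ ^ 2))) := by
    refine sum_le1 fun k => ?_
    rw [abs_mul]
    have := hG z.1 hx k
    exact mul_le_mul this (nv_le n₁ hε1 hx A k) (abs_nonneg _) ((abs_nonneg _).trans this)
  have t2 : |∑ k, pd k l z.2 * nv s₂ z.2 B k| ≤ n * (G * (n ^ 3 * (3 * δ₁ * ‖B‖ ^ 2))) := by
    refine sum_le1 fun k => ?_
    rw [abs_mul]
    have := hG z.2 hy k
    exact mul_le_mul this (nv_le n₂ hε1 hy B k) (abs_nonneg _) ((abs_nonneg _).trans this)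
  have e3 : ∀ a b c d : ℝ, a + b + c + d - (a + b) = c + d := fun a b c d => by ring
  rw [e3]
  refine (abs_add_le _ _).trans ((add_le_add t1 t2).trans (le_of_eq (by ring)))

/-- The gradients of `l(x) + l(y)` in the frames are almost equal. -/
theorem grad_uf (hO : IsOpen O) (hc : Convex ℝ O) (hx : z.1 ∈ O) (hy : z.2 ∈ O)
    (hl : ContDiffOn ℝ ∞ l O) (hG : ∀ x ∈ O, ∀ k, |pd k l x| ≤ G) (hG0 : 0 ≤ G)
    (hK : ∀ x ∈ O, ∀ j k, |pd j (pd k l) x| ≤ K₂) (hK0 : 0 ≤ K₂)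
    (f : Fr2 s₁ s₂ g ε D z F₁ F₂ Ψ) :
    ‖F₁ *ᵥ gx (uf l) z - F₂ *ᵥ gy (uf l) z‖ ≤
      2 * n ^ 4 * (D * G) + 2 * n ^ 2 * (K₂ * ‖dif z‖) := by
  have e1 : gx (uf l) z = fun k => pd k l z.1 := funext fun k => gx_uf hO hl hx hy k
  have e2 : gy (uf l) z = fun k => pd k l z.2 := funext fun k => gy_uf hO hl hx hy k
  have e3 : F₁ *ᵥ gx (uf l) z - F₂ *ᵥ gy (uf l) z = (F₁ - F₂) *ᵥ gx (uf l) z +
      F₂ *ᵥ (gx (uf l) z - gy (uf l) z) := by
    rw [Matrix.sub_mulVec, Matrix.mulVec_sub]; abel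
  have a1 : ‖gx (uf l) z‖ ≤ G := by
    rw [pi_norm_le_iff_of_nonneg hG0, e1]
    exact fun k => hG z.1 hx k
  have a2 : ‖gx (uf l) z - gy (uf l) z‖ ≤ n * K₂ * ‖dif z‖ := by
    rw [pi_norm_le_iff_of_nonneg (by positivity), e1, e2]
    intro k
    exact mv_le hO hc (sm_pd hO hl k) hK0 (fun x hx j => hK x hx j k) hx hy
  have a3 : ‖(F₁ - F₂) *ᵥ gx (uf l) z‖ ≤ n * (2 * n ^ 3 * D * ‖gx (uf l) z‖) :=
    mv_le' (fun i j => by rw [Matrix.sub_apply]; exact f.dd i j) _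
  have a4 := mv_le' f.b2 (gx (uf l) z - gy (uf l) z)
  have c0 : (0 : ℝ) ≤ n * (2 * n ^ 3 * D) := by
    rcases Nat.eq_zero_or_pos n with h | h
    · subst h; simp
    · have := (abs_nonneg _).trans (f.dd ⟨0, h⟩ ⟨0, h⟩)
      positivity
  rw [e3]
  refine (norm_add_le _ _).trans ?_
  calc _ ≤ n * (2 * n ^ 3 * D * ‖gx (uf l) z‖) + n * (2 * ‖gx (uf l) z - gy (uf l) z‖) :=
        add_le_add a3 a4
    _ = n * (2 * n ^ 3 * D) * ‖gx (uf l) z‖ + n * (2 * ‖gx (uf l) z - gy (uf l) z‖) := by ring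
    _ ≤ n * (2 * n ^ 3 * D) * G + n * (2 * (n * K₂ * ‖dif z‖)) := by gcongr
    _ = _ := by ring

/-- The pairing in the frame. -/
theorem fr_pair {F S : Matrix (Fin n) (Fin n) ℝ} (hF : ∀ i j, F i j = F j i) (hS : F * F = S)
    (a b : V n) : dt (F *ᵥ a) (F *ᵥ b) = ∑ i, ∑ j, S i j * a i * b j := by
  have e1 : dt (F *ᵥ a) (F *ᵥ b) = ∑ k, ∑ i, ∑ j, F k i * a i * (F k j * b j) := by
    unfold dt
    simp only [Matrix.mulVec, dotProduct, Finset.sum_mul_sum]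
  rw [e1, Finset.sum_comm]
  refine Finset.sum_congr rfl fun i _ => ?_
  rw [Finset.sum_comm]
  refine Finset.sum_congr rfl fun j _ => ?_
  rw [← hS, Matrix.mul_apply, Finset.sum_mul, Finset.sum_mul]
  refine Finset.sum_congr rfl fun k _ => ?_
  rw [hF i k]; ring

/-- **The Weyl term of the first slot in the frame.** -/
theorem tc_x {W : VV n → ℝ} {c : Fin n → VV n → ℝ} {v : V n} (f : Fr2 s₁ s₂ g ε D z F₁ F₂ Ψ)
    (hv : ∀ i, c i z = (F₁ *ᵥ v) i) (A : V n) :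
    H960.W.tc (sx s₁) c W z A = dt v (F₁ *ᵥ gx W z) * dt (F₁ *ᵥ A) (F₁ *ᵥ A) -
      2 * (dt v (F₁ *ᵥ A) * dt (F₁ *ᵥ gx W z) (F₁ *ᵥ A)) := by
  have e1 : ∀ i j, (sx s₁).s i j z = s₁ z.1 i j := fun _ _ => rfl
  have e3 : ∀ j, (sx s₁).D j W z = gx W z j := fun j => congrFun (Dx_one j W) z
  have e4 : ∀ a : V n, ∑ l, (F₁ *ᵥ v) l * a l = dt v (F₁ *ᵥ a) := by
    intro a
    unfold dt
    simp only [Matrix.mulVec, dotProduct, Finset.sum_mul, Finset.mul_sum]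
    rw [Finset.sum_comm]
    refine Finset.sum_congr rfl fun i _ => Finset.sum_congr rfl fun j _ => ?_
    rw [f.y1 j i]; ring
  unfold H960.W.tc
  simp only [hv, e1, e3]
  rw [e4 (fun l => gx W z l), e4 A, fr_pair f.y1 f.q1 A A, fr_pair f.y1 f.q1 (gx W z) A]

/-- **The Weyl term of the second slot in the frame.** -/
theorem tc_y {W : VV n → ℝ} {c : Fin n → VV n → ℝ} {v : V n} (f : Fr2 s₁ s₂ g ε D z F₁ F₂ Ψ)
    (hv : ∀ i, c i z = (F₂ *ᵥ v) i) (A : V n) :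
    H960.W.tc (sy s₂) c W z A = dt v (F₂ *ᵥ gy W z) * dt (F₂ *ᵥ A) (F₂ *ᵥ A) -
      2 * (dt v (F₂ *ᵥ A) * dt (F₂ *ᵥ gy W z) (F₂ *ᵥ A)) := by
  have e1 : ∀ i j, (sy s₂).s i j z = s₂ z.2 i j := fun _ _ => rfl
  have e3 : ∀ j, (sy s₂).D j W z = gy W z j := fun j => congrFun (Dy_one j W) z
  have e4 : ∀ a : V n, ∑ l, (F₂ *ᵥ v) l * a l = dt v (F₂ *ᵥ a) := by
    intro a
    unfold dt
    simp only [Matrix.mulVec, dotProduct, Finset.sum_mul, Finset.mul_sum]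
    rw [Finset.sum_comm]
    refine Finset.sum_congr rfl fun i _ => Finset.sum_congr rfl fun j _ => ?_
    rw [f.y2 j i]; ring
  unfold H960.W.tc
  simp only [hv, e1, e3]
  rw [e4 (fun l => gy W z l), e4 A, fr_pair f.y2 f.q2 A A, fr_pair f.y2 f.q2 (gy W z) A]

/-- Every vector has coordinates in a frame. -/
theorem fr_inv {F : Matrix (Fin n) (Fin n) ℝ} (p : ∀ v : V n, 1 / 2 * dt v v ≤ bf F v v)
    (c : V n) : ∃ v : V n, F *ᵥ v = c := by
  have hinj : Function.Injective F.mulVecLin := by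
    rw [← LinearMap.ker_eq_bot, LinearMap.ker_eq_bot']
    intro v hv
    have h1 := p v
    have h2 : bf F v v = dt v (F *ᵥ v) := by
      unfold bf dt
      simp only [Matrix.mulVec, dotProduct, Finset.mul_sum]
      exact Finset.sum_congr rfl fun i _ => Finset.sum_congr rfl fun j _ => by ring
    have h3 : F *ᵥ v = 0 := hv
    rw [h2, h3] at h1
    have h4 : dt v 0 = 0 := by simp [dt]
    have h5 : dt v v = 0 := le_antisymm (by linarith) (dt_nonneg v)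
    funext i
    have h6 := (Finset.sum_eq_zero_iff_of_nonneg (fun i _ => mul_self_nonneg (v i))).1 h5 i
      (Finset.mem_univ i)
    simpa using h6
  obtain ⟨v, hv⟩ := (LinearMap.injective_iff_surjective.1 hinj) c
  exact ⟨v, hv⟩

end main

end Vale.Agent.P088.R2.H464.Cu
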