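import Vale.Agent.P088.R2.H464.EP.Root
import Vale.Agent.P088.R2.H464.EP.Lfun
import Vale.Agent.P088.R2.H644.W.Wei

/-!
# P088: `ρ = g(p)(q, q) / 2` and `u = l(x) + l(y)` as families of symbols

From `g` and `Dl` symbols of size `1` at the scale `R`: `Du` is a symbol of size `1` at the scale
`R`, and `ρ` is a symbol of size `ρ` at the scale `√ρ`.
-/

open Set Filter
open scoped ContDiff Topology Matrix

noncomputable section

namespace Vale.Agent.P088.R2.H644.Sy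

variable {α E F G : Type*} [NormedAddCommGroup E] [NormedSpace ℝ E] [NormedAddCommGroup F]
  [NormedSpace ℝ F] [NormedAddCommGroup G] [NormedSpace ℝ G] {k : ℕ}

/-- Composition with a linear map. -/
theorem Sf.compL {O : α → Set F} {U : α → Set E} {ρ g : α → F → ℝ} {f : α → F → G}
    (hO : ∀ a, IsOpen (O a)) (h : Sf O ρ g k f) (L : E →L[ℝ] F)
    (hU : ∀ a, ∀ z ∈ U a, L z ∈ O a) (hρ : ∀ a, ∀ x ∈ O a, 0 ≤ ρ a x)
    (hg : ∀ a, ∀ x ∈ O a, 0 ≤ g a x) :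
    Sf U (fun a z => ρ a (L z)) (fun a z => g a (L z)) k fun a z => f a (L z) where
  sm a := (h.sm a).comp L.contDiff.contDiffOn (fun z hz => hU a z hz)
  bd j hj := by
    obtain ⟨C, hC⟩ := h.bd j hj
    refine ⟨|C| * ‖L‖ ^ j, fun a z hz => ?_⟩
    have hz' := hU a z hz
    have o1 : IsOpen (L ⁻¹' O a) := (hO a).preimage L.continuous
    have e1 := L.iteratedFDerivWithin_comp_right (h.sm a) (hO a).uniqueDiffOn o1.uniqueDiffOn
      hz' (i := j) (by exact_mod_cast le_top)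
    rw [iteratedFDerivWithin_of_isOpen j o1 hz', iteratedFDerivWithin_of_isOpen j (hO a) hz'] at e1
    have e2 : iteratedFDeriv ℝ j (fun z => f a (L z)) z = iteratedFDeriv ℝ j (f a ∘ L) z := rfl
    rw [e2, e1]
    refine (ContinuousMultilinearMap.norm_compContinuousLinearMap_le _ _).trans ?_
    rw [Finset.prod_const, Finset.card_univ, Fintype.card_fin]
    have h1 : 0 ≤ g a (L z) * (ρ a (L z))⁻¹ ^ j :=
      mul_nonneg (hg a _ hz') (pow_nonneg (inv_nonneg.2 (hρ a _ hz')) j)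
    have h2 := hC a _ hz'
    have h3 : ‖iteratedFDeriv ℝ j (f a) (L z)‖ ≤ |C| * (g a (L z) * (ρ a (L z))⁻¹ ^ j) :=
      h2.trans (mul_le_mul_of_nonneg_right (le_abs_self C) h1)
    have h4 : 0 ≤ ‖L‖ ^ j := by positivity
    nlinarith [mul_le_mul_of_nonneg_right h3 h4]

/-- Linear functions. -/
theorem Sf.lin {U : α → Set E} {ρ : α → E → ℝ} (L : E →L[ℝ] F) (hρ : ∀ a, ∀ z ∈ U a, 0 < ρ a z)
    {A : ℝ} (hA : ∀ a, ∀ z ∈ U a, ‖L z‖ ≤ A * ρ a z) : Sf U ρ ρ k fun _ z => L z where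
  sm _ := L.contDiff.contDiffOn
  bd j _ := by
    rcases j with _ | j
    · exact ⟨A, fun a z hz => by simpa using hA a z hz⟩
    · refine ⟨‖L‖, fun a z hz => ?_⟩
      have h1 := (hρ a z hz).ne'
      have e1 : fderiv ℝ (fun z => L z) = fun _ => L := funext fun _ => L.fderiv
      rcases j with _ | j
      · rw [← norm_iteratedFDeriv_fderiv, e1]
        simp [h1]
      · rw [← norm_iteratedFDeriv_fderiv, e1, iteratedFDeriv_const_of_ne (Nat.succ_ne_zero j)]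
        have h2 := (hρ a z hz).le
        simp only [Pi.zero_apply, norm_zero]
        positivity

end Vale.Agent.P088.R2.H644.Sy

namespace Vale.Agent.P088.R2.H464.Cu

open Vale.Agent.P088.LR Vale.Agent.P088.HY Vale.Agent.P088.R2.H961.GW Vale.Agent.P088.R2.H644.Ch
open Vale.Agent.P088.R2.H644.Sy

variable {n k : ℕ} {α : Type*} {O : α → Set (V n)} {U : α → Set (VV n)} {R : α → ℝ}
  {g : α → MF n} {l : α → V n → ℝ}

/-- The coordinates of `x - y`. -/
def difL (i : Fin n) : VV n →L[ℝ] ℝ :=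
  (ContinuousLinearMap.proj (R := ℝ) i).comp
    (ContinuousLinearMap.fst ℝ (V n) (V n) - ContinuousLinearMap.snd ℝ (V n) (V n))

theorem difL_apply (i : Fin n) (z : VV n) : difL i z = dif z i := rfl

/-- `g_ij(p)` at a smaller scale. -/
theorem sf_gm (hO : ∀ a, IsOpen (O a)) (hm : ∀ a, ∀ z ∈ U a, mid z ∈ O a) (hR : ∀ a, 0 < R a)
    {i j : Fin n} (hg : Sf O (fun a _ => R a) (fun _ _ => 1) k (fun a x => g a x i j))
    {r : α → VV n → ℝ} (hr : ∀ a, ∀ z ∈ U a, 0 < r a z) {A : ℝ}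
    (hA : ∀ a, ∀ z ∈ U a, r a z ≤ A * R a) :
    Sf U r (fun _ _ => 1) k fun a z => g a (mid z) i j :=
  (Sf.compL hO hg (midL n) (fun a z hz => hm a z hz) (fun a _ _ => (hR a).le)
    (fun _ _ _ => zero_le_one)).mono_ρ (fun a _ _ => hR a) hr (fun _ _ _ => zero_le_one) hA

/-- **`ρ` is a symbol of size `r²` at every scale `r` with `|q| ≤ A r`, `r ≤ A R`.** -/
theorem sf_rq_r (hO : ∀ a, IsOpen (O a)) (hU : ∀ a, IsOpen (U a))
    (hm : ∀ a, ∀ z ∈ U a, mid z ∈ O a) (hR : ∀ a, 0 < R a)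
    (hg : ∀ i j, Sf O (fun a _ => R a) (fun _ _ => 1) k (fun a x => g a x i j))
    {r : α → VV n → ℝ} (hr : ∀ a, ∀ z ∈ U a, 0 < r a z) {A : ℝ}
    (h1 : ∀ a, ∀ z ∈ U a, ∀ i, |dif z i| ≤ A * r a z) (h2 : ∀ a, ∀ z ∈ U a, r a z ≤ A * R a) :
    Sf U r (fun a z => r a z * r a z) k (fun a => rq (g a)) := by
  have hd : ∀ i : Fin n, Sf U r r k fun _ z => dif z i := fun i =>
    Sf.lin (difL i) hr (A := A) fun a z hz => by
      rw [Real.norm_eq_abs, difL_apply]; exact h1 a z hz i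
  have ht : ∀ i j : Fin n, Sf U r (fun a z => r a z * r a z) k
      fun a z => g a (mid z) i j * dif z i * dif z j := fun i j =>
    (((sf_gm hO hm hR (hg i j) hr h2).mul hU (hd i)).mul hU (hd j)).wcongr fun a z _ => by ring
  have hs := (Sf.sum hU Finset.univ fun i _ => Sf.sum hU Finset.univ fun j _ => ht i j).csmul hU
    (1 / 2 : ℝ)
  exact hs.congr hU fun a z _ => by simp only [rq, bf, smul_eq_mul]

/-- **`ρ` at its own scale.** -/
theorem sf_rq (hO : ∀ a, IsOpen (O a)) (hU : ∀ a, IsOpen (U a))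
    (hm : ∀ a, ∀ z ∈ U a, mid z ∈ O a) (hR : ∀ a, 0 < R a)
    (hg : ∀ i j, Sf O (fun a _ => R a) (fun _ _ => 1) k (fun a x => g a x i j))
    (h0 : ∀ a, ∀ z ∈ U a, 0 < rq (g a) z) {A : ℝ}
    (h1 : ∀ a, ∀ z ∈ U a, ∀ i, |dif z i| ≤ A * √(rq (g a) z))
    (h2 : ∀ a, ∀ z ∈ U a, √(rq (g a) z) ≤ A * R a) :
    Sf U (fun a z => √(rq (g a) z)) (fun a => rq (g a)) k (fun a => rq (g a)) :=
  (sf_rq_r hO hU hm hR hg (r := fun a z => √(rq (g a) z)) (fun a z hz => Real.sqrt_pos.2 (h0 a z hz))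
    h1 h2).wcongr fun a z hz => (Real.mul_self_sqrt (h0 a z hz).le).symm

/-- The derivative of `l(x) + l(y)`. -/
theorem fd_uf {l : V n → ℝ} {O : Set (V n)} (hO : IsOpen O) (hl : ContDiffOn ℝ ∞ l O) {z : VV n}
    (hx : z.1 ∈ O) (hy : z.2 ∈ O) : fderiv ℝ (uf l) z =
      (fderiv ℝ l z.1).comp (ContinuousLinearMap.fst ℝ (V n) (V n)) +
      (fderiv ℝ l z.2).comp (ContinuousLinearMap.snd ℝ (V n) (V n)) := by
  have d1 := (df_of hO hl hx).hasFDerivAt
  have d2 := (df_of hO hl hy).hasFDerivAt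
  have f1 := d1.comp z (hasFDerivAt_fst (𝕜 := ℝ) (E := V n) (F := V n) (p := z))
  have f2 := d2.comp z (hasFDerivAt_snd (𝕜 := ℝ) (E := V n) (F := V n) (p := z))
  exact (f1.add f2).fderiv

/-- **`Du` is a symbol of size `1` at the scale `R`.** -/
theorem sf_duf (hO : ∀ a, IsOpen (O a)) (hU : ∀ a, IsOpen (U a))
    (hx : ∀ a, ∀ z ∈ U a, z.1 ∈ O a) (hy : ∀ a, ∀ z ∈ U a, z.2 ∈ O a) (hR : ∀ a, 0 < R a)
    (hs : ∀ a, ContDiffOn ℝ ∞ (l a) (O a))
    (hl : Sf O (fun a _ => R a) (fun _ _ => 1) k (fun a => fderiv ℝ (l a))) :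
    Sf U (fun a _ => R a) (fun _ _ => 1) k (fun a => fderiv ℝ (uf (l a))) := by
  have h1 := (Sf.compL (U := U) hO hl (ContinuousLinearMap.fst ℝ (V n) (V n)) hx
    (fun a _ _ => (hR a).le) (fun _ _ _ => zero_le_one)).clm hU
    ((ContinuousLinearMap.compL ℝ (VV n) (V n) ℝ).flip (ContinuousLinearMap.fst ℝ (V n) (V n)))
  have h2 := (Sf.compL (U := U) hO hl (ContinuousLinearMap.snd ℝ (V n) (V n)) hy
    (fun a _ _ => (hR a).le) (fun _ _ _ => zero_le_one)).clm hU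
    ((ContinuousLinearMap.compL ℝ (VV n) (V n) ℝ).flip (ContinuousLinearMap.snd ℝ (V n) (V n)))
  refine (h1.add hU h2).congr hU fun a z hz => ?_
  rw [fd_uf (hO a) (hs a) (hx a z hz) (hy a z hz)]
  rfl

/-! ## Size of `ρ` -/

theorem dt_ge (v : V n) (i : Fin n) : v i ^ 2 ≤ dt v v := by
  unfold dt
  refine le_trans (le_of_eq (by ring)) (Finset.single_le_sum (f := fun i => v i * v i)
    (fun j _ => mul_self_nonneg (v j)) (Finset.mem_univ i))

theorem rq_bd {O : Set (V n)} {ε δ₁ δ₂ : ℝ} {g : MF n} (h : Nr O ε δ₁ δ₂ g) (hε : n * ε ≤ 1 / 2)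
    {z : VV n} (hz : mid z ∈ O) :
    1 / 8 * dt (dif z) (dif z) ≤ rq g z ∧ rq g z ≤ dt (dif z) (dif z) := by
  have h1 := form_ge hε (h.b0 (mid z) hz) (dif z)
  have h2 : bf (g (mid z)) (dif z) (dif z) ≤ 2 * dt (dif z) (dif z) := by
    have e1 : bf (g (mid z)) (dif z) (dif z) = dt (dif z) (dif z) +
        bf (g (mid z) - 1) (dif z) (dif z) := by
      unfold bf dt
      simp only [Matrix.sub_apply, sub_mul, Finset.sum_sub_distrib, Matrix.one_apply]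
      simp
    have e2 : ∀ i j, |(g (mid z) - 1) i j * dif z i * dif z j| ≤
        ε * (1 / 2 * (dif z i * dif z i) + 1 / 2 * (dif z j * dif z j)) := by
      intro i j
      rw [abs_mul, abs_mul, mul_assoc]
      have h3 : |dif z i| * |dif z j| ≤ 1 / 2 * (dif z i * dif z i) +
          1 / 2 * (dif z j * dif z j) := by
        nlinarith [sq_nonneg (|dif z i| - |dif z j|), sq_abs (dif z i), sq_abs (dif z j)]
      have h4 : |(g (mid z) - 1) i j| ≤ ε := h.b0 (mid z) hz i j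
      exact mul_le_mul h4 h3 (by positivity) ((abs_nonneg _).trans h4)
    have e3 : bf (g (mid z) - 1) (dif z) (dif z) ≤ n * ε * dt (dif z) (dif z) := by
      unfold bf
      refine (Finset.sum_le_sum fun i _ => Finset.sum_le_sum fun j _ =>
        (le_abs_self _).trans (e2 i j)).trans (le_of_eq ?_)
      unfold dt
      simp only [← Finset.mul_sum, Finset.sum_add_distrib, Finset.sum_const, Finset.card_univ,
        Fintype.card_fin, nsmul_eq_mul]
      have h7 : ∑ i, dif z i * (n * dif z i) = n * ∑ i, dif z i * dif z i := by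
        rw [Finset.mul_sum]
        exact Finset.sum_congr rfl fun i _ => by ring
      rw [h7]
      ring
    have h0 : 0 ≤ dt (dif z) (dif z) := Finset.sum_nonneg fun i _ => mul_self_nonneg _
    nlinarith
  unfold rq
  constructor <;> linarith

/-- `|q_i| ≤ 3 √ρ`. -/
theorem dif_le {O : Set (V n)} {ε δ₁ δ₂ : ℝ} {g : MF n} (h : Nr O ε δ₁ δ₂ g) (hε : n * ε ≤ 1 / 2)
    {z : VV n} (hz : mid z ∈ O) (i : Fin n) : |dif z i| ≤ 3 * √(rq g z) := by
  have h1 := (rq_bd h hε hz).1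
  have h2 := dt_ge (dif z) i
  have h3 : |dif z i| ^ 2 ≤ (3 * √(rq g z)) ^ 2 := by
    have h0 : 0 ≤ dt (dif z) (dif z) := Finset.sum_nonneg fun i _ => mul_self_nonneg _
    rw [mul_pow, Real.sq_sqrt (by linarith), sq_abs]
    linarith
  exact abs_le_of_sq_le_sq' h3 (by positivity) |>.2

/-- Off the diagonal: the family `u = l(x) + l(y)`, `ρ = g(p)(q, q)/2`. -/
theorem wf_of {c A : ℝ} (hc : 0 ≤ c) (hO : ∀ a, IsOpen (O a)) (hU : ∀ a, IsOpen (U a))
    (hx : ∀ a, ∀ z ∈ U a, z.1 ∈ O a) (hy : ∀ a, ∀ z ∈ U a, z.2 ∈ O a)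
    (hm : ∀ a, ∀ z ∈ U a, mid z ∈ O a) (hR : ∀ a, 0 < R a)
    {ε δ₁ δ₂ : α → ℝ} (hN : ∀ a, Nr (O a) (ε a) (δ₁ a) (δ₂ a) (g a)) (hε : ∀ a, n * ε a ≤ 1 / 2)
    (hg : ∀ i j, Sf O (fun a _ => R a) (fun _ _ => 1) (k + 1) (fun a x => g a x i j))
    (hs : ∀ a, ContDiffOn ℝ ∞ (l a) (O a))
    (hl : Sf O (fun a _ => R a) (fun _ _ => 1) k (fun a => fderiv ℝ (l a)))
    (h0 : ∀ a, ∀ z ∈ U a, c < rq (g a) z) (h2 : ∀ a, ∀ z ∈ U a, √(rq (g a) z) ≤ A * R a) :
    Wf U (fun a => uf (l a)) (fun a => rq (g a)) k c where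
  op := hU
  su a := (sm_uf (hs a)).mono fun z hz => ⟨hx a z hz, hy a z hz⟩
  hρ := h0
  du := (sf_duf hO hU hx hy hR hs hl).mono_ρ (fun a _ _ => hR a)
    (fun a z hz => Real.sqrt_pos.2 (hc.trans_lt (h0 a z hz))) (fun _ _ _ => zero_le_one) h2
  dρ := sf_rq hO hU hm hR hg (fun a z hz => hc.trans_lt (h0 a z hz)) (A := max 3 A)
    (fun a z hz i => (dif_le (hN a) (hε a) (hm a z hz) i).trans
      (mul_le_mul_of_nonneg_right (le_max_left _ _) (Real.sqrt_nonneg _)))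
    (fun a z hz => (h2 a z hz).trans (mul_le_mul_of_nonneg_right (le_max_right _ _) (hR a).le))

/-- Near the diagonal. -/
theorem wn_of {c A : ℝ} (hO : ∀ a, IsOpen (O a)) (hU : ∀ a, IsOpen (U a))
    (hx : ∀ a, ∀ z ∈ U a, z.1 ∈ O a) (hy : ∀ a, ∀ z ∈ U a, z.2 ∈ O a)
    (hm : ∀ a, ∀ z ∈ U a, mid z ∈ O a) (hR : ∀ a, 0 < R a) (hR1 : ∀ a, 1 ≤ A * R a)
    {ε δ₁ δ₂ : α → ℝ} (hN : ∀ a, Nr (O a) (ε a) (δ₁ a) (δ₂ a) (g a)) (hε : ∀ a, n * ε a ≤ 1 / 2)
    (hg : ∀ i j, Sf O (fun a _ => R a) (fun _ _ => 1) (k + 1) (fun a x => g a x i j))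
    (hs : ∀ a, ContDiffOn ℝ ∞ (l a) (O a))
    (hl : Sf O (fun a _ => R a) (fun _ _ => 1) k (fun a => fderiv ℝ (l a)))
    (h0 : ∀ a, ∀ z ∈ U a, rq (g a) z ≤ c) :
    Wn U (fun a => uf (l a)) (fun a => rq (g a)) k c where
  op := hU
  su a := (sm_uf (hs a)).mono fun z hz => ⟨hx a z hz, hy a z hz⟩
  h0 a z hz := (mul_nonneg (by norm_num) (Finset.sum_nonneg fun i _ => mul_self_nonneg _)).trans
    (rq_bd (hN a) (hε a) (hm a z hz)).1
  h1 := h0
  du := (sf_duf hO hU hx hy hR hs hl).mono_ρ (fun a _ _ => hR a) (fun _ _ _ => one_pos)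
    (fun _ _ _ => zero_le_one) fun a _ _ => hR1 a
  dρ := (sf_rq_r hO hU hm hR hg (r := fun _ _ => 1) (fun _ _ _ => one_pos)
    (A := max (3 * √c) A)
    (fun a z hz i => (dif_le (hN a) (hε a) (hm a z hz) i).trans (by
      rw [mul_one]
      exact (mul_le_mul_of_nonneg_left (Real.sqrt_le_sqrt (h0 a z hz)) (by norm_num)).trans
        (le_max_left _ _)))
    (fun a _ _ => (hR1 a).trans (mul_le_mul_of_nonneg_right (le_max_right _ _) (hR a).le))).wcongr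
      fun a z _ => by simp

end Vale.Agent.P088.R2.H464.Cu
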