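import Mathlib

/-!
# The algebra of differential operators on test functions

`TE E` is the space of smooth compactly supported real functions on `E`, `Sm E` the algebra of
smooth functions. `dv v` (directional derivative) and `ml g` (multiplication) are elements of
`Op E = Module.End ℝ (TE E)`; `ip` is the `L²` product and `Adj A B` says that `B` is the formal
adjoint of `A`.
-/

open MeasureTheory Set
open scoped ContDiff

noncomputable section

namespace Vale.Agent.P088.R2.H464.EP

variable {E : Type} [NormedAddCommGroup E] [NormedSpace ℝ E]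

/-- Smooth functions. -/
def Sm (E : Type) [NormedAddCommGroup E] [NormedSpace ℝ E] : Subalgebra ℝ (E → ℝ) where
  carrier := {f | ContDiff ℝ ∞ f}
  mul_mem' {f g} (hf : ContDiff ℝ ∞ f) (hg : ContDiff ℝ ∞ g) :=
    (hf.mul hg : ContDiff ℝ ∞ fun z => f z * g z)
  add_mem' {f g} (hf : ContDiff ℝ ∞ f) (hg : ContDiff ℝ ∞ g) :=
    (hf.add hg : ContDiff ℝ ∞ fun z => f z + g z)
  algebraMap_mem' r := (contDiff_const : ContDiff ℝ ∞ fun _ : E => r)

/-- Test functions. -/
@[ext] structure TE (E : Type) [NormedAddCommGroup E] [NormedSpace ℝ E] where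
  /-- the function -/
  fn : E → ℝ
  cd : ContDiff ℝ ∞ fn
  cs : HasCompactSupport fn

namespace TE

instance : Zero (TE E) := ⟨⟨fun _ => 0, contDiff_const, HasCompactSupport.zero⟩⟩
instance : Add (TE E) := ⟨fun f g => ⟨fun z => f.fn z + g.fn z, f.cd.add g.cd, f.cs.add g.cs⟩⟩
instance : Neg (TE E) := ⟨fun f => ⟨fun z => - f.fn z, f.cd.neg, f.cs.neg⟩⟩
instance : Sub (TE E) := ⟨fun f g => ⟨fun z => f.fn z - g.fn z, f.cd.sub g.cd, f.cs.sub g.cs⟩⟩
instance : SMul ℝ (TE E) := ⟨fun c f => ⟨fun z => c * f.fn z, contDiff_const.mul f.cd,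
  f.cs.mul_left⟩⟩
instance : SMul ℕ (TE E) := ⟨fun c f => ⟨fun z => c • f.fn z, f.cd.const_smul c,
  f.cs.smul_left (f := fun _ => c)⟩⟩
instance : SMul ℤ (TE E) := ⟨fun c f => ⟨fun z => c • f.fn z, f.cd.const_smul c,
  f.cs.smul_left (f := fun _ => c)⟩⟩

theorem fn_inj : Function.Injective (TE.fn : TE E → E → ℝ) := fun _ _ h => TE.ext h

instance : AddCommGroup (TE E) :=
  fn_inj.addCommGroup _ rfl (fun _ _ => rfl) (fun _ => rfl) (fun _ _ => rfl) (fun _ _ => rfl)
    (fun _ _ => rfl)

/-- `fn` as an additive map. -/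
def fnHom : TE E →+ (E → ℝ) where
  toFun := TE.fn
  map_zero' := rfl
  map_add' _ _ := rfl

instance : Module ℝ (TE E) := fn_inj.module ℝ fnHom (fun _ _ => rfl)

@[simp] theorem add_fn (f g : TE E) (z : E) : (f + g).fn z = f.fn z + g.fn z := rfl
@[simp] theorem sub_fn (f g : TE E) (z : E) : (f - g).fn z = f.fn z - g.fn z := rfl
@[simp] theorem neg_fn (f : TE E) (z : E) : (-f).fn z = - f.fn z := rfl
@[simp] theorem zero_fn (z : E) : (0 : TE E).fn z = 0 := rfl
@[simp] theorem smul_fn (c : ℝ) (f : TE E) (z : E) : (c • f).fn z = c * f.fn z := rfl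

theorem df (f : TE E) : Differentiable ℝ f.fn := f.cd.differentiable (by simp)

theorem ct (f : TE E) : Continuous f.fn := f.cd.continuous

end TE

theorem scd (f : Sm E) : ContDiff ℝ ∞ (f : E → ℝ) := f.2

theorem sdf (f : Sm E) : Differentiable ℝ (f : E → ℝ) := (scd f).differentiable (by simp)

theorem sct (f : Sm E) : Continuous (f : E → ℝ) := (scd f).continuous

/-- Operators on test functions. -/
abbrev Op (E : Type) [NormedAddCommGroup E] [NormedSpace ℝ E] := Module.End ℝ (TE E)

/-- The directional derivative of a test function. -/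
def dv (v : E) : Op E where
  toFun f := ⟨fun z => fderiv ℝ f.fn z v,
    (f.cd.fderiv_right (m := ∞) (by simp)).clm_apply contDiff_const, f.cs.fderiv_apply ℝ v⟩
  map_add' f g := by
    ext z
    change fderiv ℝ (f.fn + g.fn) z v = _
    rw [fderiv_add (f.df z) (g.df z)]; rfl
  map_smul' c f := by
    ext z
    change fderiv ℝ (c • f.fn) z v = _
    rw [fderiv_const_smul (f.df z)]; rfl

/-- The directional derivative of a smooth function. -/
def ds (v : E) : Sm E →ₗ[ℝ] Sm E where
  toFun f := ⟨fun z => fderiv ℝ (f : E → ℝ) z v,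
    ((scd f).fderiv_right (m := ∞) (by simp)).clm_apply contDiff_const⟩
  map_add' f g := by
    ext z
    change fderiv ℝ ((f : E → ℝ) + (g : E → ℝ)) z v = _
    rw [fderiv_add (sdf f z) (sdf g z)]; rfl
  map_smul' c f := by
    ext z
    change fderiv ℝ (c • (f : E → ℝ)) z v = _
    rw [fderiv_const_smul (sdf f z)]; rfl

/-- Multiplication by a smooth function. -/
def ml : Sm E →ₐ[ℝ] Op E where
  toFun g :=
    { toFun := fun f => ⟨fun z => (g : E → ℝ) z * f.fn z, (scd g).mul f.cd, f.cs.mul_left⟩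
      map_add' := fun f h => by
        ext z; change (g : E → ℝ) z * (f.fn z + h.fn z) = _; rw [mul_add]; rfl
      map_smul' := fun c f => by
        ext z
        change (g : E → ℝ) z * (c * f.fn z) = c * ((g : E → ℝ) z * f.fn z); ring }
  map_one' := by ext f z; change (1 : ℝ) * f.fn z = _; simp
  map_mul' g h := by
    ext f z
    change ((g : E → ℝ) z * (h : E → ℝ) z) * f.fn z =
      (g : E → ℝ) z * ((h : E → ℝ) z * f.fn z)
    ring
  map_zero' := by ext f z; change (0 : ℝ) * f.fn z = _; simp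
  map_add' g h := by
    ext f z
    change ((g : E → ℝ) z + (h : E → ℝ) z) * f.fn z =
      (g : E → ℝ) z * f.fn z + (h : E → ℝ) z * f.fn z
    ring
  commutes' r := by
    ext f z
    change r * f.fn z = r * f.fn z
    rfl

@[simp] theorem dv_apply (v : E) (f : TE E) (z : E) : (dv v f).fn z = fderiv ℝ f.fn z v := rfl

@[simp] theorem ds_apply (v : E) (f : Sm E) (z : E) :
    (ds v f : E → ℝ) z = fderiv ℝ (f : E → ℝ) z v := rfl

@[simp] theorem ml_apply (g : Sm E) (f : TE E) (z : E) :
    (ml g f).fn z = (g : E → ℝ) z * f.fn z := rfl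

theorem dv_add (v w : E) : dv (v + w) = dv v + dv w := by
  ext f z; simp [LinearMap.add_apply]

theorem dv_smul (c : ℝ) (v : E) : dv (c • v) = c • dv v := by
  ext f z; simp [LinearMap.smul_apply]

theorem dv_sub (v w : E) : dv (v - w) = dv v - dv w := by
  ext f z; simp [LinearMap.sub_apply]

theorem ds_add (v w : E) : ds (v + w) = ds v + ds w := by
  ext f z; simp [LinearMap.add_apply]

theorem ds_smul (c : ℝ) (v : E) : ds (c • v) = c • ds v := by
  ext f z; simp [LinearMap.smul_apply]

/-- The Leibniz rule. -/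
theorem ds_mul (v : E) (f g : Sm E) : ds v (f * g) = ds v f * g + f * ds v g := by
  ext z
  change fderiv ℝ ((f : E → ℝ) * (g : E → ℝ)) z v =
    fderiv ℝ (f : E → ℝ) z v * (g : E → ℝ) z + (f : E → ℝ) z * fderiv ℝ (g : E → ℝ) z v
  rw [fderiv_mul (sdf f z) (sdf g z)]
  simp only [add_apply, smul_apply, smul_eq_mul]
  ring

/-- The commutator of a derivative and a multiplication. -/
theorem dv_ml (v : E) (g : Sm E) : dv v * ml g = ml g * dv v + ml (ds v g) := by
  ext f z
  change fderiv ℝ (fun y => (g : E → ℝ) y * f.fn y) z v =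
    (g : E → ℝ) z * fderiv ℝ f.fn z v + fderiv ℝ (g : E → ℝ) z v * f.fn z
  rw [fderiv_fun_mul (sdf g z) (f.df z)]
  simp only [add_apply, smul_apply, smul_eq_mul]
  ring

/-- Directional derivatives commute. -/
theorem dv_comm (v w : E) : dv v * dv w = (dv w * dv v : Op E) := by
  ext f z
  change fderiv ℝ (fun y => fderiv ℝ f.fn y w) z v =
    fderiv ℝ (fun y => fderiv ℝ f.fn y v) z w
  have h2 : ContDiffAt ℝ 2 f.fn z := (f.cd.of_le (by norm_cast)).contDiffAt
  have hs := h2.isSymmSndFDerivAt (by simp)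
  have hd : DifferentiableAt ℝ (fderiv ℝ f.fn) z :=
    ((f.cd.fderiv_right (m := ∞) (by simp)).differentiable (by simp)) z
  rw [fderiv_clm_apply hd (differentiableAt_const _),
    fderiv_clm_apply hd (differentiableAt_const _)]
  simpa using hs.eq v w

theorem ds_comm (v w : E) (f : Sm E) : ds v (ds w f) = ds w (ds v f) := by
  ext z
  change fderiv ℝ (fun y => fderiv ℝ (f : E → ℝ) y w) z v =
    fderiv ℝ (fun y => fderiv ℝ (f : E → ℝ) y v) z w
  have h2 : ContDiffAt ℝ 2 (f : E → ℝ) z := ((scd f).of_le (by norm_cast)).contDiffAt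
  have hs := h2.isSymmSndFDerivAt (by simp)
  have hd : DifferentiableAt ℝ (fderiv ℝ (f : E → ℝ)) z :=
    (((scd f).fderiv_right (m := ∞) (by simp)).differentiable (by simp)) z
  rw [fderiv_clm_apply hd (differentiableAt_const _),
    fderiv_clm_apply hd (differentiableAt_const _)]
  simpa using hs.eq v w

@[simp] theorem ds_one (v : E) : ds v (1 : Sm E) = 0 := by
  ext z
  change fderiv ℝ (fun _ : E => (1 : ℝ)) z v = 0
  simp

/-- Multiplications commute. -/
theorem mlc (f h : Sm E) : ml f * ml h = (ml h * ml f : Op E) := by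
  rw [← map_mul, ← map_mul, mul_comm]

variable [MeasurableSpace E] [BorelSpace E]

theorem tint (μ : Measure E) [IsFiniteMeasureOnCompacts μ] (f : TE E) :
    Integrable f.fn μ := f.ct.integrable_of_hasCompactSupport f.cs

theorem integrable_mul (μ : Measure E) [IsFiniteMeasureOnCompacts μ] (f g : TE E) :
    Integrable (fun z => f.fn z * g.fn z) μ :=
  (f.ct.mul g.ct).integrable_of_hasCompactSupport f.cs.mul_right

/-- The `L²` product. -/
def ip (μ : Measure E) [IsFiniteMeasureOnCompacts μ] : TE E →ₗ[ℝ] TE E →ₗ[ℝ] ℝ :=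
  LinearMap.mk₂ ℝ (fun f g => ∫ z, f.fn z * g.fn z ∂μ)
    (fun f g h => by
      rw [← integral_add (integrable_mul μ f h) (integrable_mul μ g h)]
      refine integral_congr_ae (Filter.Eventually.of_forall fun z => ?_)
      simp only [TE.add_fn]
      ring)
    (fun c f g => by
      rw [smul_eq_mul, ← integral_const_mul]
      refine integral_congr_ae (Filter.Eventually.of_forall fun z => ?_)
      simp only [TE.smul_fn]
      ring)
    (fun f g h => by
      rw [← integral_add (integrable_mul μ f g) (integrable_mul μ f h)]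
      refine integral_congr_ae (Filter.Eventually.of_forall fun z => ?_)
      simp only [TE.add_fn]
      ring)
    (fun c f g => by
      rw [smul_eq_mul, ← integral_const_mul]
      refine integral_congr_ae (Filter.Eventually.of_forall fun z => ?_)
      simp only [TE.smul_fn]
      ring)

theorem ip_apply (μ : Measure E) [IsFiniteMeasureOnCompacts μ] (f g : TE E) :
    ip μ f g = ∫ z, f.fn z * g.fn z ∂μ := rfl

theorem ip_comm (μ : Measure E) [IsFiniteMeasureOnCompacts μ] (f g : TE E) :
    ip μ f g = ip μ g f := by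
  rw [ip_apply, ip_apply]
  exact integral_congr_ae (Filter.Eventually.of_forall fun z => mul_comm _ _)

theorem ip_self_nonneg (μ : Measure E) [IsFiniteMeasureOnCompacts μ] (f : TE E) :
    0 ≤ ip μ f f := by
  rw [ip_apply]
  exact integral_nonneg fun z => mul_self_nonneg _

theorem ip_ml (μ : Measure E) [IsFiniteMeasureOnCompacts μ] (g : Sm E) (f h : TE E) :
    ip μ (ml g f) h = ip μ f (ml g h) := by
  rw [ip_apply, ip_apply]
  refine integral_congr_ae (Filter.Eventually.of_forall fun z => ?_)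
  simp only [ml_apply]
  ring

theorem ip_dv (μ : Measure E) [μ.IsAddHaarMeasure] [FiniteDimensional ℝ E] (v : E) (f h : TE E) :
    ip μ (dv v f) h = - ip μ f (dv v h) := by
  rw [ip_apply, ip_apply]
  have := integral_mul_fderiv_eq_neg_fderiv_mul_of_integrable (μ := μ) (f := f.fn)
    (g := h.fn) (v := v) (integrable_mul μ (dv v f) h) (integrable_mul μ f (dv v h))
    (integrable_mul μ f h) (fun x _ => f.df x) (fun x _ => h.df x)
  simp only [dv_apply]
  linarith

theorem ip_ml_nonneg (μ : Measure E) [IsFiniteMeasureOnCompacts μ] {g : Sm E}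
    (hg : ∀ z, 0 ≤ (g : E → ℝ) z) (f : TE E) : 0 ≤ ip μ (ml g f) f := by
  rw [ip_apply]
  refine integral_nonneg fun z => ?_
  simp only [ml_apply, Pi.zero_apply]
  have := mul_nonneg (hg z) (mul_self_nonneg (f.fn z))
  nlinarith [this]

/-- `B` is the formal adjoint of `A`. -/
def Adj (μ : Measure E) [IsFiniteMeasureOnCompacts μ] (A B : Op E) : Prop :=
  ∀ f g, ip μ (A f) g = ip μ f (B g)

section
variable {μ : Measure E} [IsFiniteMeasureOnCompacts μ] {A B C D : Op E}

theorem Adj.symm (h : Adj μ A B) : Adj μ B A := fun f g => by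
  rw [ip_comm, ← h, ip_comm]

theorem Adj.add (h : Adj μ A B) (h' : Adj μ C D) : Adj μ (A + C) (B + D) := fun f g => by
  simp [LinearMap.add_apply, h f g, h' f g]

theorem Adj.sub (h : Adj μ A B) (h' : Adj μ C D) : Adj μ (A - C) (B - D) := fun f g => by
  simp [LinearMap.sub_apply, h f g, h' f g]

theorem Adj.neg (h : Adj μ A B) : Adj μ (-A) (-B) := fun f g => by
  simp [LinearMap.neg_apply, h f g]

theorem Adj.smul (c : ℝ) (h : Adj μ A B) : Adj μ (c • A) (c • B) := fun f g => by
  simp [LinearMap.smul_apply, h f g]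

theorem Adj.mul (h : Adj μ A B) (h' : Adj μ C D) : Adj μ (A * C) (D * B) := fun f g => by
  simp only [Module.End.mul_apply]
  rw [h, h']

theorem Adj.sum {ι : Type*} {s : Finset ι} {A B : ι → Op E}
    (h : ∀ i ∈ s, Adj μ (A i) (B i)) : Adj μ (∑ i ∈ s, A i) (∑ i ∈ s, B i) := fun f g => by
  simp only [LinearMap.sum_apply, map_sum]
  exact Finset.sum_congr rfl fun i hi => h i hi f g

theorem adj_zero : Adj μ 0 0 := fun _ _ => by simp

theorem adj_one : Adj μ 1 1 := fun _ _ => rfl

theorem adj_ml (g : Sm E) : Adj μ (ml g) (ml g) := ip_ml μ g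

end

theorem ip_self_eq_zero (μ : Measure E) [IsFiniteMeasureOnCompacts μ] [μ.IsOpenPosMeasure]
    {f : TE E} (h : ip μ f f = 0) : f = 0 := by
  rw [ip_apply, integral_eq_zero_iff_of_nonneg (fun z => mul_self_nonneg _)
    (integrable_mul μ f f)] at h
  have h1 : (fun z => f.fn z * f.fn z) = fun _ => 0 :=
    (Continuous.ae_eq_iff_eq μ (f.ct.mul f.ct) continuous_const).1 h
  ext z
  exact mul_self_eq_zero.1 (congrFun h1 z)

theorem adj_unique {μ : Measure E} [IsFiniteMeasureOnCompacts μ] [μ.IsOpenPosMeasure]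
    {A B B' : Op E} (h : Adj μ A B) (h' : Adj μ A B') : B = B' := by
  ext1 g
  have h0 : ∀ f, ip μ f (B g - B' g) = 0 := fun f => by
    rw [map_sub, ← h f g, ← h' f g, sub_self]
  exact sub_eq_zero.1 (ip_self_eq_zero μ (h0 _))

theorem adj_eq {μ : Measure E} [IsFiniteMeasureOnCompacts μ] [μ.IsOpenPosMeasure]
    {A A' B B' : Op E} (h : Adj μ A B) (h' : Adj μ A' B') (e : A = A') : B = B' :=
  adj_unique h (e ▸ h')

theorem adj_dv (μ : Measure E) [μ.IsAddHaarMeasure] [FiniteDimensional ℝ E] (v : E) :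
    Adj μ (dv v) (- dv v) := fun f g => by
  rw [ip_dv]; simp

end Vale.Agent.P088.R2.H464.EP
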