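import Vale.Agent.P088.R2.H464.EP.Bd
import Vale.Agent.P088.R2.H644.W.Flat

/-!
# P088: comparison of the curved and the flat expressions (statements)

For `s` with `Nr O ε δ₁ δ₂ s` (`|s - 1| ≤ ε`, `|∂s| ≤ δ₁`, `|∂²s| ≤ δ₂`) the terms of `tstar` in the
slots `sx s₁`, `sy s₂` are the flat ones (`dx`, `dy`) up to the errors below; `C = C(n)`.
-/

open Set Filter
open scoped ContDiff Topology Matrix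

noncomputable section

namespace Vale.Agent.P088.R2.H464.Cu

open Vale.Agent.P088.LR Vale.Agent.P088.HY Vale.Agent.P088.R2.H961.GW Vale.Agent.P088.R2.H644.Ch

variable {n : ℕ}

/-- The size of the `j`-th derivative. -/
def Nj (j : ℕ) (W : VV n → ℝ) (z : VV n) : ℝ := ‖iteratedFDeriv ℝ j W z‖

/-- `Γ₂(W, W)` of one slot. -/
def RowG2 (n : ℕ) : Prop :=
  ∃ C : ℝ, 0 ≤ C ∧ ∀ (O : Set (V n)) (ε δ₁ δ₂ : ℝ) (s : MF n), IsOpen O → Nr O ε δ₁ δ₂ s →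
    0 ≤ ε → ε ≤ 1 → 0 ≤ δ₁ → 0 ≤ δ₂ → ∀ (U : Set (VV n)) (W : VV n → ℝ), IsOpen U → Sm U W →
    ∀ z ∈ U,
    (z.1 ∈ O → |G2 (sx s) W z - ∑ i, ∑ l, dx i (dx l W) z ^ 2| ≤
      C * (ε * Nj 2 W z ^ 2 + δ₁ * Nj 1 W z * Nj 2 W z + (δ₂ + δ₁ ^ 2) * Nj 1 W z ^ 2)) ∧
    (z.2 ∈ O → |G2 (sy s) W z - ∑ i, ∑ l, dy i (dy l W) z ^ 2| ≤
      C * (ε * Nj 2 W z ^ 2 + δ₁ * Nj 1 W z * Nj 2 W z + (δ₂ + δ₁ ^ 2) * Nj 1 W z ^ 2))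

/-- The mixed square. -/
def RowM2 (n : ℕ) : Prop :=
  ∃ C : ℝ, 0 ≤ C ∧ ∀ (O : Set (V n)) (ε δ₁ δ₂ : ℝ) (s₁ s₂ : MF n), Nr O ε δ₁ δ₂ s₁ →
    Nr O ε δ₁ δ₂ s₂ → 0 ≤ ε → ε ≤ 1 → ∀ (U : Set (VV n)) (W : VV n → ℝ), IsOpen U → Sm U W →
    ∀ z ∈ U, z.1 ∈ O → z.2 ∈ O →
    |M2 (sx s₁) (sy s₂) W W z - ∑ i, ∑ k, dx i (dy k W) z ^ 2| ≤ C * (ε * Nj 2 W z ^ 2)

/-- The gradient of `Λ W`. -/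
def RowL3 (n : ℕ) : Prop :=
  ∃ C : ℝ, 0 ≤ C ∧ ∀ (O : Set (V n)) (ε δ₁ δ₂ : ℝ) (s : MF n), IsOpen O → Nr O ε δ₁ δ₂ s →
    0 ≤ ε → ε ≤ 1 → 0 ≤ δ₁ → 0 ≤ δ₂ → ∀ (U : Set (VV n)) (W : VV n → ℝ), IsOpen U → Sm U W →
    ∀ z ∈ U, ∀ k : Fin n,
    (z.1 ∈ O → |dx k ((sx s).Λ W) z - ∑ i, dx k (dx i (dx i W)) z| ≤
        C * (ε * Nj 3 W z + δ₁ * Nj 2 W z) ∧
      |dy k ((sx s).Λ W) z - ∑ i, dy k (dx i (dx i W)) z| ≤ C * (ε * Nj 3 W z)) ∧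
    (z.2 ∈ O → |dy k ((sy s).Λ W) z - ∑ i, dy k (dy i (dy i W)) z| ≤
        C * (ε * Nj 3 W z + δ₁ * Nj 2 W z) ∧
      |dx k ((sy s).Λ W) z - ∑ i, dx k (dy i (dy i W)) z| ≤ C * (ε * Nj 3 W z))

/-- `Λ Λ W`. -/
def RowL4 (n : ℕ) : Prop :=
  ∃ C : ℝ, 0 ≤ C ∧ ∀ (O : Set (V n)) (ε δ₁ δ₂ : ℝ) (s₁ s₂ : MF n), IsOpen O →
    Nr O ε δ₁ δ₂ s₁ → Nr O ε δ₁ δ₂ s₂ →
    0 ≤ ε → ε ≤ 1 → 0 ≤ δ₁ → 0 ≤ δ₂ → ∀ (U : Set (VV n)) (W : VV n → ℝ), IsOpen U → Sm U W →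
    ∀ z ∈ U,
    (z.1 ∈ O → |(sx s₁).Λ ((sx s₁).Λ W) z - ∑ i, ∑ j, dx i (dx i (dx j (dx j W))) z| ≤
      C * (ε * Nj 4 W z + δ₁ * Nj 3 W z + δ₂ * Nj 2 W z)) ∧
    (z.2 ∈ O → |(sy s₂).Λ ((sy s₂).Λ W) z - ∑ i, ∑ j, dy i (dy i (dy j (dy j W))) z| ≤
      C * (ε * Nj 4 W z + δ₁ * Nj 3 W z + δ₂ * Nj 2 W z)) ∧
    (z.1 ∈ O → z.2 ∈ O →
      |(sx s₁).Λ ((sy s₂).Λ W) z - ∑ i, ∑ j, dx i (dx i (dy j (dy j W))) z| ≤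
      C * (ε * Nj 4 W z))

/-- The Hessian form. -/
def RowTHc (n : ℕ) : Prop :=
  ∃ C : ℝ, 0 ≤ C ∧ ∀ (O : Set (V n)) (ε δ₁ δ₂ : ℝ) (s₁ s₂ : MF n), IsOpen O →
    Nr O ε δ₁ δ₂ s₁ → Nr O ε δ₁ δ₂ s₂ →
    0 ≤ ε → ε ≤ 1 → 0 ≤ δ₁ → ∀ (U : Set (VV n)) (W : VV n → ℝ), IsOpen U → Sm U W →
    ∀ z ∈ U, z.1 ∈ O → z.2 ∈ O → ∀ A B : V n,
    |TH (sx s₁) (sy s₂) W z A B - (∑ i, ∑ j, dx i (dx j W) z * A i * A j +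
        2 * ∑ i, ∑ j, dx i (dy j W) z * A i * B j + ∑ i, ∑ j, dy i (dy j W) z * B i * B j)| ≤
      C * ((ε * Nj 2 W z + δ₁ * Nj 1 W z) * (‖A‖ ^ 2 + ‖B‖ ^ 2))

/-- The pairing `Γ(f, X a)` and the first order part `Σ s_ij W_i A_j`. -/
def RowX1 (n : ℕ) : Prop :=
  ∃ C : ℝ, 0 ≤ C ∧ ∀ (O : Set (V n)) (ε δ₁ δ₂ : ℝ) (s : MF n), Nr O ε δ₁ δ₂ s →
    0 ≤ ε → ε ≤ 1 → ∀ (W f a : VV n → ℝ) (z : VV n),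
    (z.1 ∈ O → |X1 (sx s) W f a z - ∑ i, dx i f z * (a z * dx i W z - dx i a z)| ≤
      C * (ε * (∑ i, |dx i f z|) * ∑ i, |a z * dx i W z - dx i a z|)) ∧
    (z.2 ∈ O → |X1 (sy s) W f a z - ∑ i, dy i f z * (a z * dy i W z - dy i a z)| ≤
      C * (ε * (∑ i, |dy i f z|) * ∑ i, |a z * dy i W z - dy i a z|))

/-- The inverse metric `g = s⁻¹`. -/
def RowInv (n : ℕ) : Prop :=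
  ∃ C ε₀ : ℝ, 0 < ε₀ ∧ 1 ≤ C ∧ ∀ (O : Set (V n)) (ε δ₁ δ₂ : ℝ) (s : MF n), IsOpen O →
    Nr O ε δ₁ δ₂ s → 0 ≤ ε → ε ≤ ε₀ → 0 ≤ δ₁ → 0 ≤ δ₂ →
    Nr O (C * ε) (C * δ₁) (C * (δ₂ + δ₁ ^ 2)) (fun x => (s x)⁻¹) ∧
      ∀ x ∈ O, (s x)⁻¹ * s x = 1 ∧ s x * (s x)⁻¹ = 1

end Vale.Agent.P088.R2.H464.Cu
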