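import Vale.Agent.P088.R2.H464.EP.Th

/-!
# P088: bounds for the Hessian form of `ρ`
-/

open Set Filter
open scoped ContDiff Topology Matrix

noncomputable section

namespace Vale.Agent.P088.R2.H464.Cu

open Vale.Agent.P088.LR Vale.Agent.P088.HY Vale.Agent.P088.R2.H961.GW Vale.Agent.P088.R2.H644.Ch

variable {n : ℕ}

/-- A symmetric tensor near `1`, with bounds for the first and second derivatives. -/
structure Nr (O : Set (V n)) (ε δ₁ δ₂ : ℝ) (s : MF n) : Prop where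
  sm : ∀ i j, ContDiffOn ℝ ∞ (fun x => s x i j) O
  sy : ∀ x i j, s x i j = s x j i
  b0 : ∀ x ∈ O, ∀ i j, |s x i j - (1 : Matrix (Fin n) (Fin n) ℝ) i j| ≤ ε
  b1 : ∀ x ∈ O, ∀ k i j, |pd k (fun y => s y i j) x| ≤ δ₁
  b2 : ∀ x ∈ O, ∀ l k i j, |pd l (pd k (fun y => s y i j)) x| ≤ δ₂

/-- The distance of two tensors. -/
structure Dst (O : Set (V n)) (h₀ h₁ : ℝ) (s s' : MF n) : Prop where
  b0 : ∀ x ∈ O, ∀ i j, |s x i j - s' x i j| ≤ h₀
  b1 : ∀ x ∈ O, ∀ k i j, |pd k (fun y => s y i j) x - pd k (fun y => s' y i j) x| ≤ h₁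

theorem Dst.rfl' {O : Set (V n)} (s : MF n) : Dst O 0 0 s s where
  b0 _ _ _ _ := by simp
  b1 _ _ _ _ _ := by simp

section lin

variable {G : Matrix (Fin n) (Fin n) ℝ} {a b a' b' x y : V n} {c δ : ℝ}

theorem cmp_le (a : V n) (i : Fin n) : |a i| ≤ ‖a‖ := by
  simpa using norm_le_pi_norm a i

theorem sum_le1 {f : Fin n → ℝ} {c : ℝ} (h : ∀ i, |f i| ≤ c) : |∑ i, f i| ≤ n * c := by
  refine (Finset.abs_sum_le_sum_abs _ _).trans ?_
  refine (Finset.sum_le_sum fun i _ => h i).trans ?_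
  simp

theorem sum_le2 {f : Fin n → Fin n → ℝ} {c : ℝ} (h : ∀ i j, |f i j| ≤ c) :
    |∑ i, ∑ j, f i j| ≤ n ^ 2 * c := by
  have := sum_le1 fun i => sum_le1 (h i)
  refine this.trans (le_of_eq (by ring))

theorem bf_le (hc : 0 ≤ c) (hG : ∀ i j, |G i j| ≤ c) (a b : V n) :
    |bf G a b| ≤ n ^ 2 * (c * ‖a‖ * ‖b‖) := by
  unfold bf
  refine sum_le2 fun i j => ?_
  rw [abs_mul, abs_mul]
  have h1 := cmp_le a i
  have h2 := cmp_le b j
  have h3 := hG i j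
  have := norm_nonneg a
  gcongr

theorem fd_pd (f : V n → ℝ) (x w : V n) : fderiv ℝ f x w = ∑ k, w k * pd k f x := by
  conv_lhs => rw [vec_sum w]
  simp only [map_sum, map_smul, smul_eq_mul]
  rfl

theorem fd_le {f : V n → ℝ} {x : V n} (h : ∀ k, |pd k f x| ≤ δ) (w : V n) :
    |fderiv ℝ f x w| ≤ n * (‖w‖ * δ) := by
  rw [fd_pd]
  refine sum_le1 fun k => ?_
  rw [abs_mul]
  have h1 := cmp_le w k
  have h2 := h k
  have := abs_nonneg (w k)
  gcongr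

theorem mv_le {f : V n → ℝ} {O : Set (V n)} (hO : IsOpen O) (hc : Convex ℝ O)
    (hf : ContDiffOn ℝ ∞ f O) (hδ : 0 ≤ δ) (h : ∀ x ∈ O, ∀ k, |pd k f x| ≤ δ) {x y : V n}
    (hx : x ∈ O) (hy : y ∈ O) : |f x - f y| ≤ n * δ * ‖x - y‖ := by
  have := Convex.norm_image_sub_le_of_norm_fderiv_le (𝕜 := ℝ) (f := f) (s := O) (C := n * δ)
    (fun x hx => df_of hO hf hx) (fun x hx => ?_) hc hy hx
  · simpa using this
  · refine ContinuousLinearMap.opNorm_le_bound _ (by positivity) fun w => ?_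
    have := fd_le (h x hx) w
    rw [Real.norm_eq_abs]
    refine this.trans (le_of_eq (by ring))

end lin

section nr

variable {O : Set (V n)} {ε δ₁ δ₂ h₀ h₁ : ℝ} {s s' g : MF n} {x y w w' : V n}

theorem Nr.le2 (h : Nr O ε δ₁ δ₂ s) (hε : ε ≤ 1) (hx : x ∈ O) (i j : Fin n) : |s x i j| ≤ 2 := by
  have h1 := h.b0 x hx i j
  have h2 : |(1 : Matrix (Fin n) (Fin n) ℝ) i j| ≤ 1 := by
    rw [Matrix.one_apply]; split_ifs <;> simp
  have h3 : s x i j = (s x i j - (1 : Matrix (Fin n) (Fin n) ℝ) i j) +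
    (1 : Matrix (Fin n) (Fin n) ℝ) i j := by ring
  rw [h3]
  refine (abs_add_le _ _).trans ?_
  linarith

theorem Nr.dg (h : Nr O ε δ₁ δ₂ s) (hx : x ∈ O) (w : V n) (i j : Fin n) :
    |Cu.dg w s x i j| ≤ n * (‖w‖ * δ₁) := fd_le (fun k => h.b1 x hx k i j) w

theorem Nr.dg2 (hO : IsOpen O) (h : Nr O ε δ₁ δ₂ s) (hx : x ∈ O) (w w' : V n) (i j : Fin n) :
    |Cu.dg w' (Cu.dg w s) x i j| ≤ n ^ 2 * (‖w‖ * ‖w'‖ * δ₂) := by
  have e1 : Cu.dg w' (Cu.dg w s) x i j =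
      ∑ l, ∑ k, w' l * (w k * pd l (pd k fun y => s y i j) x) := by
    unfold Cu.dg
    rw [fd_pd]
    refine Finset.sum_congr rfl fun l _ => ?_
    have e2 : (fun y => fderiv ℝ (fun y => s y i j) y w) =
        fun y => ∑ k, w k * pd k (fun y => s y i j) y := funext fun y => fd_pd _ y w
    rw [e2, ← Finset.mul_sum]
    congr 1
    have d : ∀ k : Fin n, DifferentiableAt ℝ (pd k fun y => s y i j) x := fun k =>
      df_of hO (sm_pd hO (h.sm i j) k) hx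
    unfold pd at d ⊢
    rw [fderiv_fun_sum fun k _ => (d k).const_mul (w k)]
    simp only [_root_.sum_apply]
    refine Finset.sum_congr rfl fun k _ => ?_
    rw [fderiv_const_mul (d k)]
    simp
  rw [e1]
  refine sum_le2 fun l k => ?_
  rw [abs_mul, abs_mul]
  have h1 := cmp_le w' l
  have h2 := cmp_le w k
  have h3 := h.b2 x hx l k i j
  have h4 : 0 ≤ δ₂ := (abs_nonneg _).trans h3
  have h5 := norm_nonneg w
  have h6 := norm_nonneg w'
  calc |w' l| * (|w k| * |pd l (pd k fun y => s y i j) x|) ≤ ‖w'‖ * (‖w‖ * δ₂) := by gcongr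
    _ = ‖w‖ * ‖w'‖ * δ₂ := by ring

theorem Nr.mv (hO : IsOpen O) (hc : Convex ℝ O) (h : Nr O ε δ₁ δ₂ s) (hδ : 0 ≤ δ₁) (hx : x ∈ O)
    (hy : y ∈ O) (i j : Fin n) : |s x i j - s y i j| ≤ n * δ₁ * ‖x - y‖ :=
  mv_le hO hc (h.sm i j) hδ (fun z hz k => h.b1 z hz k i j) hx hy

theorem Nr.mv1 (hO : IsOpen O) (hc : Convex ℝ O) (h : Nr O ε δ₁ δ₂ s) (hδ : 0 ≤ δ₂) (hx : x ∈ O)
    (hy : y ∈ O) (k i j : Fin n) :
    |pd k (fun y => s y i j) x - pd k (fun y => s y i j) y| ≤ n * δ₂ * ‖x - y‖ :=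
  mv_le hO hc (sm_pd hO (h.sm i j) k) hδ (fun z hz l => h.b2 z hz l k i j) hx hy

theorem up_le {S : Matrix (Fin n) (Fin n) ℝ} {c : ℝ} (hS : ∀ i j, |S i j| ≤ c) (A : V n) :
    ‖up S A‖ ≤ n * (c * ‖A‖) := by
  by_cases hn : n = 0
  · subst hn
    have : up S A = 0 := Subsingleton.elim _ _
    rw [this]; simp
  have hc : 0 ≤ c := (abs_nonneg _).trans (hS ⟨0, Nat.pos_of_ne_zero hn⟩ ⟨0, Nat.pos_of_ne_zero hn⟩)
  rw [pi_norm_le_iff_of_nonneg (by positivity)]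
  intro j
  rw [Real.norm_eq_abs]
  unfold up
  refine sum_le1 fun i => ?_
  rw [abs_mul]
  have h1 := hS i j
  have h2 := cmp_le A i
  gcongr

theorem up_sub (S : Matrix (Fin n) (Fin n) ℝ) (A B : V n) : up S (A - B) = up S A - up S B := by
  funext j
  simp only [up, Pi.sub_apply, ← Finset.sum_sub_distrib]
  exact Finset.sum_congr rfl fun i _ => by ring

/-- `s` is almost an isometry. -/
theorem up_ge (h : Nr O ε δ₁ δ₂ s) (hε : n * ε ≤ 1 / 2) (hx : x ∈ O) (A : V n) :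
    ‖A‖ ≤ 2 * ‖up (s x) A‖ := by
  have e : A = up (s x) A - up (s x - 1) A := by
    funext j
    simp only [up, Pi.sub_apply, ← Finset.sum_sub_distrib, Matrix.sub_apply, Matrix.one_apply]
    simp [sub_mul]
  have h1 : ‖up (s x - 1) A‖ ≤ n * (ε * ‖A‖) := up_le (fun i j => h.b0 x hx i j) A
  have h2 : ‖A‖ ≤ ‖up (s x) A‖ + ‖up (s x - 1) A‖ := by
    conv_lhs => rw [e]
    exact norm_sub_le _ _
  have := norm_nonneg A
  nlinarith

theorem sum_le3 {f : Fin n → Fin n → Fin n → ℝ} {c : ℝ} (h : ∀ i j k, |f i j k| ≤ c) :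
    |∑ i, ∑ j, ∑ k, f i j k| ≤ n ^ 3 * c := by
  have := sum_le2 fun i j => sum_le1 (h i j)
  refine this.trans (le_of_eq (by ring))

theorem nv_eq (s : MF n) (x A : V n) (k : Fin n) : nv s x A k =
    ∑ i, ∑ l, ∑ j, (s x i j * pd j (fun y => s y k l) x -
    1 / 2 * (s x k j * pd j (fun y => s y i l) x)) * (A i * A l) := by
  unfold nv
  refine Finset.sum_congr rfl fun i _ => Finset.sum_congr rfl fun l _ => ?_
  rw [Finset.sum_mul, Finset.sum_mul]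
  exact Finset.sum_congr rfl fun j _ => by ring

theorem co_le (h : Nr O ε δ₁ δ₂ s) (hε : ε ≤ 1) (hx : x ∈ O) (i j k l : Fin n) :
    |s x i j * pd j (fun y => s y k l) x - 1 / 2 * (s x k j * pd j (fun y => s y i l) x)| ≤
      3 * δ₁ := by
  have a1 := h.le2 hε hx i j
  have a2 := h.le2 hε hx k j
  have b1 := h.b1 x hx j k l
  have b2 := h.b1 x hx j i l
  have hδ : 0 ≤ δ₁ := (abs_nonneg _).trans b1
  have c1 : |s x i j * pd j (fun y => s y k l) x| ≤ 2 * δ₁ := by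
    rw [abs_mul]; gcongr
  have c2 : |s x k j * pd j (fun y => s y i l) x| ≤ 2 * δ₁ := by
    rw [abs_mul]; gcongr
  rw [abs_le] at c1 c2 ⊢
  constructor <;> linarith [c1.1, c1.2, c2.1, c2.2]

theorem nv_le (h : Nr O ε δ₁ δ₂ s) (hε : ε ≤ 1) (hx : x ∈ O) (A : V n) (k : Fin n) :
    |nv s x A k| ≤ n ^ 3 * (3 * δ₁ * ‖A‖ ^ 2) := by
  rw [nv_eq]
  refine sum_le3 fun i l j => ?_
  rw [abs_mul, abs_mul]
  have h1 := co_le h hε hx i j k l
  have h2 := cmp_le A i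
  have h3 := cmp_le A l
  have h4 : 0 ≤ δ₁ := (abs_nonneg _).trans (h.b1 x hx i j k)
  have h5 := norm_nonneg A
  calc _ ≤ 3 * δ₁ * (‖A‖ * ‖A‖) := by gcongr
    _ = 3 * δ₁ * ‖A‖ ^ 2 := by ring

theorem nv_sub (h : Nr O ε δ₁ δ₂ s) (hε : ε ≤ 1) (hx : x ∈ O) (A B : V n) (k : Fin n) :
    |nv s x A k - nv s x B k| ≤ n ^ 3 * (3 * δ₁ * (‖A - B‖ * (‖A‖ + ‖B‖))) := by
  rw [nv_eq, nv_eq]
  simp only [← Finset.sum_sub_distrib]
  refine sum_le3 fun i l j => ?_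
  rw [← mul_sub, abs_mul]
  have h1 := co_le h hε hx i j k l
  have h4 : 0 ≤ δ₁ := (abs_nonneg _).trans (h.b1 x hx i j k)
  have e : A i * A l - B i * B l = (A - B) i * A l + B i * (A - B) l := by
    simp only [Pi.sub_apply]; ring
  have h2 : |A i * A l - B i * B l| ≤ ‖A - B‖ * (‖A‖ + ‖B‖) := by
    rw [e]
    refine (abs_add_le _ _).trans ?_
    rw [abs_mul, abs_mul]
    have k1 := cmp_le (A - B) i
    have k2 := cmp_le (A - B) l
    have k3 := cmp_le A l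
    have k4 := cmp_le B i
    have k5 := norm_nonneg (A - B)
    have k6 := norm_nonneg B
    calc |(A - B) i| * |A l| + |B i| * |(A - B) l| ≤ ‖A - B‖ * ‖A‖ + ‖B‖ * ‖A - B‖ := by gcongr
      _ = ‖A - B‖ * (‖A‖ + ‖B‖) := by ring
  gcongr

theorem pr_sub {a b a' b' c d u v : ℝ} (ha : |a| ≤ c) (hb : |b'| ≤ d) (h1 : |a - a'| ≤ u)
    (h2 : |b - b'| ≤ v) : |a * b - a' * b'| ≤ c * v + u * d := by
  have e : a * b - a' * b' = a * (b - b') + (a - a') * b' := by ring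
  rw [e]
  refine (abs_add_le _ _).trans ?_
  rw [abs_mul, abs_mul]
  have := abs_nonneg a
  have := abs_nonneg (a - a')
  have h3 : 0 ≤ c := (abs_nonneg _).trans ha
  have h4 : 0 ≤ u := (abs_nonneg _).trans h1
  gcongr

/-- The dependence of the Christoffel vector on the point and the tensor. -/
theorem nv_pt (hO : IsOpen O) (hc : Convex ℝ O) (h : Nr O ε δ₁ δ₂ s) (h' : Nr O ε δ₁ δ₂ s')
    (hh : Dst O h₀ h₁ s s') (hε : ε ≤ 1) (hx : x ∈ O) (hy : y ∈ O) (A : V n) (k : Fin n) :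
    |nv s x A k - nv s' y A k| ≤ n ^ 3 * (3 * ((n * δ₂ * ‖x - y‖ + h₁) +
      (n * δ₁ * ‖x - y‖ + h₀) * δ₁) * ‖A‖ ^ 2) := by
  have p1 : 0 ≤ δ₁ := (abs_nonneg _).trans (h.b1 x hx k k k)
  have p2 : 0 ≤ δ₂ := (abs_nonneg _).trans (h.b2 x hx k k k k)
  have q0 : ∀ i j, |s x i j - s' y i j| ≤ n * δ₁ * ‖x - y‖ + h₀ := by
    intro i j
    have a1 := h.mv hO hc p1 hx hy i j
    have a2 := hh.b0 y hy i j
    have e : s x i j - s' y i j = (s x i j - s y i j) + (s y i j - s' y i j) := by ring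
    rw [e]
    exact (abs_add_le _ _).trans (add_le_add a1 a2)
  have q1 : ∀ k i j, |pd k (fun y => s y i j) x - pd k (fun y => s' y i j) y| ≤
      n * δ₂ * ‖x - y‖ + h₁ := by
    intro k i j
    have a1 := h.mv1 hO hc p2 hx hy k i j
    have a2 := hh.b1 y hy k i j
    have e : pd k (fun y => s y i j) x - pd k (fun y => s' y i j) y =
      (pd k (fun y => s y i j) x - pd k (fun y => s y i j) y) +
      (pd k (fun y => s y i j) y - pd k (fun y => s' y i j) y) := by ring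
    rw [e]
    exact (abs_add_le _ _).trans (add_le_add a1 a2)
  set H0 := n * δ₁ * ‖x - y‖ + h₀ with hH0
  set H1 := n * δ₂ * ‖x - y‖ + h₁ with hH1
  have r0 : 0 ≤ H0 := (abs_nonneg _).trans (q0 k k)
  have r1 : 0 ≤ H1 := (abs_nonneg _).trans (q1 k k k)
  rw [nv_eq, nv_eq]
  simp only [← Finset.sum_sub_distrib]
  refine sum_le3 fun i l j => ?_
  rw [← sub_mul, abs_mul, abs_mul]
  have c1 := pr_sub (h.le2 hε hx i j) (h'.b1 y hy j k l) (q0 i j) (q1 j k l)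
  have c2 := pr_sub (h.le2 hε hx k j) (h'.b1 y hy j i l) (q0 k j) (q1 j i l)
  have c3 : |(s x i j * pd j (fun y => s y k l) x - 1 / 2 * (s x k j * pd j (fun y => s y i l) x)) -
      (s' y i j * pd j (fun y => s' y k l) y - 1 / 2 * (s' y k j * pd j (fun y => s' y i l) y))| ≤
      3 * (H1 + H0 * δ₁) := by
    rw [abs_le] at c1 c2 ⊢
    constructor <;> nlinarith [c1.1, c1.2, c2.1, c2.2, mul_nonneg r0 p1]
  have k1 := cmp_le A i
  have k2 := cmp_le A l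
  have k3 := norm_nonneg A
  calc _ ≤ 3 * (H1 + H0 * δ₁) * (‖A‖ * ‖A‖) := by gcongr
    _ = 3 * (H1 + H0 * δ₁) * ‖A‖ ^ 2 := by ring

end nr

end Vale.Agent.P088.R2.H464.Cu
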