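import Vale.Agent.P088.R2.H464.EP.Frame

/-!
# P088: `TH ρ` and the gradients of `ρ` in the frames
-/

open Set Filter
open scoped ContDiff Topology Matrix

noncomputable section

namespace Vale.Agent.P088.R2.H464.Cu

open Vale.Agent.P088.LR Vale.Agent.P088.HY Vale.Agent.P088.R2.H961.GW Vale.Agent.P088.R2.H644.Ch

variable {n : ℕ}

section main

variable {O : Set (V n)} {ε δ₁ δ₂ h₀ h₁ D : ℝ} {s₁ s₂ g : MF n} {z : VV n}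
  {F₁ F₂ Ψ : Matrix (Fin n) (Fin n) ℝ}

/-- The vector `t` with `|t|² = 2 ρ`. -/
def tv (Ψ : Matrix (Fin n) (Fin n) ℝ) (z : VV n) : V n := Ψ *ᵥ dif z

theorem tv_sq (f : Fr2 s₁ s₂ g ε D z F₁ F₂ Ψ) : dt (tv Ψ z) (tv Ψ z) = 2 * rq g z := by
  unfold tv rq
  rw [← bf_sq f.yp, f.qp]; ring

theorem tv_le (f : Fr2 s₁ s₂ g ε D z F₁ F₂ Ψ) : ‖tv Ψ z‖ ≤ 4 * n ^ 2 * ‖dif z‖ := by
  refine (mv_le' f.bp _).trans (le_of_eq (by ring))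

theorem cs_le {m r N K E T b1 X : ℝ} (m0 : 0 ≤ m) (r0 : 0 ≤ r) (N0 : 0 ≤ N) (K0 : 0 ≤ K)
    (hδ : 0 ≤ δ₁) (hδ' : 0 ≤ δ₂) (hh0 : 0 ≤ h₀) (hh1 : 0 ≤ h₁) (hD : D = δ₁ * r + h₀)
    (hE0 : 0 ≤ E) (hE : E ≤ 8 * m ^ 7 * D * N)
    (hX : X ≤ m * (2 * (K + E)))
    (hT : |T| ≤ 20 * (m + 1) ^ 8 * (δ₁ * r * X * N + (δ₂ + δ₁ ^ 2) * r ^ 2 * N ^ 2 +
      (h₁ + δ₁ * h₀) * r * N ^ 2)) (hb : |b1| ≤ m * (2 * (K * E)) + m * (E * E)) :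
    |T| + |b1| ≤ 424 * (m + 1) ^ 16 * (D * K * N + (δ₂ * r ^ 2 + D ^ 2 + h₁ * r) * N ^ 2) := by
  have D0 : 0 ≤ D := by rw [hD]; positivity
  have hr : δ₁ * r ≤ D := by rw [hD]; linarith
  have hr0 : 0 ≤ δ₁ * r := by positivity
  have hh : h₀ ≤ D := by rw [hD]; linarith
  have pw : ∀ k j : ℕ, k + j ≤ 16 → m ^ k * (m + 1) ^ j ≤ (m + 1) ^ 16 := by
    intro k j hk
    calc m ^ k * (m + 1) ^ j ≤ (m + 1) ^ k * (m + 1) ^ j := by gcongr; linarith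
      _ = (m + 1) ^ (k + j) := (pow_add _ _ _).symm
      _ ≤ (m + 1) ^ 16 := pow_le_pow_right₀ (by linarith) hk
  obtain ⟨X1, hX1⟩ : ∃ X1, X1 = D * K * N := ⟨_, rfl⟩
  obtain ⟨X2, hX2⟩ : ∃ X2, X2 = D ^ 2 * N ^ 2 := ⟨_, rfl⟩
  obtain ⟨X3, hX3⟩ : ∃ X3, X3 = δ₂ * r ^ 2 * N ^ 2 := ⟨_, rfl⟩
  obtain ⟨X4, hX4⟩ : ∃ X4, X4 = h₁ * r * N ^ 2 := ⟨_, rfl⟩
  have x1 : 0 ≤ X1 := by rw [hX1]; positivity
  have x2 : 0 ≤ X2 := by rw [hX2]; positivity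
  have x3 : 0 ≤ X3 := by rw [hX3]; positivity
  have x4 : 0 ≤ X4 := by rw [hX4]; positivity
  have b2 : |b1| ≤ 16 * (m ^ 8 * X1) + 64 * (m ^ 15 * X2) := by
    have h1 : m * (2 * (K * E)) ≤ m * (2 * (K * (8 * m ^ 7 * D * N))) := by gcongr
    have h2 : m * (E * E) ≤ m * ((8 * m ^ 7 * D * N) * (8 * m ^ 7 * D * N)) := by gcongr
    calc |b1| ≤ _ := hb
      _ ≤ m * (2 * (K * (8 * m ^ 7 * D * N))) + m * ((8 * m ^ 7 * D * N) * (8 * m ^ 7 * D * N)) :=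
        add_le_add h1 h2
      _ = _ := by rw [hX1, hX2]; ring
  have t1 : δ₁ * r * X * N ≤ 2 * (m * X1) + 16 * (m ^ 8 * X2) := by
    calc δ₁ * r * X * N ≤ δ₁ * r * (m * (2 * (K + E))) * N := by gcongr
      _ ≤ D * (m * (2 * (K + 8 * m ^ 7 * D * N))) * N := by gcongr
      _ = _ := by rw [hX1, hX2]; ring
  have t2 : (δ₂ + δ₁ ^ 2) * r ^ 2 * N ^ 2 ≤ X3 + X2 := by
    have : δ₁ ^ 2 * r ^ 2 ≤ D ^ 2 := by
      rw [← mul_pow]; exact pow_le_pow_left₀ hr0 hr 2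
    calc (δ₂ + δ₁ ^ 2) * r ^ 2 * N ^ 2 = δ₂ * r ^ 2 * N ^ 2 + (δ₁ ^ 2 * r ^ 2) * N ^ 2 := by ring
      _ ≤ δ₂ * r ^ 2 * N ^ 2 + D ^ 2 * N ^ 2 := by gcongr
      _ = _ := by rw [hX2, hX3]
  have t3 : (h₁ + δ₁ * h₀) * r * N ^ 2 ≤ X4 + X2 := by
    have : δ₁ * r * h₀ ≤ D * D := mul_le_mul hr hh hh0 D0
    calc (h₁ + δ₁ * h₀) * r * N ^ 2 = h₁ * r * N ^ 2 + (δ₁ * r * h₀) * N ^ 2 := by ring
      _ ≤ h₁ * r * N ^ 2 + (D * D) * N ^ 2 := by gcongr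
      _ = _ := by rw [hX2, hX4]; ring
  have p1 : m ^ 8 * X1 ≤ (m + 1) ^ 16 * X1 := by
    have := pw 8 0 (by norm_num)
    rw [pow_zero, mul_one] at this
    exact mul_le_mul_of_nonneg_right this x1
  have p2 : m ^ 15 * X2 ≤ (m + 1) ^ 16 * X2 := by
    have := pw 15 0 (by norm_num)
    rw [pow_zero, mul_one] at this
    exact mul_le_mul_of_nonneg_right this x2
  have p3 : m * (m + 1) ^ 8 * X1 ≤ (m + 1) ^ 16 * X1 := by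
    have := pw 1 8 (by norm_num)
    rw [pow_one] at this
    exact mul_le_mul_of_nonneg_right this x1
  have p4 : m ^ 8 * (m + 1) ^ 8 * X2 ≤ (m + 1) ^ 16 * X2 :=
    mul_le_mul_of_nonneg_right (pw 8 8 (by norm_num)) x2
  have p5 : ∀ {Y : ℝ}, 0 ≤ Y → (m + 1) ^ 8 * Y ≤ (m + 1) ^ 16 * Y := by
    intro Y hY
    have := pw 0 8 (by norm_num)
    rw [pow_zero, one_mul] at this
    exact mul_le_mul_of_nonneg_right this hY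
  have t4 : |T| ≤ 20 * (2 * (m * (m + 1) ^ 8 * X1) + 16 * (m ^ 8 * (m + 1) ^ 8 * X2) +
      ((m + 1) ^ 8 * X3 + (m + 1) ^ 8 * X2) + ((m + 1) ^ 8 * X4 + (m + 1) ^ 8 * X2)) := by
    refine hT.trans ?_
    calc 20 * (m + 1) ^ 8 * (δ₁ * r * X * N + (δ₂ + δ₁ ^ 2) * r ^ 2 * N ^ 2 +
          (h₁ + δ₁ * h₀) * r * N ^ 2) ≤ 20 * (m + 1) ^ 8 * ((2 * (m * X1) + 16 * (m ^ 8 * X2)) +
          (X3 + X2) + (X4 + X2)) := by gcongr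
      _ = _ := by ring
  have e : 424 * (m + 1) ^ 16 * (D * K * N + (δ₂ * r ^ 2 + D ^ 2 + h₁ * r) * N ^ 2) =
      424 * ((m + 1) ^ 16 * X1) + 424 * ((m + 1) ^ 16 * X3) + 424 * ((m + 1) ^ 16 * X2) +
        424 * ((m + 1) ^ 16 * X4) := by
    rw [hX1, hX2, hX3, hX4]; ring
  rw [e]
  have y2 := p5 x2
  have y3 := p5 x3
  have y4 := p5 x4
  have w1 : 0 ≤ (m + 1) ^ 16 * X1 := by positivity
  have w2 : 0 ≤ (m + 1) ^ 16 * X2 := by positivity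
  have w3 : 0 ≤ (m + 1) ^ 16 * X3 := by positivity
  have w4 : 0 ≤ (m + 1) ^ 16 * X4 := by positivity
  linarith

/-- **`TH ρ` in the frames.** -/
theorem TH_fr (hO : IsOpen O) (hc : Convex ℝ O) (n₁ : Nr O ε δ₁ δ₂ s₁) (n₂ : Nr O ε δ₁ δ₂ s₂)
    (ng : Nr O ε δ₁ δ₂ g) (hh : Dst O h₀ h₁ s₁ s₂) (hδ : 0 ≤ δ₁) (hδ' : 0 ≤ δ₂) (hh0 : 0 ≤ h₀)
    (hh1 : 0 ≤ h₁) (hε1 : ε ≤ 1) (hε : n * ε ≤ 1 / 2) (hx : z.1 ∈ O) (hy : z.2 ∈ O)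
    (hD : D = δ₁ * ‖dif z‖ + h₀) (f : Fr2 s₁ s₂ g ε D z F₁ F₂ Ψ) (A B : V n) :
    |TH (sx s₁) (sy s₂) (rq g) z A B - dt (F₁ *ᵥ A - F₂ *ᵥ B) (F₁ *ᵥ A - F₂ *ᵥ B)| ≤
      424 * (n + 1) ^ 16 * (D * ‖F₁ *ᵥ A - F₂ *ᵥ B‖ * (‖A‖ + ‖B‖) +
        (δ₂ * ‖dif z‖ ^ 2 + D ^ 2 + h₁ * ‖dif z‖) * (‖A‖ + ‖B‖) ^ 2) := by
  have h := TH_rq hO hc n₁ n₂ ng hh hδ hδ' hh0 hh1 hε1 hε hx hy A B
  have D0 : 0 ≤ D := by rw [hD]; positivity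
  have eX : up (s₁ z.1) A = F₁ *ᵥ (F₁ *ᵥ A) := by
    rw [up_eq (n₁.sy z.1), ← f.q1, ← Matrix.mulVec_mulVec]
  have eY : up (s₂ z.2) B = F₂ *ᵥ (F₂ *ᵥ B) := by
    rw [up_eq (n₂.sy z.2), ← f.q2, ← Matrix.mulVec_mulVec]
  rw [eX, eY] at h
  obtain ⟨Z, hZ⟩ : ∃ Z, Z = F₁ *ᵥ (F₁ *ᵥ A) - F₂ *ᵥ (F₂ *ᵥ B) := ⟨_, rfl⟩
  obtain ⟨Q, hQ⟩ : ∃ Q, Q = F₁ *ᵥ A - F₂ *ᵥ B := ⟨_, rfl⟩
  obtain ⟨E, hE⟩ : ∃ E, E = Ψ *ᵥ Z - Q := ⟨_, rfl⟩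
  rw [← hZ] at h
  rw [← hQ]
  have hPZ : Ψ *ᵥ Z = Q + E := by rw [hE]; abel
  have eb : bf (g (mid z)) Z Z = dt (Q + E) (Q + E) := by
    rw [← f.qp, bf_sq f.yp, hPZ]
  rw [eb] at h
  have A0 := norm_nonneg A
  have B0 := norm_nonneg B
  have hEn : ‖E‖ ≤ 8 * (n : ℝ) ^ 7 * D * (‖A‖ + ‖B‖) := by
    have e : E = (Ψ *ᵥ (F₁ *ᵥ (F₁ *ᵥ A)) - F₁ *ᵥ A) - (Ψ *ᵥ (F₂ *ᵥ (F₂ *ᵥ B)) - F₂ *ᵥ B) := by
      rw [hE, hZ, hQ, Matrix.mulVec_sub]; abel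
    have a1 := f.m1 (F₁ *ᵥ A)
    have a2 := f.m2 (F₂ *ᵥ B)
    have a3 : ‖F₁ *ᵥ A‖ ≤ n * (2 * ‖A‖) := mv_le' f.b1 A
    have a4 : ‖F₂ *ᵥ B‖ ≤ n * (2 * ‖B‖) := mv_le' f.b2 B
    rw [e]
    refine (norm_sub_le _ _).trans ?_
    have c0 : (0 : ℝ) ≤ 4 * n ^ 6 * D := by positivity
    calc _ ≤ 4 * (n : ℝ) ^ 6 * D * ‖F₁ *ᵥ A‖ + 4 * (n : ℝ) ^ 6 * D * ‖F₂ *ᵥ B‖ := add_le_add a1 a2
      _ ≤ 4 * (n : ℝ) ^ 6 * D * (n * (2 * ‖A‖)) + 4 * (n : ℝ) ^ 6 * D * (n * (2 * ‖B‖)) := by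
        gcongr
      _ = _ := by ring
  have hX : ‖Z‖ ≤ n * (2 * (‖Q‖ + ‖E‖)) := by
    obtain ⟨Φ, p1, p2⟩ := f.inv
    have e : Z = Φ *ᵥ (Q + E) := by rw [← hPZ, Matrix.mulVec_mulVec, p1, Matrix.one_mulVec]
    rw [e]
    refine (mv_le' p2 _).trans ?_
    have := norm_add_le Q E
    gcongr
  have hb : |dt (Q + E) (Q + E) - dt Q Q| ≤ n * (2 * (‖Q‖ * ‖E‖)) + n * (‖E‖ * ‖E‖) := by
    rw [dt_add]
    have a1 := dt_le Q E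
    have a2 := dt_le E E
    have e : dt Q Q + 2 * dt Q E + dt E E - dt Q Q = 2 * dt Q E + dt E E := by ring
    rw [e]
    refine (abs_add_le _ _).trans ?_
    rw [abs_mul, abs_two]
    linarith
  have := cs_le (Nat.cast_nonneg n) (norm_nonneg (dif z)) (by positivity : 0 ≤ ‖A‖ + ‖B‖)
    (norm_nonneg Q) hδ hδ' hh0 hh1 hD (norm_nonneg E) hEn hX h hb
  have e2 : TH (sx s₁) (sy s₂) (rq g) z A B - dt Q Q =
      (TH (sx s₁) (sy s₂) (rq g) z A B - dt (Q + E) (Q + E)) +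
        (dt (Q + E) (Q + E) - dt Q Q) := by ring
  rw [e2]
  exact (abs_add_le _ _).trans this

/-- The gradient with respect to the first variable. -/
def gx (f : VV n → ℝ) (z : VV n) : V n := fun k => dx k f z

/-- The gradient with respect to the second variable. -/
def gy (f : VV n → ℝ) (z : VV n) : V n := fun k => dy k f z

theorem bf_single (G : Matrix (Fin n) (Fin n) ℝ) (k : Fin n) (q : V n) :
    bf G (Pi.single k 1) q = (G *ᵥ q) k := by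
  unfold bf
  simp only [Matrix.mulVec, dotProduct, Pi.single_apply]
  rw [Finset.sum_comm]
  simp

/-- **The gradients of `ρ` in the frames.** -/
theorem grad_fr (hO : IsOpen O) (hc : Convex ℝ O) (ng : Nr O ε δ₁ δ₂ g) (hδ : 0 ≤ δ₁)
    (hh0 : 0 ≤ h₀) (hx : z.1 ∈ O) (hy : z.2 ∈ O) (hD : D = δ₁ * ‖dif z‖ + h₀)
    (f : Fr2 s₁ s₂ g ε D z F₁ F₂ Ψ) :
    ‖F₁ *ᵥ gx (rq g) z - tv Ψ z‖ ≤ 17 * (n + 1) ^ 8 * (D * ‖dif z‖) ∧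
      ‖F₂ *ᵥ gy (rq g) z + tv Ψ z‖ ≤ 17 * (n + 1) ^ 8 * (D * ‖dif z‖) := by
  have hm := mid_mem hc hx hy
  have D0 : 0 ≤ D := by rw [hD]; positivity
  have hr : δ₁ * ‖dif z‖ ≤ D := by rw [hD]; linarith
  have dg' : ∀ i j, DifferentiableAt ℝ (fun x => g x i j) (mid z) := fun i j =>
    df_of hO (ng.sm i j) hm
  obtain ⟨e, he⟩ : ∃ e : V n, e = fun k =>
    1 / 2 * bf (dg ((1 / 2 : ℝ) • Pi.single k 1) g (mid z)) (dif z) (dif z) := ⟨_, rfl⟩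
  have hen : ‖e‖ ≤ 1 / 4 * (n ^ 3 * (δ₁ * ‖dif z‖ ^ 2)) := by
    rw [pi_norm_le_iff_of_nonneg (by positivity)]
    intro k
    rw [Real.norm_eq_abs, he]
    exact g2_le hδ ng hm (dif z) k
  have ex : gx (rq g) z = (g (mid z)) *ᵥ dif z + e := by
    funext k
    have := (rq_d dg' ng.sy (Pi.single k 1, 0)).e
    rw [dif_x, mid_x, bf_single] at this
    rw [Pi.add_apply, he]
    exact this
  have ey : gy (rq g) z = -((g (mid z)) *ᵥ dif z) + e := by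
    funext k
    have := (rq_d dg' ng.sy (0, Pi.single k 1)).e
    rw [dif_y, mid_y, bf_neg, bf_single] at this
    rw [Pi.add_apply, Pi.neg_apply, he]
    exact this
  have eG : (g (mid z)) *ᵥ dif z = Ψ *ᵥ tv Ψ z := by
    unfold tv
    rw [Matrix.mulVec_mulVec, f.qp]
  have ht := tv_le f
  have t0 := norm_nonneg (tv Ψ z)
  have r0 := norm_nonneg (dif z)
  obtain ⟨m, hm'⟩ : ∃ m : ℝ, m = n := ⟨_, rfl⟩
  have m0 : 0 ≤ m := by rw [hm']; positivity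
  have fin : ∀ {a b : ℝ}, a ≤ 4 * m ^ 6 * D * ‖tv Ψ z‖ → b ≤ m * (2 * ‖e‖) →
      a + b ≤ 17 * (m + 1) ^ 8 * (D * ‖dif z‖) := by
    intro a b ha hb
    have h1 : 4 * m ^ 6 * D * ‖tv Ψ z‖ ≤ 16 * (m ^ 8 * (D * ‖dif z‖)) := by
      rw [← hm'] at ht
      calc 4 * m ^ 6 * D * ‖tv Ψ z‖ ≤ 4 * m ^ 6 * D * (4 * m ^ 2 * ‖dif z‖) := by gcongr
        _ = _ := by ring
    have h2 : m * (2 * ‖e‖) ≤ 1 / 2 * (m ^ 4 * (D * ‖dif z‖)) := by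
      rw [← hm'] at hen
      calc m * (2 * ‖e‖) ≤ m * (2 * (1 / 4 * (m ^ 3 * (δ₁ * ‖dif z‖ ^ 2)))) := by gcongr
        _ = 1 / 2 * (m ^ 4 * ((δ₁ * ‖dif z‖) * ‖dif z‖)) := by ring
        _ ≤ 1 / 2 * (m ^ 4 * (D * ‖dif z‖)) := by gcongr
    have p : ∀ k : ℕ, k ≤ 8 → m ^ k * (D * ‖dif z‖) ≤ (m + 1) ^ 8 * (D * ‖dif z‖) := by
      intro k hk
      refine mul_le_mul_of_nonneg_right ?_ (by positivity)
      calc m ^ k ≤ (m + 1) ^ k := by gcongr; linarith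
        _ ≤ (m + 1) ^ 8 := pow_le_pow_right₀ (by linarith) hk
    have p8 := p 8 le_rfl
    have p4 := p 4 (by norm_num)
    have : 0 ≤ (m + 1) ^ 8 * (D * ‖dif z‖) := by positivity
    linarith
  rw [hm'] at fin
  constructor
  · have e1 : F₁ *ᵥ gx (rq g) z - tv Ψ z = (F₁ *ᵥ (Ψ *ᵥ tv Ψ z) - tv Ψ z) + F₁ *ᵥ e := by
      rw [ex, eG, Matrix.mulVec_add]; abel
    rw [e1]
    exact (norm_add_le _ _).trans (fin (f.m1' _) (mv_le' f.b1 e))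
  · have e1 : F₂ *ᵥ gy (rq g) z + tv Ψ z = -(F₂ *ᵥ (Ψ *ᵥ tv Ψ z) - tv Ψ z) + F₂ *ᵥ e := by
      rw [ey, eG, Matrix.mulVec_add, Matrix.mulVec_neg]; abel
    rw [e1]
    refine (norm_add_le _ _).trans ?_
    rw [norm_neg]
    exact fin (f.m2' _) (mv_le' f.b2 e)

/-- The pairing of a gradient with a pair of covectors in the frames. -/
theorem GA_fr {W : VV n → ℝ} (f : Fr2 s₁ s₂ g ε D z F₁ F₂ Ψ) (A B : V n) :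
    GA (sx s₁) (sy s₂) W z A B =
      dt (F₁ *ᵥ gx W z) (F₁ *ᵥ A) + dt (F₂ *ᵥ gy W z) (F₂ *ᵥ B) := by
  have key : ∀ (F S : Matrix (Fin n) (Fin n) ℝ) (a b : V n), (∀ i j, F i j = F j i) → F * F = S →
      dt (F *ᵥ a) (F *ᵥ b) = ∑ i, (∑ j, S i j * a j) * b i := by
    intro F S a b hF hS
    have e1 : dt (F *ᵥ a) (F *ᵥ b) = ∑ k, ∑ i, ∑ j, F k j * a j * (F k i * b i) := by
      unfold dt
      simp only [Matrix.mulVec, dotProduct, Finset.sum_mul_sum]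
      exact Finset.sum_congr rfl fun k _ => Finset.sum_comm
    rw [e1, Finset.sum_comm]
    refine Finset.sum_congr rfl fun i _ => ?_
    rw [Finset.sum_comm, Finset.sum_mul]
    refine Finset.sum_congr rfl fun j _ => ?_
    rw [← hS, Matrix.mul_apply, Finset.sum_mul, Finset.sum_mul]
    refine Finset.sum_congr rfl fun k _ => ?_
    rw [hF i k]; ring
  rw [key F₁ (s₁ z.1) (gx W z) A f.y1 f.q1, key F₂ (s₂ z.2) (gy W z) B f.y2 f.q2]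
  unfold GA Gr
  have e1 : ∀ i j, (sx s₁).s i j z = s₁ z.1 i j := fun _ _ => rfl
  have e2 : ∀ i j, (sy s₂).s i j z = s₂ z.2 i j := fun _ _ => rfl
  have e3 : ∀ j, (sx s₁).D j W z = gx W z j := fun j => congrFun (Dx_one j W) z
  have e4 : ∀ j, (sy s₂).D j W z = gy W z j := fun j => congrFun (Dy_one j W) z
  simp only [e1, e2, e3, e4]

end main

end Vale.Agent.P088.R2.H464.Cu
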