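import Vale.Agent.P088.R2.H464.EP.Root

/-!
# P088: frames in which the curved forms are flat up to small errors
-/

open Set Filter
open scoped ContDiff Topology Matrix

noncomputable section

namespace Vale.Agent.P088.R2.H464.Cu

open Vale.Agent.P088.LR Vale.Agent.P088.HY Vale.Agent.P088.R2.H961.GW Vale.Agent.P088.R2.H644.Ch

variable {n : ℕ}

section vec

variable {S T : Matrix (Fin n) (Fin n) ℝ} {a b : V n}

/-- `up` as a product. -/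
theorem up_eq (hS : ∀ i j, S i j = S j i) (a : V n) : up S a = S *ᵥ a := by
  funext j
  unfold up
  simp only [Matrix.mulVec, dotProduct]
  exact Finset.sum_congr rfl fun i _ => by rw [hS i j]

theorem mv_le' {c : ℝ} (hS : ∀ i j, |S i j| ≤ c) (A : V n) : ‖S *ᵥ A‖ ≤ n * (c * ‖A‖) := by
  have h : S *ᵥ A = up Sᵀ A := by
    funext j
    unfold up
    simp only [Matrix.mulVec, dotProduct, Matrix.transpose_apply]
  rw [h]
  exact up_le (fun i j => hS j i) A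

theorem dt_add (a b : V n) : dt (a + b) (a + b) = dt a a + 2 * dt a b + dt b b := by
  unfold dt
  simp only [Pi.add_apply, Finset.mul_sum, ← Finset.sum_add_distrib]
  exact Finset.sum_congr rfl fun i _ => by ring

theorem dt_le (a b : V n) : |dt a b| ≤ n * (‖a‖ * ‖b‖) := by
  unfold dt
  refine sum_le1 fun i => ?_
  rw [abs_mul]
  have h1 := cmp_le a i
  have h2 := cmp_le b i
  gcongr

theorem bf_sq (hS : ∀ i j, S i j = S j i) (a : V n) : bf (S * S) a a = dt (S *ᵥ a) (S *ᵥ a) := by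
  have e1 : dt (S *ᵥ a) (S *ᵥ a) = ∑ k, ∑ i, ∑ j, S k i * a i * (S k j * a j) := by
    unfold dt
    simp only [Matrix.mulVec, dotProduct, Finset.sum_mul_sum]
  rw [e1]
  unfold bf
  simp only [Matrix.mul_apply, Finset.sum_mul]
  have : ∀ i : Fin n, (∑ j, ∑ k, S i k * S k j * a i * a j) =
      ∑ k, ∑ j, S i k * S k j * a i * a j := fun i => Finset.sum_comm
  simp only [this]
  rw [Finset.sum_comm]
  refine Finset.sum_congr rfl fun k _ => Finset.sum_congr rfl fun i _ =>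
    Finset.sum_congr rfl fun j _ => ?_
  rw [hS i k]; ring

end vec

/-- The inverse of a square root. -/
theorem inv_root {G Φ : Matrix (Fin n) (Fin n) ℝ} (sΦ : ∀ i j, Φ i j = Φ j i)
    (hG : G * (Φ * Φ) = 1) : ∃ Ψ : Matrix (Fin n) (Fin n) ℝ, Ψ = G * Φ ∧ (∀ i j, Ψ i j = Ψ j i) ∧
      Ψ * Φ = 1 ∧ Φ * Ψ = 1 ∧ Ψ * Ψ = G := by
  have h1 : (G * Φ) * Φ = 1 := by rw [Matrix.mul_assoc]; exact hG
  have h2 : Φ * (G * Φ) = 1 := mul_eq_one_comm.2 h1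
  have sT : Φᵀ = Φ := by ext i j; rw [Matrix.transpose_apply, sΦ]
  have h3 : (G * Φ)ᵀ = G * Φ := by
    have a1 : (G * Φ)ᵀ * Φ = 1 := by
      have := congrArg Matrix.transpose h2
      rw [Matrix.transpose_mul, sT, Matrix.transpose_one] at this
      exact this
    calc (G * Φ)ᵀ = (G * Φ)ᵀ * (Φ * (G * Φ)) := by rw [h2, mul_one]
      _ = ((G * Φ)ᵀ * Φ) * (G * Φ) := by rw [Matrix.mul_assoc]
      _ = G * Φ := by rw [a1, one_mul]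
  refine ⟨G * Φ, rfl, fun i j => ?_, h1, h2, ?_⟩
  · have := congrFun (congrFun h3 j) i
    rw [Matrix.transpose_apply] at this
    exact this
  · calc (G * Φ) * (G * Φ) = G * (Φ * (G * Φ)) := by rw [Matrix.mul_assoc]
      _ = G := by rw [h2, mul_one]

/-- The root of a tensor near `1`. -/
theorem Nr.root {O : Set (V n)} {ε δ₁ δ₂ : ℝ} {s : MF n} (h : Nr O ε δ₁ δ₂ s)
    (hε : n * ε ≤ 1 / 2) {x : V n} (hx : x ∈ O) :
    ∃ F : Matrix (Fin n) (Fin n) ℝ, (∀ i j, F i j = F j i) ∧ F * F = s x ∧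
      (∀ v : V n, 1 / 2 * dt v v ≤ bf F v v) ∧ (∀ i j, |F i j| ≤ 2) ∧
      ∀ i j, |F i j - (1 : Matrix (Fin n) (Fin n) ℝ) i j| ≤ n * ε := by
  obtain ⟨F, f1, f2, f3⟩ := Cu.root (S := s x) (h.sy x) (c := 1 / 2)
    (fun v => form_ge hε (h.b0 x hx) v)
  have p1 : ∀ v : V n, 1 / 2 * dt v v ≤ bf (1 : Matrix (Fin n) (Fin n) ℝ) v v := by
    intro v
    have : bf (1 : Matrix (Fin n) (Fin n) ℝ) v v = dt v v := by
      unfold bf dt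
      simp [Matrix.one_apply]
    rw [this]
    have := dt_nonneg v
    linarith
  have s1 : ∀ i j, (1 : Matrix (Fin n) (Fin n) ℝ) i j = (1 : Matrix (Fin n) (Fin n) ℝ) j i := by
    intro i j
    simp only [Matrix.one_apply, eq_comm]
  have key : ∀ i j, |F i j - (1 : Matrix (Fin n) (Fin n) ℝ) i j| ≤ n * ε := fun i j =>
    root_ent f2 (mul_one 1) s1 f3 p1 ((abs_nonneg _).trans (h.b0 x hx i j)) (h.b0 x hx) i j
  refine ⟨F, f1, f2, f3, fun i j => ?_, key⟩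
  have := key i j
  have h2 : |(1 : Matrix (Fin n) (Fin n) ℝ) i j| ≤ 1 := by
    rw [Matrix.one_apply]; split_ifs <;> simp
  have h3 : F i j = (F i j - (1 : Matrix (Fin n) (Fin n) ℝ) i j) +
    (1 : Matrix (Fin n) (Fin n) ℝ) i j := by ring
  rw [h3]
  refine (abs_add_le _ _).trans ?_
  linarith

theorem nn2 : (n : ℝ) ≤ n ^ 2 := by
  rcases Nat.eq_zero_or_pos n with h | h
  · subst h; simp
  · have : (1 : ℝ) ≤ n := by exact_mod_cast h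
    nlinarith

section main

variable {O : Set (V n)} {ε δ₁ δ₂ h₀ h₁ : ℝ} {s₁ s₂ g : MF n} {z : VV n}

theorem dist_mid1 (z : VV n) : ‖z.1 - mid z‖ ≤ ‖dif z‖ := by
  have e : z.1 - mid z = (1 / 2 : ℝ) • dif z := by
    funext i
    simp only [Pi.sub_apply, mid_apply, Pi.smul_apply, dif_apply, smul_eq_mul]; ring
  rw [e, norm_smul]
  have := norm_nonneg (dif z)
  norm_num
  linarith

theorem dist_mid2 (z : VV n) : ‖z.2 - mid z‖ ≤ ‖dif z‖ := by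
  have e : z.2 - mid z = (-(1 / 2) : ℝ) • dif z := by
    funext i
    simp only [Pi.sub_apply, mid_apply, Pi.smul_apply, dif_apply, smul_eq_mul]; ring
  rw [e, norm_smul]
  have := norm_nonneg (dif z)
  norm_num
  linarith

/-- The data of the frames at a pair of points. -/
structure Fr2 (s₁ s₂ g : MF n) (ε D : ℝ) (z : VV n) (F₁ F₂ Ψ : Matrix (Fin n) (Fin n) ℝ) :
    Prop where
  y1 : ∀ i j, F₁ i j = F₁ j i
  y2 : ∀ i j, F₂ i j = F₂ j i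
  yp : ∀ i j, Ψ i j = Ψ j i
  q1 : F₁ * F₁ = s₁ z.1
  q2 : F₂ * F₂ = s₂ z.2
  qp : Ψ * Ψ = g (mid z)
  b1 : ∀ i j, |F₁ i j| ≤ 2
  b2 : ∀ i j, |F₂ i j| ≤ 2
  bp : ∀ i j, |Ψ i j| ≤ 4 * n
  /-- `Ψ F = 1 + M`, `F Ψ = 1 + M'`. -/
  m1 : ∀ v : V n, ‖Ψ *ᵥ (F₁ *ᵥ v) - v‖ ≤ 4 * n ^ 6 * D * ‖v‖
  m2 : ∀ v : V n, ‖Ψ *ᵥ (F₂ *ᵥ v) - v‖ ≤ 4 * n ^ 6 * D * ‖v‖
  m1' : ∀ v : V n, ‖F₁ *ᵥ (Ψ *ᵥ v) - v‖ ≤ 4 * n ^ 6 * D * ‖v‖
  m2' : ∀ v : V n, ‖F₂ *ᵥ (Ψ *ᵥ v) - v‖ ≤ 4 * n ^ 6 * D * ‖v‖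
  inv : ∃ Φ : Matrix (Fin n) (Fin n) ℝ, Φ * Ψ = 1 ∧ ∀ i j, |Φ i j| ≤ 2
  e1 : ∀ i j, |F₁ i j - (1 : Matrix (Fin n) (Fin n) ℝ) i j| ≤ n * ε
  e2 : ∀ i j, |F₂ i j - (1 : Matrix (Fin n) (Fin n) ℝ) i j| ≤ n * ε
  dd : ∀ i j, |F₁ i j - F₂ i j| ≤ 2 * n ^ 3 * D
  p1 : ∀ v : V n, 1 / 2 * dt v v ≤ bf F₁ v v
  p2 : ∀ v : V n, 1 / 2 * dt v v ≤ bf F₂ v v

/-- **The frames exist.** -/
theorem frames (hO : IsOpen O) (hc : Convex ℝ O) (n₁ : Nr O ε δ₁ δ₂ s₁) (n₂ : Nr O ε δ₁ δ₂ s₂)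
    (ng : Nr O ε δ₁ δ₂ g) (hh : Dst O h₀ h₁ s₁ s₂) (hδ : 0 ≤ δ₁) (hh0 : 0 ≤ h₀)
    (hε1 : ε ≤ 1) (hε : n * ε ≤ 1 / 2) (hx : z.1 ∈ O) (hy : z.2 ∈ O)
    (hg : g (mid z) * s₁ (mid z) = 1) :
    ∃ F₁ F₂ Ψ, Fr2 s₁ s₂ g ε (δ₁ * ‖dif z‖ + h₀) z F₁ F₂ Ψ := by
  have hm := mid_mem hc hx hy
  obtain ⟨F₁, a1, a2, a3, a4, a5⟩ := n₁.root hε hx
  obtain ⟨F₂, b1, b2, b3, b4, b5⟩ := n₂.root hε hy
  obtain ⟨Φ, c1, c2, c3, c4, -⟩ := n₁.root hε hm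
  obtain ⟨Ψ, d0, d1, d2, d3, d4⟩ := inv_root (G := g (mid z)) c1 (by rw [c2]; exact hg)
  set r := ‖dif z‖ with hr
  have r0 : 0 ≤ r := norm_nonneg _
  set D := δ₁ * r + h₀ with hD
  have D0 : 0 ≤ D := by positivity
  have k1 : ∀ i j, |s₁ z.1 i j - s₁ (mid z) i j| ≤ n * D := by
    intro i j
    refine (n₁.mv hO hc hδ hx hm i j).trans ?_
    have := dist_mid1 z
    calc n * δ₁ * ‖z.1 - mid z‖ ≤ n * δ₁ * r := by gcongr
      _ ≤ n * D := by rw [hD]; nlinarith [mul_nonneg (Nat.cast_nonneg n : (0 : ℝ) ≤ n) hh0]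
  have k2 : ∀ i j, |s₂ z.2 i j - s₁ (mid z) i j| ≤ n ^ 2 * D := by
    intro i j
    have t1 := n₁.mv hO hc hδ hy hm i j
    have t2 := hh.b0 z.2 hy i j
    have := dist_mid2 z
    have e : s₂ z.2 i j - s₁ (mid z) i j = -(s₁ z.2 i j - s₂ z.2 i j) +
      (s₁ z.2 i j - s₁ (mid z) i j) := by ring
    have h3 : n * δ₁ * ‖z.2 - mid z‖ ≤ n * δ₁ * r := by gcongr
    rw [e]
    refine (abs_add_le _ _).trans ?_
    rw [abs_neg]
    have n1 : (1 : ℝ) ≤ n := by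
      have : 0 < n := Fin.pos i
      exact_mod_cast this
    have n2 := nn2 (n := n)
    calc |s₁ z.2 i j - s₂ z.2 i j| + |s₁ z.2 i j - s₁ (mid z) i j| ≤ h₀ + n * (δ₁ * r) := by
          linarith
      _ ≤ n ^ 2 * D := by rw [hD]; nlinarith [mul_nonneg hδ r0]
  have l1 : ∀ i j, |F₁ i j - Φ i j| ≤ n ^ 3 * D := by
    intro i j
    refine (root_ent a2 c2 c1 a3 c3 (by positivity) k1 i j).trans ?_
    have n2 := nn2 (n := n)
    have : (0 : ℝ) ≤ n * D := by positivity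
    nlinarith
  have l2 : ∀ i j, |F₂ i j - Φ i j| ≤ n ^ 3 * D := by
    intro i j
    refine (root_ent b2 c2 c1 b3 c3 (by positivity) k2 i j).trans (le_of_eq (by ring))
  have bp : ∀ i j, |Ψ i j| ≤ 4 * n := by
    intro i j
    rw [d0, Matrix.mul_apply]
    have := sum_le1 (n := n) (f := fun k => g (mid z) i k * Φ k j) (c := 4) fun k => by
      rw [abs_mul]
      have h1 := ng.le2 hε1 hm i k
      have h2 := c4 k j
      calc |g (mid z) i k| * |Φ k j| ≤ 2 * 2 := by gcongr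
        _ = 4 := by norm_num
    linarith
  have gen : ∀ F : Matrix (Fin n) (Fin n) ℝ, (∀ i j, |F i j - Φ i j| ≤ n ^ 3 * D) →
      (∀ v : V n, ‖Ψ *ᵥ (F *ᵥ v) - v‖ ≤ 4 * n ^ 6 * D * ‖v‖) ∧
      ∀ v : V n, ‖F *ᵥ (Ψ *ᵥ v) - v‖ ≤ 4 * n ^ 6 * D * ‖v‖ := by
    intro F hF
    have hF' : ∀ i j, |(F - Φ) i j| ≤ n ^ 3 * D := fun i j => by
      rw [Matrix.sub_apply]; exact hF i j
    constructor
    · intro v
      have e : Ψ *ᵥ (F *ᵥ v) - v = Ψ *ᵥ ((F - Φ) *ᵥ v) := by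
        rw [Matrix.sub_mulVec, Matrix.mulVec_sub, Matrix.mulVec_mulVec (M := Ψ) (N := Φ), d2,
          Matrix.one_mulVec]
      rw [e]
      have h1 := mv_le' bp ((F - Φ) *ᵥ v)
      have h2 := mv_le' hF' v
      calc _ ≤ n * (4 * n * ‖(F - Φ) *ᵥ v‖) := h1
        _ ≤ n * (4 * n * (n * (n ^ 3 * D * ‖v‖))) := by gcongr
        _ = _ := by ring
    · intro v
      have e : F *ᵥ (Ψ *ᵥ v) - v = (F - Φ) *ᵥ (Ψ *ᵥ v) := by
        rw [Matrix.sub_mulVec, Matrix.mulVec_mulVec (M := Φ) (N := Ψ), d3, Matrix.one_mulVec]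
      rw [e]
      have h1 := mv_le' hF' (Ψ *ᵥ v)
      have h2 := mv_le' bp v
      calc _ ≤ n * (n ^ 3 * D * ‖Ψ *ᵥ v‖) := h1
        _ ≤ n * (n ^ 3 * D * (n * (4 * n * ‖v‖))) := by gcongr
        _ = _ := by ring
  obtain ⟨e1, e2⟩ := gen F₁ l1
  obtain ⟨e3, e4⟩ := gen F₂ l2
  have l3 : ∀ i j, |F₁ i j - F₂ i j| ≤ 2 * n ^ 3 * D := by
    intro i j
    have u1 := l1 i j
    have u2 := l2 i j
    rw [abs_le] at u1 u2 ⊢
    constructor <;> linarith [u1.1, u1.2, u2.1, u2.2]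
  exact ⟨F₁, F₂, Ψ, a1, b1, d1, a2, b2, d4, a4, b4, bp, e1, e3, e2, e4, ⟨Φ, d3, c4⟩, a5, b5, l3,
    a3, b3⟩

end main

end Vale.Agent.P088.R2.H464.Cu
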