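import Vale.Agent.P088.R2.H464.EP.Ops

/-!
# The operators `D_i`, `v_i` of the exact identity near the diagonal

`W = E |q|² / 2 + φ(p)`, `E = E₀ e^{2 l(p)}`; `a i` are the directions `∂_{q_i}`, `b i` the
directions `∂_{p_i}`. `D_i = ∂_{q_i} + E q_i`, `K_i = ∂_{p_i} + φ_i + l_i E |q|²`,
`v_i = K_i - (l_i / 2E) ∑ D_k²`. All commutation rules.
-/

open MeasureTheory Set
open scoped ContDiff

noncomputable section

namespace Vale.Agent.P088.R2.H464.EP

variable {ι E : Type} [Fintype ι] [DecidableEq ι] [NormedAddCommGroup E] [NormedSpace ℝ E]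

/-- The data. -/
structure Dat (ι E : Type) [Fintype ι] [DecidableEq ι] [NormedAddCommGroup E]
    [NormedSpace ℝ E] where
  a : ι → E
  b : ι → E
  q : ι → Sm E
  l : Sm E
  φ : Sm E
  e : Sm E
  e' : Sm E
  aq : ∀ i j, ds (a i) (q j) = if i = j then 1 else 0
  bq : ∀ i j, ds (b i) (q j) = 0
  al : ∀ i, ds (a i) l = 0
  aφ : ∀ i, ds (a i) φ = 0
  inv : e * e' = 1
  ae : ∀ i, ds (a i) e = 0
  be : ∀ i, ds (b i) e = 2 * (ds (b i) l * e)

namespace Dat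

variable (S : Dat ι E)

/-- `l_i`. -/
def l1 (i : ι) : Sm E := ds (S.b i) S.l

/-- `l_ij`. -/
def l2 (i j : ι) : Sm E := ds (S.b i) (S.l1 j)

/-- `φ_i`. -/
def φ1 (i : ι) : Sm E := ds (S.b i) S.φ

/-- `φ_ij`. -/
def φ2 (i j : ι) : Sm E := ds (S.b i) (S.φ1 j)

/-- `|q|²`. -/
def qq : Sm E := ∑ k, S.q k * S.q k

/-- `g_i = φ_i + l_i E |q|²`. -/
def g (i : ι) : Sm E := S.φ1 i + S.l1 i * S.e * S.qq

/-- multiplication by `E` -/
def EE : Op E := ml S.e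

/-- multiplication by `1 / E` -/
def EI : Op E := ml S.e'

/-- multiplication by `l_i` -/
def L (i : ι) : Op E := ml (S.l1 i)

/-- multiplication by `l_ij` -/
def LL (i j : ι) : Op E := ml (S.l2 i j)

/-- multiplication by `φ_ij` -/
def PP (i j : ι) : Op E := ml (S.φ2 i j)

/-- `D_i`. -/
def D (i : ι) : Op E := dv (S.a i) + ml (S.e * S.q i)

/-- `D_i^*`. -/
def Ds (i : ι) : Op E := ml (S.e * S.q i) - dv (S.a i)

/-- `K_i`. -/
def K (i : ι) : Op E := dv (S.b i) + ml (S.g i)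

/-- `K_i^*`. -/
def Ks (i : ι) : Op E := ml (S.g i) - dv (S.b i)

/-- `∑ D_k²`. -/
def D2 : Op E := ∑ k, S.D k * S.D k

/-- `∑ (D_k^*)²`. -/
def Ds2 : Op E := ∑ k, S.Ds k * S.Ds k

/-- `v_i`. -/
def v (i : ι) : Op E := S.K i - (1 / 2 : ℝ) • (S.L i * S.EI * S.D2)

/-- `v_i^*`. -/
def vs (i : ι) : Op E := S.Ks i - (1 / 2 : ℝ) • (S.Ds2 * (S.L i * S.EI))

/-- `∑ D_k^* D_k + n E`. -/
def BB : Op E := ∑ k, S.Ds k * S.D k + (Fintype.card ι : ℝ) • S.EE

/-! ## Functions -/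

theorem e'_eq {f : Sm E} {v : E} (h : ds v S.e = f * S.e) : ds v S.e' = - (f * S.e') := by
  have h0 : ds v (S.e * S.e') = 0 := by rw [S.inv, ds_one]
  rw [ds_mul, h] at h0
  have h1 : S.e' * (f * S.e * S.e' + S.e * ds v S.e') = 0 := by rw [h0, mul_zero]
  have h2 : S.e' * (f * S.e * S.e' + S.e * ds v S.e') =
      f * S.e' * (S.e * S.e') + (S.e * S.e') * ds v S.e' := by ring
  rw [h2, S.inv, mul_one, one_mul] at h1
  exact eq_neg_of_add_eq_zero_right h1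

theorem ae' (i : ι) : ds (S.a i) S.e' = 0 := by
  have := S.e'_eq (f := 0) (v := S.a i) (by rw [S.ae]; simp)
  simpa using this

theorem be' (i : ι) : ds (S.b i) S.e' = - (2 * (S.l1 i * S.e')) := by
  have := S.e'_eq (f := 2 * S.l1 i) (v := S.b i) (by rw [S.be, l1]; ring)
  rw [this]; ring

theorem al1 (i j : ι) : ds (S.a i) (S.l1 j) = 0 := by
  rw [l1, ds_comm, S.al, map_zero]

theorem aφ1 (i j : ι) : ds (S.a i) (S.φ1 j) = 0 := by
  rw [φ1, ds_comm, S.aφ, map_zero]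

theorem l2_comm (i j : ι) : S.l2 i j = S.l2 j i := ds_comm _ _ _

theorem φ2_comm (i j : ι) : S.φ2 i j = S.φ2 j i := ds_comm _ _ _

theorem al2 (i j k : ι) : ds (S.a i) (S.l2 j k) = 0 := by
  rw [l2, ds_comm, S.al1, map_zero]

theorem aφ2 (i j k : ι) : ds (S.a i) (S.φ2 j k) = 0 := by
  rw [φ2, ds_comm, S.aφ1, map_zero]

theorem aqq (i : ι) : ds (S.a i) S.qq = 2 * S.q i := by
  rw [qq, map_sum]
  simp only [ds_mul, S.aq, ite_mul, mul_ite, one_mul, zero_mul, mul_one, mul_zero]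
  rw [Finset.sum_add_distrib]
  simp only [Finset.sum_ite_eq, Finset.mem_univ, if_true]
  ring

theorem bqq (i : ι) : ds (S.b i) S.qq = 0 := by
  rw [qq, map_sum]
  simp only [ds_mul, S.bq, zero_mul, mul_zero, add_zero, Finset.sum_const_zero]

theorem aeq (i j : ι) : ds (S.a i) (S.e * S.q j) = if i = j then S.e else 0 := by
  rw [ds_mul, S.ae, S.aq, zero_mul, zero_add]
  split <;> simp

theorem beq (i j : ι) : ds (S.b i) (S.e * S.q j) = 2 * (S.l1 i * (S.e * S.q j)) := by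
  rw [ds_mul, S.be, S.bq, l1]; ring

theorem ag (i j : ι) : ds (S.a i) (S.g j) = 2 * (S.l1 j * (S.e * S.q i)) := by
  rw [g, map_add, S.aφ1, ds_mul, ds_mul, S.al1, S.ae, S.aqq]; ring

theorem bg (i j : ι) : ds (S.b i) (S.g j) =
    S.φ2 i j + (S.l2 i j + 2 * (S.l1 i * S.l1 j)) * (S.e * S.qq) := by
  rw [g, map_add, ds_mul, ds_mul, S.be, S.bqq, φ2, l2, l1, l1]; ring

/-! ## Commutation rules -/

theorem comm_of {v : E} {f : Sm E} (h : ds v f = 0) :
    dv v * ml f = (ml f * dv v : Op E) := by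
  rw [dv_ml, h, map_zero, add_zero]

/-- `D_i` commutes with functions of `p`. -/
theorem D_ml {f : Sm E} (h : ∀ i, ds (S.a i) f = 0) (i : ι) : S.D i * ml f = ml f * S.D i := by
  rw [D, add_mul, mul_add, comm_of (h i), mlc]

theorem Ds_ml {f : Sm E} (h : ∀ i, ds (S.a i) f = 0) (i : ι) :
    S.Ds i * ml f = ml f * S.Ds i := by
  rw [Ds, sub_mul, mul_sub, comm_of (h i), mlc]

theorem D_EE (i : ι) : S.D i * S.EE = S.EE * S.D i := S.D_ml S.ae i

theorem Ds_EE (i : ι) : S.Ds i * S.EE = S.EE * S.Ds i := S.Ds_ml S.ae i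

theorem D_EI (i : ι) : S.D i * S.EI = S.EI * S.D i := S.D_ml S.ae' i

theorem Ds_EI (i : ι) : S.Ds i * S.EI = S.EI * S.Ds i := S.Ds_ml S.ae' i

theorem D_L (i j : ι) : S.D i * S.L j = S.L j * S.D i := S.D_ml (fun k => S.al1 k j) i

theorem Ds_L (i j : ι) : S.Ds i * S.L j = S.L j * S.Ds i := S.Ds_ml (fun k => S.al1 k j) i

theorem D_LL (i j k : ι) : S.D i * S.LL j k = S.LL j k * S.D i :=
  S.D_ml (fun m => S.al2 m j k) i

theorem Ds_LL (i j k : ι) : S.Ds i * S.LL j k = S.LL j k * S.Ds i :=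
  S.Ds_ml (fun m => S.al2 m j k) i

theorem D_PP (i j k : ι) : S.D i * S.PP j k = S.PP j k * S.D i :=
  S.D_ml (fun m => S.aφ2 m j k) i

theorem Ds_PP (i j k : ι) : S.Ds i * S.PP j k = S.PP j k * S.Ds i :=
  S.Ds_ml (fun m => S.aφ2 m j k) i

theorem EE_EI : S.EE * S.EI = 1 := by
  rw [EE, EI, ← map_mul, S.inv, map_one]

theorem EI_EE : S.EI * S.EE = 1 := by
  rw [EE, EI, ← map_mul, mul_comm, S.inv, map_one]

theorem D_D (i j : ι) : S.D i * S.D j = S.D j * S.D i := by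
  have h1 := dv_ml (S.a i) (S.e * S.q j)
  have h2 := dv_ml (S.a j) (S.e * S.q i)
  rw [aeq] at h1 h2
  have h3 := mlc (S.e * S.q i) (S.e * S.q j)
  have h4 := dv_comm (S.a i) (S.a j)
  by_cases hij : i = j
  · rw [hij]
  · rw [if_neg hij, map_zero, add_zero] at h1
    rw [if_neg (Ne.symm hij), map_zero, add_zero] at h2
    simp only [D, add_mul, mul_add]
    rw [h1, h2, h3, h4]
    abel

theorem Ds_Ds (i j : ι) : S.Ds i * S.Ds j = S.Ds j * S.Ds i := by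
  have h1 := dv_ml (S.a i) (S.e * S.q j)
  have h2 := dv_ml (S.a j) (S.e * S.q i)
  rw [aeq] at h1 h2
  have h3 := mlc (S.e * S.q i) (S.e * S.q j)
  have h4 := dv_comm (S.a i) (S.a j)
  by_cases hij : i = j
  · rw [hij]
  · rw [if_neg hij, map_zero, add_zero] at h1
    rw [if_neg (Ne.symm hij), map_zero, add_zero] at h2
    simp only [Ds, sub_mul, mul_sub]
    rw [h1, h2, h3, h4]
    abel

theorem D_Ds (i j : ι) : S.D i * S.Ds j = S.Ds j * S.D i + if i = j then (2 : ℝ) • S.EE else 0 := by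
  have h1 := dv_ml (S.a i) (S.e * S.q j)
  have h2 := dv_ml (S.a j) (S.e * S.q i)
  rw [aeq] at h1 h2
  have h3 := mlc (S.e * S.q i) (S.e * S.q j)
  have h4 := dv_comm (S.a i) (S.a j)
  simp only [D, Ds, add_mul, mul_sub, sub_mul, mul_add]
  by_cases hij : i = j
  · subst hij
    rw [if_pos rfl] at h1
    rw [if_pos rfl, h1, two_smul, EE]
    abel
  · rw [if_neg hij, map_zero, add_zero] at h1
    rw [if_neg (Ne.symm hij), map_zero, add_zero] at h2
    rw [if_neg hij, h1, h2, h3, h4]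
    abel

theorem K_D (i j : ι) : S.K i * S.D j = S.D j * S.K i := by
  have h1 := dv_ml (S.b i) (S.e * S.q j)
  have h2 := dv_ml (S.a j) (S.g i)
  rw [beq] at h1
  rw [ag] at h2
  have h3 := mlc (S.e * S.q j) (S.g i)
  have h4 := dv_comm (S.b i) (S.a j)
  simp only [D, K, add_mul, mul_add]
  rw [h1, h2, h3, h4]
  abel

/-- `[K_i, D_j^*] = 2 l_i (D_j + D_j^*)`. -/
theorem K_Ds (i j : ι) :
    S.K i * S.Ds j = S.Ds j * S.K i + (2 : ℝ) • (S.L i * (S.D j + S.Ds j)) := by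
  have h1 := dv_ml (S.b i) (S.e * S.q j)
  have h2 := dv_ml (S.a j) (S.g i)
  rw [beq] at h1
  rw [ag] at h2
  have h3 := mlc (S.e * S.q j) (S.g i)
  have h4 := dv_comm (S.b i) (S.a j)
  have h5 : S.D j + S.Ds j = (2 : ℝ) • ml (S.e * S.q j) := by
    rw [D, Ds, two_smul]; abel
  have h6 : ml (2 * (S.l1 i * (S.e * S.q j))) = (2 : ℝ) • (S.L i * ml (S.e * S.q j)) := by
    rw [L, ← map_mul, ← map_smul, two_smul, two_mul]
  rw [h5]
  simp only [Ds, K, add_mul, mul_add, sub_mul, mul_sub, mul_smul_comm]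
  rw [h1, h2, h3, h4, h6, two_smul ℝ ((2 : ℝ) • (S.L i * ml (S.e * S.q j)))]
  abel

theorem K_K (i j : ι) : S.K i * S.K j = S.K j * S.K i := by
  have h1 := dv_ml (S.b i) (S.g j)
  have h2 := dv_ml (S.b j) (S.g i)
  rw [bg] at h1 h2
  have h3 := mlc (S.g i) (S.g j)
  have h4 := dv_comm (S.b i) (S.b j)
  have h5 : S.φ2 i j + (S.l2 i j + 2 * (S.l1 i * S.l1 j)) * (S.e * S.qq) =
      S.φ2 j i + (S.l2 j i + 2 * (S.l1 j * S.l1 i)) * (S.e * S.qq) := by
    rw [S.φ2_comm i j, S.l2_comm i j, mul_comm (S.l1 i)]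
  simp only [K, add_mul, mul_add]
  rw [h1, h2, h3, h4, h5]
  abel

/-- `[K_i, K_j^*] = 2 ∂_i g_j`. -/
theorem K_Ks (i j : ι) : S.K i * S.Ks j = S.Ks j * S.K i +
    (2 : ℝ) • ml (S.φ2 i j + (S.l2 i j + 2 * (S.l1 i * S.l1 j)) * (S.e * S.qq)) := by
  have h1 := dv_ml (S.b i) (S.g j)
  have h2 := dv_ml (S.b j) (S.g i)
  rw [bg] at h1 h2
  have h3 := mlc (S.g i) (S.g j)
  have h4 := dv_comm (S.b i) (S.b j)
  have h5 : S.φ2 i j + (S.l2 i j + 2 * (S.l1 i * S.l1 j)) * (S.e * S.qq) =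
      S.φ2 j i + (S.l2 j i + 2 * (S.l1 j * S.l1 i)) * (S.e * S.qq) := by
    rw [S.φ2_comm i j, S.l2_comm i j, mul_comm (S.l1 i)]
  rw [← h5] at h2
  generalize S.φ2 i j + (S.l2 i j + 2 * (S.l1 i * S.l1 j)) * (S.e * S.qq) = G at *
  simp only [K, Ks, add_mul, mul_add, mul_sub, sub_mul]
  rw [h1, h2, h3, h4, two_smul]
  abel

/-- `[D_k², D_j^*]`. -/
theorem DD_Ds (k j : ι) : S.D k * S.D k * S.Ds j = S.Ds j * (S.D k * S.D k) +
    if k = j then (4 : ℝ) • (S.EE * S.D k) else 0 := by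
  have h1 := S.D_Ds k j
  have h2 := S.D_EE k
  by_cases hjk : k = j
  · rw [if_pos hjk] at h1 ⊢
    rw [mul_assoc, h1, mul_add, ← mul_assoc, h1, add_mul, mul_smul_comm, smul_mul_assoc, h2,
      mul_assoc, add_assoc, ← add_smul]
    norm_num
  · rw [if_neg hjk, add_zero] at h1 ⊢
    rw [mul_assoc, h1, ← mul_assoc, h1, mul_assoc]

/-- `[D², D_j^*] = 4 E D_j`. -/
theorem D2_Ds (j : ι) : S.D2 * S.Ds j = S.Ds j * S.D2 + (4 : ℝ) • (S.EE * S.D j) := by
  rw [D2, Finset.mul_sum, Finset.sum_mul]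
  simp only [DD_Ds]
  rw [Finset.sum_add_distrib, Finset.sum_ite_eq']
  simp

theorem D2_D (j : ι) : S.D2 * S.D j = S.D j * S.D2 := by
  rw [D2, Finset.mul_sum, Finset.sum_mul]
  refine Finset.sum_congr rfl fun k _ => ?_
  rw [mul_assoc, S.D_D k j, ← mul_assoc, S.D_D k j, mul_assoc]

theorem D2_ml {f : Sm E} (h : ∀ i, ds (S.a i) f = 0) : S.D2 * ml f = ml f * S.D2 := by
  rw [D2, Finset.mul_sum, Finset.sum_mul]
  refine Finset.sum_congr rfl fun k _ => ?_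
  rw [mul_assoc, S.D_ml h k, ← mul_assoc, S.D_ml h k, mul_assoc]

theorem Ds2_ml {f : Sm E} (h : ∀ i, ds (S.a i) f = 0) : S.Ds2 * ml f = ml f * S.Ds2 := by
  rw [Ds2, Finset.mul_sum, Finset.sum_mul]
  refine Finset.sum_congr rfl fun k _ => ?_
  rw [mul_assoc, S.Ds_ml h k, ← mul_assoc, S.Ds_ml h k, mul_assoc]

theorem K_ml (i : ι) (f : Sm E) : S.K i * ml f = ml f * S.K i + ml (ds (S.b i) f) := by
  rw [K, add_mul, mul_add, dv_ml, mlc]; abel

theorem K_EE (i : ι) : S.K i * S.EE = S.EE * S.K i + (2 : ℝ) • (S.L i * S.EE) := by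
  rw [EE, K_ml, S.be, L, ← map_mul, ← map_smul, two_smul, two_mul]; rfl

theorem K_EI (i : ι) : S.K i * S.EI = S.EI * S.K i - (2 : ℝ) • (S.L i * S.EI) := by
  rw [EI, K_ml, S.be', L, ← map_mul, ← map_smul, two_smul, two_mul, map_neg]; abel

theorem K_L (i j : ι) : S.K i * S.L j = S.L j * S.K i + S.LL i j := S.K_ml i _

theorem K_D2 (i : ι) : S.K i * S.D2 = S.D2 * S.K i := by
  rw [D2, Finset.mul_sum, Finset.sum_mul]
  refine Finset.sum_congr rfl fun k _ => ?_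
  rw [← mul_assoc, S.K_D i k, mul_assoc, S.K_D i k, mul_assoc]

theorem v_D (i j : ι) : S.v i * S.D j = S.D j * S.v i := by
  rw [v, sub_mul, mul_sub, S.K_D, smul_mul_assoc, mul_smul_comm, mul_assoc, S.D2_D,
    ← mul_assoc (S.L i * S.EI), mul_assoc (S.L i), ← S.D_EI, ← mul_assoc (S.L i), ← S.D_L,
    mul_assoc, mul_assoc (S.D j), mul_assoc]

theorem v_Ds (i j : ι) : S.v i * S.Ds j = S.Ds j * S.v i + (2 : ℝ) • (S.L i * S.Ds j) := by
  have h1 : S.L i * S.EI * S.D2 * S.Ds j = S.Ds j * (S.L i * S.EI * S.D2) +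
      (4 : ℝ) • (S.L i * S.D j) := by
    rw [mul_assoc, S.D2_Ds, mul_add, mul_smul_comm, ← mul_assoc (S.L i * S.EI) S.EE,
      mul_assoc (S.L i) S.EI S.EE, S.EI_EE, mul_one, ← mul_assoc (S.L i * S.EI), mul_assoc (S.L i),
      ← S.Ds_EI, ← mul_assoc (S.L i), ← S.Ds_L, mul_assoc, mul_assoc (S.Ds j), mul_assoc]
  rw [v, sub_mul, mul_sub, S.K_Ds, smul_mul_assoc, h1, mul_smul_comm, smul_add, smul_smul, mul_add]
  module

theorem v_EE (i : ι) : S.v i * S.EE = S.EE * S.v i + (2 : ℝ) • (S.EE * S.L i) := by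
  have h1 : S.D2 * S.EE = S.EE * S.D2 := S.D2_ml S.ae
  have h2 : S.L i * S.EE = S.EE * S.L i := mlc _ _
  have h3 : S.EI * S.EE = S.EE * S.EI := mlc _ _
  rw [v, sub_mul, mul_sub, S.K_EE, smul_mul_assoc, mul_smul_comm, mul_assoc, h1,
    ← mul_assoc (S.L i * S.EI), mul_assoc (S.L i), h3, ← mul_assoc (S.L i), h2, mul_assoc,
    mul_assoc S.EE, mul_assoc]
  abel

theorem v_L (i j : ι) : S.v i * S.L j = S.L j * S.v i + S.LL i j := by
  have h1 : S.D2 * S.L j = S.L j * S.D2 := S.D2_ml (fun k => S.al1 k j)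
  have h2 : S.L i * S.L j = S.L j * S.L i := mlc _ _
  have h3 : S.EI * S.L j = S.L j * S.EI := mlc _ _
  rw [v, sub_mul, mul_sub, S.K_L, smul_mul_assoc, mul_smul_comm, mul_assoc, h1,
    ← mul_assoc (S.L i * S.EI), mul_assoc (S.L i), h3, ← mul_assoc (S.L i), h2, mul_assoc,
    mul_assoc (S.L j), mul_assoc]
  abel

end Dat

end Vale.Agent.P088.R2.H464.EP
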