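import Vale.Agent.P088.R2.H464.EP.Cur

/-!
# P088: square roots of matrices near `1`
-/

open Set Filter
open scoped ContDiff Topology Matrix

noncomputable section

namespace Vale.Agent.P088.R2.H464.Cu

open Vale.Agent.P088.LR Vale.Agent.P088.HY

variable {n : ℕ}

/-- `∑ a_i b_i`. -/
def dt (a b : V n) : ℝ := ∑ i, a i * b i

/-- `∑ A_ij B_ij`. -/
def fb (A B : Matrix (Fin n) (Fin n) ℝ) : ℝ := ∑ i, ∑ j, A i j * B i j

theorem dt_comm (a b : V n) : dt a b = dt b a :=
  Finset.sum_congr rfl fun _ _ => mul_comm _ _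

theorem dt_nonneg (a : V n) : 0 ≤ dt a a :=
  Finset.sum_nonneg fun _ _ => mul_self_nonneg _

theorem fb_cs (A B : Matrix (Fin n) (Fin n) ℝ) : fb A B ^ 2 ≤ fb A A * fb B B := by
  have h := Finset.sum_mul_sq_le_sq_mul_sq (Finset.univ : Finset (Fin n × Fin n))
    (fun p => A p.1 p.2) (fun p => B p.1 p.2)
  have e : ∀ (A B : Matrix (Fin n) (Fin n) ℝ), fb A B = ∑ p : Fin n × Fin n, A p.1 p.2 * B p.1 p.2 := by
    intro A B
    unfold fb
    rw [← Finset.univ_product_univ, Finset.sum_product]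
  rw [e A B, e A A, e B B]
  simpa only [pow_two] using h

theorem fb_nonneg (A : Matrix (Fin n) (Fin n) ℝ) : 0 ≤ fb A A :=
  Finset.sum_nonneg fun _ _ => Finset.sum_nonneg fun _ _ => mul_self_nonneg _

/-- The positive square root. -/
theorem root {S : Matrix (Fin n) (Fin n) ℝ} (hS : ∀ i j, S i j = S j i) {c : ℝ}
    (hp : ∀ v : V n, c ^ 2 * dt v v ≤ bf S v v) :
    ∃ F : Matrix (Fin n) (Fin n) ℝ, (∀ i j, F i j = F j i) ∧ F * F = S ∧
      ∀ v : V n, c * dt v v ≤ bf F v v := by
  have hH : S.IsHermitian := by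
    ext i j; simp [hS j i]
  set U : Matrix (Fin n) (Fin n) ℝ := (hH.eigenvectorUnitary : Matrix (Fin n) (Fin n) ℝ) with hU
  have hUU : Uᵀ * U = 1 := by
    have := Unitary.coe_star_mul_self hH.eigenvectorUnitary
    simpa [Matrix.star_eq_conjTranspose] using this
  have hUU' : U * Uᵀ = 1 := by
    have := Unitary.coe_mul_star_self hH.eigenvectorUnitary
    simpa [Matrix.star_eq_conjTranspose] using this
  set lam := hH.eigenvalues with hlam
  have hsp : S = U * Matrix.diagonal lam * Uᵀ := by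
    have := hH.spectral_theorem
    rw [Unitary.conjStarAlgAut_apply] at this
    simpa [Matrix.star_eq_conjTranspose] using this
  have bfe : ∀ (M : Matrix (Fin n) (Fin n) ℝ) (v : V n), bf M v v = v ⬝ᵥ (M *ᵥ v) := by
    intro M v
    unfold bf
    simp only [dotProduct, Matrix.mulVec, Finset.mul_sum]
    exact Finset.sum_congr rfl fun i _ => Finset.sum_congr rfl fun j _ => by ring
  have dte : ∀ v : V n, dt v v = v ⬝ᵥ v := fun v => rfl
  have hconj : ∀ (d : Fin n → ℝ) (v : V n), bf (U * Matrix.diagonal d * Uᵀ) v v =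
      ∑ i, d i * (Uᵀ *ᵥ v) i ^ 2 := by
    intro d v
    rw [bfe, ← Matrix.mulVec_mulVec, ← Matrix.mulVec_mulVec, Matrix.dotProduct_mulVec,
      ← Matrix.mulVec_transpose]
    simp only [dotProduct, Matrix.mulVec_diagonal]
    exact Finset.sum_congr rfl fun i _ => by ring
  have hnorm : ∀ v : V n, dt v v = ∑ i, (Uᵀ *ᵥ v) i ^ 2 := by
    intro v
    have h1 := hconj (fun _ => 1) v
    have h2 : Matrix.diagonal (fun _ : Fin n => (1 : ℝ)) = 1 := Matrix.diagonal_one
    rw [h2, mul_one, hUU', bfe, Matrix.one_mulVec] at h1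
    rw [dte, h1]
    simp
  have hl : ∀ i, c ^ 2 ≤ lam i := by
    intro i
    have h1 := hp (U *ᵥ Pi.single i 1)
    rw [hnorm, hsp, hconj, Matrix.mulVec_mulVec, hUU, Matrix.one_mulVec] at h1
    simpa [Pi.single_apply] using h1
  have hl0 : ∀ i, 0 ≤ lam i := fun i => (sq_nonneg c).trans (hl i)
  refine ⟨U * Matrix.diagonal (fun i => √(lam i)) * Uᵀ, ?_, ?_, ?_⟩
  · intro i j
    have : (U * Matrix.diagonal (fun i => √(lam i)) * Uᵀ)ᵀ =
        U * Matrix.diagonal (fun i => √(lam i)) * Uᵀ := by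
      simp only [Matrix.transpose_mul, Matrix.transpose_transpose, Matrix.diagonal_transpose,
        Matrix.mul_assoc]
    exact (congrFun (congrFun this j) i)
  · have e : (U * Matrix.diagonal (fun i => √(lam i)) * Uᵀ) *
        (U * Matrix.diagonal (fun i => √(lam i)) * Uᵀ) =
        U * (Matrix.diagonal (fun i => √(lam i)) * (Uᵀ * U) *
          Matrix.diagonal (fun i => √(lam i))) * Uᵀ := by
      simp only [Matrix.mul_assoc]
    rw [e, hUU, mul_one, Matrix.diagonal_mul_diagonal]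
    conv_rhs => rw [hsp]
    congr 3
    funext i
    exact Real.mul_self_sqrt (hl0 i)
  · intro v
    rw [hconj, hnorm, Finset.mul_sum]
    refine Finset.sum_le_sum fun i _ => ?_
    have : c ≤ √(lam i) := Real.le_sqrt_of_sq_le (hl i)
    gcongr

/-- The square root is Lipschitz. -/
theorem root_lip {F G S T : Matrix (Fin n) (Fin n) ℝ} (hF : F * F = S) (hG : G * G = T)
    (sG : ∀ i j, G i j = G j i) (pF : ∀ v : V n, 1 / 2 * dt v v ≤ bf F v v)
    (pG : ∀ v : V n, 1 / 2 * dt v v ≤ bf G v v) : fb (F - G) (F - G) ≤ fb (S - T) (S - T) := by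
  set D := F - G with hD
  have e1 : F * D + D * G = S - T := by
    rw [hD, ← hF, ← hG]
    simp only [Matrix.mul_sub, Matrix.sub_mul]
    abel
  have e2 : fb D (F * D) = ∑ j, bf F (fun i => D i j) (fun i => D i j) := by
    unfold fb bf
    simp only [Matrix.mul_apply, Finset.mul_sum]
    rw [Finset.sum_comm]
    refine Finset.sum_congr rfl fun j _ => Finset.sum_congr rfl fun i _ =>
      Finset.sum_congr rfl fun k _ => ?_
    ring
  have e3 : fb D (D * G) = ∑ i, bf G (D i) (D i) := by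
    unfold fb bf
    simp only [Matrix.mul_apply, Finset.mul_sum]
    refine Finset.sum_congr rfl fun i _ => Finset.sum_congr rfl fun j _ =>
      Finset.sum_congr rfl fun k _ => ?_
    rw [sG k j]; ring
  have e4 : fb D D = ∑ j, dt (fun i => D i j) (fun i => D i j) := by
    unfold fb dt
    rw [Finset.sum_comm]
  have e5 : fb D D = ∑ i, dt (D i) (D i) := rfl
  have h1 : 1 / 2 * fb D D ≤ fb D (F * D) := by
    rw [e2, e4, Finset.mul_sum]
    exact Finset.sum_le_sum fun j _ => pF _
  have h2 : 1 / 2 * fb D D ≤ fb D (D * G) := by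
    rw [e3, e5, Finset.mul_sum]
    exact Finset.sum_le_sum fun j _ => pG _
  have e6 : fb D (S - T) = fb D (F * D) + fb D (D * G) := by
    rw [← e1]
    unfold fb
    simp only [Matrix.add_apply, mul_add, Finset.sum_add_distrib]
  have h3 : fb D D ≤ fb D (S - T) := by rw [e6]; linarith
  have h4 := fb_cs D (S - T)
  have h5 := fb_nonneg D
  have h6 := fb_nonneg (S - T)
  by_contra hc
  push Not at hc
  have h7 : fb D D ^ 2 ≤ fb D (S - T) ^ 2 := by
    apply pow_le_pow_left₀ h5 h3
  nlinarith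

theorem fb_le {M : Matrix (Fin n) (Fin n) ℝ} {c : ℝ} (h : ∀ i j, |M i j| ≤ c) :
    fb M M ≤ n ^ 2 * c ^ 2 := by
  have : |fb M M| ≤ n ^ 2 * c ^ 2 := by
    unfold fb
    refine sum_le2 fun i j => ?_
    rw [← pow_two, abs_pow]
    exact pow_le_pow_left₀ (abs_nonneg _) (h i j) 2
  exact (le_abs_self _).trans this

theorem ent_le {M : Matrix (Fin n) (Fin n) ℝ} (i j : Fin n) : M i j ^ 2 ≤ fb M M := by
  unfold fb
  have h1 : M i j * M i j ≤ ∑ j, M i j * M i j :=
    Finset.single_le_sum (f := fun j => M i j * M i j) (fun j _ => mul_self_nonneg _)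
      (Finset.mem_univ j)
  have h2 : (∑ j, M i j * M i j) ≤ ∑ i, ∑ j, M i j * M i j :=
    Finset.single_le_sum (f := fun i => ∑ j, M i j * M i j)
      (fun i _ => Finset.sum_nonneg fun j _ => mul_self_nonneg _) (Finset.mem_univ i)
  rw [pow_two]; linarith

/-- The entries of the difference of two square roots. -/
theorem root_ent {F G S T : Matrix (Fin n) (Fin n) ℝ} (hF : F * F = S) (hG : G * G = T)
    (sG : ∀ i j, G i j = G j i) (pF : ∀ v : V n, 1 / 2 * dt v v ≤ bf F v v)
    (pG : ∀ v : V n, 1 / 2 * dt v v ≤ bf G v v) {c : ℝ} (hc : 0 ≤ c)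
    (h : ∀ i j, |S i j - T i j| ≤ c) (i j : Fin n) : |F i j - G i j| ≤ n * c := by
  have h1 := root_lip hF hG sG pF pG
  have h2 : fb (S - T) (S - T) ≤ n ^ 2 * c ^ 2 := fb_le fun i j => by
    rw [Matrix.sub_apply]; exact h i j
  have h3 : (F - G) i j ^ 2 ≤ fb (F - G) (F - G) := ent_le i j
  rw [Matrix.sub_apply] at h3
  have h4 : (F i j - G i j) ^ 2 ≤ (n * c) ^ 2 := by nlinarith
  exact abs_le_of_sq_le_sq h4 (by positivity)

/-- The form of a matrix near `1`. -/
theorem form_ge {S : Matrix (Fin n) (Fin n) ℝ} {ε : ℝ} (hε : n * ε ≤ 1 / 2)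
    (h : ∀ i j, |S i j - (1 : Matrix (Fin n) (Fin n) ℝ) i j| ≤ ε) (v : V n) :
    (1 / 2) ^ 2 * dt v v ≤ bf S v v := by
  have e1 : bf S v v = dt v v + bf (S - 1) v v := by
    unfold bf dt
    simp only [Matrix.sub_apply, sub_mul, Finset.sum_sub_distrib, Matrix.one_apply]
    simp
  have h1 : |bf (S - 1) v v| ≤ n * ε * dt v v := by
    unfold bf
    have h2 : ∀ i j, |(S - 1) i j * v i * v j| ≤ ε * (1 / 2 * (v i * v i) + 1 / 2 * (v j * v j)) := by
      intro i j
      rw [abs_mul, abs_mul, mul_assoc]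
      have h3 : |v i| * |v j| ≤ 1 / 2 * (v i * v i) + 1 / 2 * (v j * v j) := by
        nlinarith [sq_nonneg (|v i| - |v j|), abs_mul_abs_self (v i), abs_mul_abs_self (v j)]
      have h4 := h i j
      have h5 : 0 ≤ ε := (abs_nonneg _).trans h4
      rw [Matrix.sub_apply]
      gcongr
    refine (Finset.abs_sum_le_sum_abs _ _).trans ?_
    refine (Finset.sum_le_sum fun i _ => (Finset.abs_sum_le_sum_abs _ _).trans
      (Finset.sum_le_sum fun j _ => h2 i j)).trans ?_
    have h6 : (∑ i, ∑ j, ε * (1 / 2 * (v i * v i) + 1 / 2 * (v j * v j))) = n * ε * dt v v := by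
      unfold dt
      simp only [← Finset.mul_sum, Finset.sum_add_distrib, Finset.sum_const, Finset.card_univ,
        Fintype.card_fin, nsmul_eq_mul]
      have h7 : ∑ i, v i * (n * v i) = n * ∑ i, v i * v i := by
        rw [Finset.mul_sum]
        exact Finset.sum_congr rfl fun i _ => by ring
      rw [h7]
      ring
    exact le_of_eq h6
  have h0 := dt_nonneg v
  have h3 := (abs_le.1 h1).1
  rw [e1]
  nlinarith

end Vale.Agent.P088.R2.H464.Cu
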