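import Vale.Agent.P088.R2.H961.W.Inst

/-!
# P088: the function `ρ = ⟨g(p) q, q⟩ / 2`, `p = (x + y) / 2`, `q = x - y`

First and second derivatives in arbitrary directions.
-/

open Set Filter
open scoped ContDiff Topology Matrix

noncomputable section

namespace Vale.Agent.P088.R2.H464.Cu

open Vale.Agent.P088.LR Vale.Agent.P088.HY Vale.Agent.P088.R2.H961.GW

variable {n : ℕ}

/-- The midpoint. -/
def mid (z : VV n) : V n := (1 / 2 : ℝ) • (z.1 + z.2)

/-- The difference. -/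
def dif (z : VV n) : V n := z.1 - z.2

/-- `∑ G_ij a_i b_j`. -/
def bf (G : Matrix (Fin n) (Fin n) ℝ) (a b : V n) : ℝ := ∑ i, ∑ j, G i j * a i * b j

/-- The derivative of a matrix field. -/
def dg (w : V n) (g : MF n) : MF n := fun x i j => fderiv ℝ (fun y => g y i j) x w

/-- `ρ = ⟨g(p) q, q⟩ / 2`. -/
def rq (g : MF n) (z : VV n) : ℝ := 1 / 2 * bf (g (mid z)) (dif z) (dif z)

theorem mid_apply (z : VV n) (i : Fin n) : mid z i = 1 / 2 * (z.1 i + z.2 i) := by
  simp [mid]

theorem dif_apply (z : VV n) (i : Fin n) : dif z i = z.1 i - z.2 i := by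
  simp [dif]

theorem bf_symm {G : Matrix (Fin n) (Fin n) ℝ} (hG : ∀ i j, G i j = G j i) (a b : V n) :
    bf G a b = bf G b a := by
  unfold bf
  rw [Finset.sum_comm]
  refine Finset.sum_congr rfl fun i _ => Finset.sum_congr rfl fun j _ => ?_
  rw [hG j i]; ring

/-- The midpoint as a linear map. -/
def midL (n : ℕ) : VV n →L[ℝ] V n :=
  (1 / 2 : ℝ) • (ContinuousLinearMap.fst ℝ (V n) (V n) + ContinuousLinearMap.snd ℝ (V n) (V n))

theorem midL_apply (z : VV n) : midL n z = mid z := rfl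

theorem contDiff_mid : ContDiff ℝ ∞ (mid : VV n → V n) := (midL n).contDiff

/-- `f` is differentiable at `z` with the derivative `a` in the direction `w`. -/
structure Hv (w : VV n) (f : VV n → ℝ) (a : ℝ) (z : VV n) : Prop where
  d : DifferentiableAt ℝ f z
  e : fderiv ℝ f z w = a

namespace Hv

variable {w z : VV n} {f h : VV n → ℝ} {a b : ℝ}

theorem add (hf : Hv w f a z) (hh : Hv w h b z) : Hv w (fun z => f z + h z) (a + b) z :=
  ⟨hf.d.fun_add hh.d, by rw [fderiv_fun_add hf.d hh.d]; simp [hf.e, hh.e]⟩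

theorem mul (hf : Hv w f a z) (hh : Hv w h b z) :
    Hv w (fun z => f z * h z) (a * h z + f z * b) z :=
  ⟨hf.d.fun_mul hh.d, by
    rw [fderiv_fun_mul hf.d hh.d]
    simp only [_root_.add_apply, _root_.smul_apply, smul_eq_mul, hf.e, hh.e]; ring⟩

theorem const (c : ℝ) : Hv w (fun _ => c) 0 z :=
  ⟨differentiableAt_const c, by simp⟩

theorem cmul (c : ℝ) (hf : Hv w f a z) : Hv w (fun z => c * f z) (c * a) z := by
  have := (const (w := w) (z := z) c).mul hf
  simpa using this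

theorem sum {α : Type*} (S : Finset α) {F : α → VV n → ℝ} {A : α → ℝ}
    (hF : ∀ i ∈ S, Hv w (F i) (A i) z) : Hv w (fun z => ∑ i ∈ S, F i z) (∑ i ∈ S, A i) z := by
  refine ⟨DifferentiableAt.fun_sum fun i hi => (hF i hi).d, ?_⟩
  rw [fderiv_fun_sum fun i hi => (hF i hi).d]
  simp only [_root_.sum_apply]
  exact Finset.sum_congr rfl fun i hi => (hF i hi).e

theorem dif (w z : VV n) (i : Fin n) : Hv w (fun z => dif z i) (Cu.dif w i) z := by
  have h : HasFDerivAt (fun z : VV n => Cu.dif z i)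
      ((ContinuousLinearMap.proj (R := ℝ) (φ := fun _ : Fin n => ℝ) i).comp
        (ContinuousLinearMap.fst ℝ (V n) (V n) - ContinuousLinearMap.snd ℝ (V n) (V n))) z :=
    ((ContinuousLinearMap.proj (R := ℝ) (φ := fun _ : Fin n => ℝ) i).comp
        (ContinuousLinearMap.fst ℝ (V n) (V n) - ContinuousLinearMap.snd ℝ (V n) (V n))).hasFDerivAt
  refine ⟨h.differentiableAt, ?_⟩
  rw [h.fderiv]; rfl

theorem mid {g : V n → ℝ} (w z : VV n) (hg : DifferentiableAt ℝ g (Cu.mid z)) :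
    Hv w (fun z => g (Cu.mid z)) (fderiv ℝ g (Cu.mid z) (Cu.mid w)) z := by
  have h : HasFDerivAt (fun z : VV n => g (Cu.mid z)) ((fderiv ℝ g (Cu.mid z)).comp (midL n)) z :=
    HasFDerivAt.comp z hg.hasFDerivAt (midL n).hasFDerivAt
  refine ⟨h.differentiableAt, ?_⟩
  rw [h.fderiv]; rfl

/-- The derivative of `∑ G_ij(p) a_i b_j`. -/
theorem bf {g : MF n} {α β : VV n → V n} {α' β' : V n}
    (hg : ∀ i j, DifferentiableAt ℝ (fun x => g x i j) (Cu.mid z))
    (ha : ∀ i, Hv w (fun z => α z i) (α' i) z) (hb : ∀ i, Hv w (fun z => β z i) (β' i) z) :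
    Hv w (fun z => Cu.bf (g (Cu.mid z)) (α z) (β z))
      (Cu.bf (dg (Cu.mid w) g (Cu.mid z)) (α z) (β z) + Cu.bf (g (Cu.mid z)) α' (β z) +
        Cu.bf (g (Cu.mid z)) (α z) β') z := by
  have h := Hv.sum (w := w) (z := z) Finset.univ fun i (_ : i ∈ Finset.univ) =>
    Hv.sum (w := w) (z := z) Finset.univ fun j (_ : j ∈ Finset.univ) =>
      ((Hv.mid w z (hg i j)).mul (ha i)).mul (hb j)
  refine ⟨h.d, h.e.trans ?_⟩
  unfold Cu.bf dg
  simp only [← Finset.sum_add_distrib]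
  exact Finset.sum_congr rfl fun i _ => Finset.sum_congr rfl fun j _ => by ring

end Hv

section ders

variable {g : MF n} {O : Set (V n)} {w w' z : VV n}

/-- The derivative of `ρ`. -/
theorem rq_d (hg : ∀ i j, DifferentiableAt ℝ (fun x => g x i j) (mid z))
    (sy : ∀ x i j, g x i j = g x j i) (w : VV n) :
    Hv w (rq g) (bf (g (mid z)) (dif w) (dif z) +
      1 / 2 * bf (dg (mid w) g (mid z)) (dif z) (dif z)) z := by
  have h := (Hv.bf (w := w) (z := z) (α := dif) (β := dif) hg (Hv.dif w z) (Hv.dif w z)).cmul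
    (1 / 2)
  refine ⟨h.d, h.e.trans ?_⟩
  rw [bf_symm (sy (mid z)) (dif z) (dif w)]
  ring

theorem dg_symm (sy : ∀ x i j, g x i j = g x j i) (w : V n) (x : V n) (i j : Fin n) :
    dg w g x i j = dg w g x j i := by
  have : (fun y => g y i j) = fun y => g y j i := funext fun y => sy y i j
  simp only [dg, this]

/-- The second derivative of `ρ`. -/
theorem rq_dd (hO : IsOpen O) (hg : ∀ i j, ContDiffOn ℝ ∞ (fun x => g x i j) O)
    (sy : ∀ x i j, g x i j = g x j i) (w w' : VV n) (hz : mid z ∈ O) :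
    Hv w' (fun z => fderiv ℝ (rq g) z w) (bf (g (mid z)) (dif w) (dif w') +
      bf (dg (mid w') g (mid z)) (dif w) (dif z) + bf (dg (mid w) g (mid z)) (dif w') (dif z) +
      1 / 2 * bf (dg (mid w') (dg (mid w) g) (mid z)) (dif z) (dif z)) z := by
  have hd : ∀ x ∈ O, ∀ i j, DifferentiableAt ℝ (fun x => g x i j) x := fun x hx i j =>
    df_of hO (hg i j) hx
  have hg2 : ∀ w, ∀ i j, ContDiffOn ℝ ∞ (fun x => dg w g x i j) O := by
    intro w i j
    have h : ContDiffOn ℝ ∞ (fderiv ℝ fun y => g y i j) O :=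
      (hg i j).fderiv_of_isOpen hO (by norm_num)
    exact h.clm_apply contDiffOn_const
  have hd2 : ∀ w, ∀ x ∈ O, ∀ i j, DifferentiableAt ℝ (fun x => dg w g x i j) x :=
    fun w x hx i j => df_of hO (hg2 w i j) hx
  have ho : IsOpen {z : VV n | mid z ∈ O} := hO.preimage contDiff_mid.continuous
  have h1 : (fun z => fderiv ℝ (rq g) z w) =ᶠ[𝓝 z] fun z => bf (g (mid z)) (dif w) (dif z) +
      1 / 2 * bf (dg (mid w) g (mid z)) (dif z) (dif z) := by
    filter_upwards [ho.mem_nhds hz] with y hy using (rq_d (hd _ hy) sy w).e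
  have h2 := (Hv.bf (w := w') (z := z) (α := fun _ => dif w) (β := dif) (α' := 0) (hd _ hz)
    (fun i => Hv.const _) (Hv.dif w' z)).add ((Hv.bf (w := w') (z := z) (α := dif) (β := dif)
      (g := dg (mid w) g) (hd2 _ _ hz) (Hv.dif w' z) (Hv.dif w' z)).cmul (1 / 2))
  refine ⟨h2.d.congr_of_eventuallyEq h1, ?_⟩
  rw [h1.fderiv_eq, h2.e]
  have e0 : bf (g (mid z)) 0 (dif z) = 0 := by unfold bf; simp
  rw [e0, bf_symm (dg_symm sy (mid w) (mid z)) (dif z) (dif w')]
  ring

theorem sm_rq (hg : ∀ i j, ContDiffOn ℝ ∞ (fun x => g x i j) O) :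
    ContDiffOn ℝ ∞ (rq g) {z : VV n | mid z ∈ O} := by
  have hdif : ∀ i, ContDiff ℝ ∞ (fun z : VV n => dif z i) := fun i => by
    unfold dif; fun_prop
  unfold rq bf
  refine contDiffOn_const.mul (ContDiffOn.sum fun i _ => ContDiffOn.sum fun j _ => ?_)
  exact (((hg i j).comp contDiff_mid.contDiffOn fun z hz => hz).mul (hdif i).contDiffOn).mul
    (hdif j).contDiffOn

end ders

end Vale.Agent.P088.R2.H464.Cu
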