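import Vale.Agent.P088.R2.H464.EP.Rq
import Vale.Agent.P088.R2.H644.W.Chain

/-!
# P088: the Hessian form `TH` by means of the second derivative

`TH W (A, B) = D²W (U, V)² + ∑ ∂_{x_k} W N_k(x, A) + ∑ ∂_{y_k} W N_k(y, B)`, `U = s₁ A`, `V = s₂ B`.
-/

open Set Filter
open scoped ContDiff Topology Matrix

noncomputable section

namespace Vale.Agent.P088.R2.H464.Cu

open Vale.Agent.P088.LR Vale.Agent.P088.HY Vale.Agent.P088.R2.H961.GW Vale.Agent.P088.R2.H644.Ch

variable {n : ℕ}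

/-- The slot of the first variable with the scale `1`. -/
abbrev sx (s : MF n) : Sl (VV n) (Fin n) := slx (fun _ => 1) s

/-- The slot of the second variable with the scale `1`. -/
abbrev sy (s : MF n) : Sl (VV n) (Fin n) := sly (fun _ => 1) s

/-- The vector `s A`. -/
def up (S : Matrix (Fin n) (Fin n) ℝ) (A : V n) : V n := fun j => ∑ i, S i j * A i

/-- The Christoffel vector, with the sign of `TH`. -/
def nv (s : MF n) (x A : V n) (k : Fin n) : ℝ :=
  ∑ i, ∑ l, (∑ j, (s x i j * pd j (fun y => s y k l) x -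
    1 / 2 * (s x k j * pd j (fun y => s y i l) x))) * A i * A l

theorem vec_sum (u : V n) : u = ∑ j, u j • (Pi.single j 1 : V n) := by
  funext i
  simp [Finset.sum_apply, Pi.single_apply]

section pw

variable {W : VV n → ℝ} {U : Set (VV n)} {z : VV n} {s s₁ s₂ : MF n}

theorem fd2 (hU : IsOpen U) (hW : Sm U W) (hz : z ∈ U) (w w' : VV n) :
    fderiv ℝ (fun z => fderiv ℝ W z w) z w' = fderiv ℝ (fderiv ℝ W) z w' w := by
  have h3 : DifferentiableAt ℝ (fderiv ℝ W) z := by
    have h : ContDiffOn ℝ ∞ (fderiv ℝ W) U := hW.fderiv_of_isOpen hU (by norm_num)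
    exact ((h z hz).contDiffAt (hU.mem_nhds hz)).differentiableAt (by simp)
  have := fderiv_clm_apply h3 (differentiableAt_const w)
  rw [this]
  simp

theorem fd2_symm (hU : IsOpen U) (hW : Sm U W) (hz : z ∈ U) (w w' : VV n) :
    fderiv ℝ (fderiv ℝ W) z w w' = fderiv ℝ (fderiv ℝ W) z w' w := by
  have hs : IsSymmSndFDerivAt ℝ W z := (hW.at hU hz).isSymmSndFDerivAt
    (by rw [minSmoothness_of_isRCLikeNormedField]; exact WithTop.coe_le_coe.2 le_top)
  exact hs w w'

theorem inl_sum (u : V n) : ((u, 0) : VV n) = ∑ j, u j • ((Pi.single j 1, 0) : VV n) := by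
  refine Prod.ext ?_ ?_
  · simpa [Prod.fst_sum] using vec_sum u
  · simp [Prod.snd_sum]

theorem inr_sum (u : V n) : ((0, u) : VV n) = ∑ j, u j • ((0, Pi.single j 1) : VV n) := by
  refine Prod.ext ?_ ?_
  · simp [Prod.fst_sum]
  · simpa [Prod.snd_sum] using vec_sum u

theorem pr_add (u v : V n) : ((u, v) : VV n) = (u, 0) + (0, v) := by simp

theorem Dx1 (i : Fin n) (f : VV n → ℝ) (z : VV n) :
    (sx s).D i f z = fderiv ℝ f z (Pi.single i 1, 0) := by
  rw [Dx_one]; rfl

theorem Dy1 (i : Fin n) (f : VV n → ℝ) (z : VV n) :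
    (sy s).D i f z = fderiv ℝ f z (0, Pi.single i 1) := by
  rw [Dy_one]; rfl

theorem etax (i : Fin n) (z : VV n) : (sx s).η i z = 0 := by
  simp [Sl.η, sx, slx]

theorem etay (i : Fin n) (z : VV n) : (sy s).η i z = 0 := by
  simp [Sl.η, sy, sly]

theorem sum4' (F : Fin n → Fin n → Fin n → Fin n → ℝ) :
    ∑ i, ∑ l, ∑ j, ∑ k, F i l j k = ∑ j, ∑ k, ∑ i, ∑ l, F i l j k := by
  have h1 : ∀ i : Fin n, (∑ l, ∑ j, ∑ k, F i l j k) = ∑ j, ∑ k, ∑ l, F i l j k := by
    intro i
    rw [Finset.sum_comm]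
    exact Finset.sum_congr rfl fun j _ => Finset.sum_comm
  simp only [h1]
  rw [Finset.sum_comm]
  exact Finset.sum_congr rfl fun j _ => Finset.sum_comm

/-- The abstract form of the Hessian tensor of one slot. -/
theorem hc_sum (S : Matrix (Fin n) (Fin n) ℝ) (hS : ∀ i j, S i j = S j i)
    (d : Fin n → Matrix (Fin n) (Fin n) ℝ)
    (H : Fin n → Fin n → ℝ) (w A : V n) :
    ∑ i, ∑ l, (1 / 2 * ∑ j, ∑ k, (S i j * S k l * (H j k + H k j) +
      (S i j * d j k l + S l j * d j k i) * w k - S j k * w j * d k i l)) * A i * A l =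
    (∑ j, ∑ k, H j k * up S A j * up S A k) +
      ∑ k, w k * ∑ i, ∑ l, (∑ j, (S i j * d j k l - 1 / 2 * (S k j * d j i l))) * A i * A l := by
  have e0 : ∑ i, ∑ l, (1 / 2 * ∑ j, ∑ k, (S i j * S k l * (H j k + H k j) +
      (S i j * d j k l + S l j * d j k i) * w k - S j k * w j * d k i l)) * A i * A l =
      1 / 2 * (∑ i, ∑ l, ∑ j, ∑ k, S i j * S k l * H j k * A i * A l) +
      1 / 2 * (∑ i, ∑ l, ∑ j, ∑ k, S i j * S k l * H k j * A i * A l) +
      1 / 2 * (∑ i, ∑ l, ∑ j, ∑ k, S i j * d j k l * w k * A i * A l) +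
      1 / 2 * (∑ i, ∑ l, ∑ j, ∑ k, S l j * d j k i * w k * A i * A l) -
      1 / 2 * (∑ i, ∑ l, ∑ j, ∑ k, S j k * w j * d k i l * A i * A l) := by
    simp only [Finset.mul_sum, Finset.sum_mul, ← Finset.sum_add_distrib, ← Finset.sum_sub_distrib]
    refine Finset.sum_congr rfl fun i _ => Finset.sum_congr rfl fun l _ =>
      Finset.sum_congr rfl fun j _ => Finset.sum_congr rfl fun k _ => ?_
    ring
  have e1 : (∑ j, ∑ k, H j k * up S A j * up S A k) =
      ∑ i, ∑ l, ∑ j, ∑ k, S i j * S k l * H j k * A i * A l := by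
    rw [sum4']
    refine Finset.sum_congr rfl fun j _ => Finset.sum_congr rfl fun k _ => ?_
    unfold up
    rw [mul_assoc, Finset.sum_mul_sum, Finset.mul_sum]
    refine Finset.sum_congr rfl fun i _ => ?_
    rw [Finset.mul_sum]
    refine Finset.sum_congr rfl fun l _ => ?_
    rw [hS k l]; ring
  have e2 : (∑ i, ∑ l, ∑ j, ∑ k, S i j * S k l * H k j * A i * A l) =
      ∑ i, ∑ l, ∑ j, ∑ k, S i j * S k l * H j k * A i * A l := by
    rw [Finset.sum_comm]
    refine Finset.sum_congr rfl fun l _ => Finset.sum_congr rfl fun i _ => ?_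
    rw [Finset.sum_comm]
    refine Finset.sum_congr rfl fun k _ => Finset.sum_congr rfl fun j _ => ?_
    rw [hS k l, hS i j]; ring
  have e3 : (∑ i, ∑ l, ∑ j, ∑ k, S l j * d j k i * w k * A i * A l) =
      ∑ i, ∑ l, ∑ j, ∑ k, S i j * d j k l * w k * A i * A l := by
    rw [Finset.sum_comm]
    refine Finset.sum_congr rfl fun l _ => Finset.sum_congr rfl fun i _ =>
      Finset.sum_congr rfl fun j _ => Finset.sum_congr rfl fun k _ => ?_
    ring
  have e4 : (∑ k, w k * ∑ i, ∑ l, (∑ j, (S i j * d j k l - 1 / 2 * (S k j * d j i l))) * A i *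
      A l) = (∑ i, ∑ l, ∑ j, ∑ k, S i j * d j k l * w k * A i * A l) -
        1 / 2 * (∑ i, ∑ l, ∑ j, ∑ k, S j k * w j * d k i l * A i * A l) := by
    have f1 : (∑ i, ∑ l, ∑ j, ∑ k, S i j * d j k l * w k * A i * A l) =
        ∑ k, ∑ i, ∑ l, ∑ j, S i j * d j k l * w k * A i * A l := by
      rw [sum4', Finset.sum_comm]
      refine Finset.sum_congr rfl fun k _ => ?_
      rw [Finset.sum_comm]
      exact Finset.sum_congr rfl fun i _ => Finset.sum_comm
    have f2 : (∑ i, ∑ l, ∑ j, ∑ k, S j k * w j * d k i l * A i * A l) =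
        ∑ k, ∑ i, ∑ l, ∑ j, S k j * w k * d j i l * A i * A l := by
      rw [sum4']
      refine Finset.sum_congr rfl fun k _ => ?_
      rw [Finset.sum_comm]
      exact Finset.sum_congr rfl fun i _ => Finset.sum_comm
    rw [f1, f2]
    simp only [Finset.mul_sum, Finset.sum_mul, ← Finset.sum_sub_distrib]
    refine Finset.sum_congr rfl fun k _ => Finset.sum_congr rfl fun i _ =>
      Finset.sum_congr rfl fun l _ => Finset.sum_congr rfl fun j _ => ?_
    ring
  rw [e0, e1, e2, e3, e4]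
  ring

/-- The tensor of the first slot. -/
theorem hcx (hU : IsOpen U) (hW : Sm U W) (hz : z ∈ U) (y1 : ∀ x i j, s x i j = s x j i)
    (h1 : ∀ i j, DifferentiableAt ℝ (fun x => s x i j) z.1) (A : V n) :
    ∑ i, ∑ l, (sx s).Hc W i l z * A i * A l =
      fderiv ℝ (fderiv ℝ W) z (up (s z.1) A, 0) (up (s z.1) A, 0) +
        ∑ k, dx k W z * nv s z.1 A k := by
  have e1 : ∀ j k, (sx s).D j ((sx s).D k W) z =
      fderiv ℝ (fderiv ℝ W) z (Pi.single j 1, 0) (Pi.single k 1, 0) := by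
    intro j k
    rw [Dx1, ← fd2 hU hW hz]
    congr 1
    congr 1
    funext w
    exact Dx1 k W w
  have e2 : ∀ j i l, (sx s).D j ((sx s).s i l) z = pd j (fun y => s y i l) z.1 := by
    intro j i l
    have := Dx_fst (r := fun _ => (1 : ℝ)) (s := s) (z := z) (h1 i l) j
    rw [one_mul] at this
    exact this
  have e4 : ∀ j, (sx s).D j W z = dx j W z := fun j => congrFun (Dx_one j W) z
  have e5 : ∀ i j, (sx s).s i j z = s z.1 i j := fun _ _ => rfl
  have e3 : ∀ i l, (sx s).Hc W i l z = 1 / 2 * ∑ j, ∑ k, (s z.1 i j * s z.1 k l *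
      (fderiv ℝ (fderiv ℝ W) z (Pi.single j 1, 0) (Pi.single k 1, 0) +
        fderiv ℝ (fderiv ℝ W) z (Pi.single k 1, 0) (Pi.single j 1, 0)) +
      (s z.1 i j * pd j (fun y => s y k l) z.1 + s z.1 l j * pd j (fun y => s y k i) z.1) *
        dx k W z - s z.1 j k * dx j W z * pd k (fun y => s y i l) z.1) := by
    intro i l
    unfold Sl.Hc
    simp only [e1, e2, etax, e4, e5]
    congr 1
    refine Finset.sum_congr rfl fun j _ => Finset.sum_congr rfl fun k _ => ?_
    ring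
  have := hc_sum (s z.1) (y1 z.1) (fun k => fun i j => pd k (fun y => s y i j) z.1)
    (fun j k => fderiv ℝ (fderiv ℝ W) z (Pi.single j 1, 0) (Pi.single k 1, 0))
    (fun k => dx k W z) A
  simp only [e3]
  rw [this]
  congr 1
  rw [inl_sum (up (s z.1) A)]
  simp only [map_sum, map_smul, _root_.sum_apply, _root_.smul_apply, smul_eq_mul,
    Finset.mul_sum]
  rw [Finset.sum_comm]
  refine Finset.sum_congr rfl fun j _ => Finset.sum_congr rfl fun k _ => ?_
  ring

/-- The tensor of the second slot. -/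
theorem hcy (hU : IsOpen U) (hW : Sm U W) (hz : z ∈ U) (y1 : ∀ x i j, s x i j = s x j i)
    (h1 : ∀ i j, DifferentiableAt ℝ (fun x => s x i j) z.2) (A : V n) :
    ∑ i, ∑ l, (sy s).Hc W i l z * A i * A l =
      fderiv ℝ (fderiv ℝ W) z (0, up (s z.2) A) (0, up (s z.2) A) +
        ∑ k, dy k W z * nv s z.2 A k := by
  have e1 : ∀ j k, (sy s).D j ((sy s).D k W) z =
      fderiv ℝ (fderiv ℝ W) z (0, Pi.single j 1) (0, Pi.single k 1) := by
    intro j k
    rw [Dy1, ← fd2 hU hW hz]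
    congr 1
    congr 1
    funext w
    exact Dy1 k W w
  have e2 : ∀ j i l, (sy s).D j ((sy s).s i l) z = pd j (fun y => s y i l) z.2 := by
    intro j i l
    have := Dy_snd (r := fun _ => (1 : ℝ)) (s := s) (z := z) (h1 i l) j
    rw [one_mul] at this
    exact this
  have e4 : ∀ j, (sy s).D j W z = dy j W z := fun j => congrFun (Dy_one j W) z
  have e5 : ∀ i j, (sy s).s i j z = s z.2 i j := fun _ _ => rfl
  have e3 : ∀ i l, (sy s).Hc W i l z = 1 / 2 * ∑ j, ∑ k, (s z.2 i j * s z.2 k l *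
      (fderiv ℝ (fderiv ℝ W) z (0, Pi.single j 1) (0, Pi.single k 1) +
        fderiv ℝ (fderiv ℝ W) z (0, Pi.single k 1) (0, Pi.single j 1)) +
      (s z.2 i j * pd j (fun y => s y k l) z.2 + s z.2 l j * pd j (fun y => s y k i) z.2) *
        dy k W z - s z.2 j k * dy j W z * pd k (fun y => s y i l) z.2) := by
    intro i l
    unfold Sl.Hc
    simp only [e1, e2, etay, e4, e5]
    congr 1
    refine Finset.sum_congr rfl fun j _ => Finset.sum_congr rfl fun k _ => ?_
    ring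
  have := hc_sum (s z.2) (y1 z.2) (fun k => fun i j => pd k (fun y => s y i j) z.2)
    (fun j k => fderiv ℝ (fderiv ℝ W) z (0, Pi.single j 1) (0, Pi.single k 1))
    (fun k => dy k W z) A
  simp only [e3]
  rw [this]
  congr 1
  rw [inr_sum (up (s z.2) A)]
  simp only [map_sum, map_smul, _root_.sum_apply, _root_.smul_apply, smul_eq_mul,
    Finset.mul_sum]
  rw [Finset.sum_comm]
  refine Finset.sum_congr rfl fun j _ => Finset.sum_congr rfl fun k _ => ?_
  ring

/-- The mixed tensor. -/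
theorem mcz (hU : IsOpen U) (hW : Sm U W) (hz : z ∈ U) (A B : V n) :
    ∑ i, ∑ k, Mc (sx s₁) (sy s₂) W i k z * A i * B k =
      fderiv ℝ (fderiv ℝ W) z (up (s₁ z.1) A, 0) (0, up (s₂ z.2) B) := by
  have e1 : ∀ j k, (sx s₁).D j ((sy s₂).D k W) z =
      fderiv ℝ (fderiv ℝ W) z (Pi.single j 1, 0) (0, Pi.single k 1) := by
    intro j k
    rw [Dx1, ← fd2 hU hW hz]
    congr 1
    congr 1
    funext w
    exact Dy1 k W w
  rw [inl_sum (up (s₁ z.1) A), inr_sum (up (s₂ z.2) B)]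
  simp only [map_sum, map_smul, _root_.sum_apply, _root_.smul_apply, smul_eq_mul,
    Finset.mul_sum]
  have e2 : ∀ i k, Mc (sx s₁) (sy s₂) W i k z * A i * B k = ∑ l, ∑ j, up (s₂ z.2) (Pi.single k 1) l *
      B k * (up (s₁ z.1) (Pi.single i 1) j * A i *
        fderiv ℝ (fderiv ℝ W) z (Pi.single j 1, 0) (0, Pi.single l 1)) := by
    intro i k
    unfold Mc
    simp only [e1, Finset.sum_mul]
    rw [Finset.sum_comm]
    refine Finset.sum_congr rfl fun l _ => Finset.sum_congr rfl fun j _ => ?_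
    have a1 : up (s₂ z.2) (Pi.single k 1) l = s₂ z.2 k l := by
      simp [up, Pi.single_apply]
    have a2 : up (s₁ z.1) (Pi.single i 1) j = s₁ z.1 i j := by
      simp [up, Pi.single_apply]
    have b1 : (sx s₁).s i j z = s₁ z.1 i j := rfl
    have b2 : (sy s₂).s k l z = s₂ z.2 k l := rfl
    rw [a1, a2, b1, b2]
    ring
  simp only [e2]
  have a3 : ∀ (S : Matrix (Fin n) (Fin n) ℝ) (C : V n) (l : Fin n),
      ∑ k, up S (Pi.single k 1) l * C k = up S C l := by
    intro S C l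
    simp [up, Pi.single_apply]
  rw [sum4']
  refine Finset.sum_congr rfl fun l _ => Finset.sum_congr rfl fun j _ => ?_
  rw [← a3 (s₂ z.2) B l, ← a3 (s₁ z.1) A j, Finset.sum_comm, Finset.sum_mul]
  refine Finset.sum_congr rfl fun k _ => ?_
  rw [Finset.sum_mul, Finset.mul_sum]

/-- **`TH` by means of the second derivative.** -/
theorem TH_eq (hU : IsOpen U) (hW : Sm U W) (hz : z ∈ U) (y1 : ∀ x i j, s₁ x i j = s₁ x j i)
    (y2 : ∀ x i j, s₂ x i j = s₂ x j i)
    (h1 : ∀ i j, DifferentiableAt ℝ (fun x => s₁ x i j) z.1)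
    (h2 : ∀ i j, DifferentiableAt ℝ (fun x => s₂ x i j) z.2) (A B : V n) :
    TH (sx s₁) (sy s₂) W z A B =
      fderiv ℝ (fun z' => fderiv ℝ W z' (up (s₁ z.1) A, up (s₂ z.2) B)) z
        (up (s₁ z.1) A, up (s₂ z.2) B) +
      (∑ k, dx k W z * nv s₁ z.1 A k) + ∑ k, dy k W z * nv s₂ z.2 B k := by
  rw [fd2 hU hW hz, pr_add (up (s₁ z.1) A) (up (s₂ z.2) B)]
  simp only [map_add, _root_.add_apply]
  rw [fd2_symm hU hW hz (0, up (s₂ z.2) B) (up (s₁ z.1) A, 0)]
  unfold TH
  rw [hcx hU hW hz y1 h1, hcy hU hW hz y2 h2, mcz hU hW hz]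
  ring

end pw

end Vale.Agent.P088.R2.H464.Cu
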